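import Mathlib
import Vale.Agent.Lib.P084.Propagate4

/-! Differentiability points of a norm: continuity of the derivative along them, and a description
of the differentiability points and of the smooth exposed directions by open conditions. -/

namespace Vale.Agent.Lib.P084

open Set Metric Filter Topology

section CornerBasic

variable {E : Type*} [NormedAddCommGroup E] [NormedSpace ℝ E]

/-- The norm is differentiable at the point. -/
abbrev Dn (z : E) : Prop := DifferentiableAt ℝ (fun w : E => ‖w‖) z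

lemma Dn.chi_self {z : E} (hz : Dn z) : chi z z = ‖z‖ := hz.fderiv_norm_self

lemma Dn.smul {z : E} (hz : Dn z) {s : ℝ} (hs : 0 < s) : Dn (s • z) :=
  (hz.hasFDerivAt.hasFDerivAt_norm_smul_pos hs).differentiableAt

/-- Continuity of the derivative of the norm along differentiability points. -/
lemma chi_close {z : E} (hz : Dn z) {ε : ℝ} (hε : 0 < ε) :
    ∃ r > 0, ∀ a : E, Dn a → ‖a - z‖ < r → ‖chi a - chi z‖ < ε := by
  have hε4 : 0 < ε / 4 := by positivity
  have h1 := hz.hasFDerivAt.isLittleO.def hε4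
  obtain ⟨δ, hδ, hball⟩ := Metric.eventually_nhds_iff.1 h1
  have hup : ∀ h : E, ‖h‖ < δ → ‖z + h‖ - ‖z‖ - chi z h ≤ ε / 4 * ‖h‖ := by
    intro h hh
    have h2 := hball (y := z + h) (by rw [dist_eq_norm, add_sub_cancel_left]; exact hh)
    rw [add_sub_cancel_left, Real.norm_eq_abs] at h2
    exact (le_abs_self _).trans h2
  refine ⟨ε * δ / 16, by positivity, fun a ha hr => ?_⟩
  have key : ∀ u : E, ‖u‖ = 1 → (chi a - chi z) u ≤ ε / 2 := by
    intro u hu
    have hh : ‖(δ / 2) • u‖ = δ / 2 := by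
      rw [norm_smul, hu, mul_one, Real.norm_of_nonneg (by positivity)]
    have h3 := hup ((δ / 2) • u) (by rw [hh]; linarith)
    rw [hh] at h3
    have h4 := chi_le a (z + (δ / 2) • u)
    have h5 : chi a (z + (δ / 2) • u) = chi a a + chi a (z - a) + (δ / 2) * chi a u := by
      rw [map_add, map_smul, smul_eq_mul, map_sub]
      ring
    rw [h5, ha.chi_self] at h4
    have h6 := abs_chi_le a (z - a)
    have h7 : ‖z - a‖ = ‖a - z‖ := norm_sub_rev _ _
    have h8 := abs_norm_sub_norm_le a z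
    have h9 := (abs_le.1 h6).1
    have h10 := (abs_le.1 h8).1
    have h11 : chi z ((δ / 2) • u) = (δ / 2) * chi z u := by rw [map_smul, smul_eq_mul]
    rw [h11] at h3
    have h12 : (δ / 2) * (chi a u - chi z u) ≤ ε / 4 * (δ / 2) + 2 * ‖a - z‖ := by
      rw [h7] at h9
      nlinarith
    have h13 : (δ / 2) * (chi a u - chi z u) ≤ (δ / 2) * (ε / 2) := by
      have : 2 * ‖a - z‖ ≤ ε * δ / 8 := by linarith
      nlinarith
    have h14 := le_of_mul_le_mul_left h13 (by positivity)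
    simpa using h14
  have hle : ‖chi a - chi z‖ ≤ ε / 2 := by
    refine ContinuousLinearMap.opNorm_le_of_unit_norm (by positivity) fun u hu => ?_
    rw [Real.norm_eq_abs, abs_le]
    refine ⟨?_, key u hu⟩
    have h1 := key (-u) (by rwa [norm_neg])
    rw [map_neg] at h1
    linarith
  linarith

/-- The derivative of the norm along a dense set of differentiability points having a vanishing
oscillation at a point, the norm is differentiable at that point. -/
lemma dn_of_osc [CompleteSpace ℝ] {G : Set E} (hG : Dense G) (hGd : ∀ a ∈ G, Dn a) {z : E}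
    (hosc : ∀ ε > 0, ∃ r > 0, ∀ a ∈ G, ∀ b ∈ G, ‖a - z‖ < r → ‖b - z‖ < r →
      ‖chi a - chi b‖ < ε) : Dn z := by
  have hex : ∀ k : ℕ, ∃ a ∈ G, ‖a - z‖ < 1 / ((k : ℝ) + 1) := by
    intro k
    obtain ⟨a, ha, haG⟩ := Metric.dense_iff.1 hG z (1 / ((k : ℝ) + 1)) (by positivity)
    refine ⟨a, haG, ?_⟩
    rwa [mem_ball, dist_eq_norm] at ha
  choose a haG ha using hex
  have hto : Tendsto a atTop (𝓝 z) := by
    rw [tendsto_iff_norm_sub_tendsto_zero]
    exact squeeze_zero (fun _ => norm_nonneg _) (fun k => (ha k).le)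
      tendsto_one_div_add_atTop_nhds_zero_nat
  have hcau : CauchySeq fun k => chi (a k) := by
    rw [Metric.cauchySeq_iff]
    intro ε hε
    obtain ⟨r, hr, hb⟩ := hosc ε hε
    obtain ⟨N, hN⟩ := Metric.tendsto_atTop.1 hto r hr
    refine ⟨N, fun m hm n hn => ?_⟩
    rw [dist_eq_norm]
    refine hb _ (haG m) _ (haG n) ?_ ?_
    · have := hN m hm
      rwa [dist_eq_norm] at this
    · have := hN n hn
      rwa [dist_eq_norm] at this
  obtain ⟨ξ, hξ⟩ := cauchySeq_tendsto_of_complete hcau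
  have hclose : ∀ ε > 0, ∃ r > 0, ∀ c ∈ G, ‖c - z‖ < r → ‖chi c - ξ‖ ≤ ε := by
    intro ε hε
    obtain ⟨r, hr, hb⟩ := hosc ε hε
    refine ⟨r, hr, fun c hc hcr => ?_⟩
    obtain ⟨N, hN⟩ := Metric.tendsto_atTop.1 hto r hr
    have h1 : Tendsto (fun k => ‖chi c - chi (a k)‖) atTop (𝓝 ‖chi c - ξ‖) :=
      (tendsto_const_nhds.sub hξ).norm
    refine le_of_tendsto h1 ?_
    filter_upwards [eventually_ge_atTop N] with k hk
    refine (hb c hc _ (haG k) hcr ?_).le
    have := hN k hk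
    rwa [dist_eq_norm] at this
  refine (HasFDerivAt.of_isLittleO (f' := ξ) ?_).differentiableAt
  rw [Asymptotics.isLittleO_iff]
  intro ε hε
  obtain ⟨r, hr, hc⟩ := hclose (ε / 2) (by positivity)
  rw [Metric.eventually_nhds_iff]
  refine ⟨r / 2, by positivity, fun {w} hw => ?_⟩
  obtain ⟨h, rfl⟩ : ∃ h, w = z + h := ⟨w - z, by abel⟩
  rw [dist_eq_norm, add_sub_cancel_left] at hw
  rw [add_sub_cancel_left, Real.norm_eq_abs]
  by_cases hh : h = 0
  · simp [hh]
  have hhn : 0 < ‖h‖ := norm_pos_iff.2 hh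
  have hsmall : 0 < min (ε * ‖h‖ / 8) (r / 2) := by positivity
  -- the upper bound
  obtain ⟨c₁, hc₁, hc₁G⟩ := Metric.dense_iff.1 hG (z + h) _ hsmall
  rw [mem_ball, dist_eq_norm] at hc₁
  have hc₁a : ‖c₁ - (z + h)‖ < ε * ‖h‖ / 8 := hc₁.trans_le (min_le_left _ _)
  have hc₁b : ‖c₁ - (z + h)‖ < r / 2 := hc₁.trans_le (min_le_right _ _)
  have hc₁z : ‖c₁ - z‖ < r := by
    have e : c₁ - z = (c₁ - (z + h)) + h := by abel
    rw [e]
    exact (norm_add_le _ _).trans_lt (by linarith)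
  have hc₁ξ := hc c₁ hc₁G hc₁z
  have hU : ‖z + h‖ - ‖z‖ - ξ h ≤ ε * ‖h‖ := by
    have h1 : ‖z + h‖ ≤ ‖c₁‖ + ‖c₁ - (z + h)‖ := by
      have := norm_sub_le c₁ (c₁ - (z + h))
      rwa [sub_sub_cancel] at this
    have h2 := (hGd c₁ hc₁G).chi_self
    have h3 := chi_le c₁ z
    have h4 : chi c₁ c₁ = chi c₁ z + chi c₁ h + chi c₁ (c₁ - (z + h)) := by
      rw [← map_add, ← map_add]
      congr 1
      abel
    have h5 := chi_le c₁ (c₁ - (z + h))
    have h6 : chi c₁ h - ξ h ≤ ε / 2 * ‖h‖ := by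
      have h8 := (chi c₁ - ξ).le_opNorm h
      rw [Real.norm_eq_abs] at h8
      have h7 := le_abs_self ((chi c₁ - ξ) h)
      have h9 := mul_le_mul_of_nonneg_right hc₁ξ hhn.le
      have h10 : (chi c₁ - ξ) h = chi c₁ h - ξ h := rfl
      rw [h10] at h7 h8
      linarith
    have h11 : ε / 2 * ‖h‖ + 2 * (ε * ‖h‖ / 8) = 3 / 4 * (ε * ‖h‖) := by ring
    have h12 : 0 ≤ ε * ‖h‖ := by positivity
    linarith
  -- the lower bound
  obtain ⟨c₂, hc₂, hc₂G⟩ := Metric.dense_iff.1 hG z _ hsmall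
  rw [mem_ball, dist_eq_norm] at hc₂
  have hc₂a : ‖c₂ - z‖ < ε * ‖h‖ / 8 := hc₂.trans_le (min_le_left _ _)
  have hc₂b : ‖c₂ - z‖ < r := (hc₂.trans_le (min_le_right _ _)).trans (by linarith)
  have hc₂ξ := hc c₂ hc₂G hc₂b
  have hL : -(ε * ‖h‖) ≤ ‖z + h‖ - ‖z‖ - ξ h := by
    have h1 := chi_le c₂ (z + h)
    have h2 := (hGd c₂ hc₂G).chi_self
    have h4 : chi c₂ (z + h) = chi c₂ c₂ - chi c₂ (c₂ - z) + chi c₂ h := by
      rw [← map_sub, ← map_add]
      congr 1
      abel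
    have h5 := chi_le c₂ (c₂ - z)
    have h6 : ξ h - chi c₂ h ≤ ε / 2 * ‖h‖ := by
      have h8 := (chi c₂ - ξ).le_opNorm h
      rw [Real.norm_eq_abs] at h8
      have h7 := neg_abs_le ((chi c₂ - ξ) h)
      have h9 := mul_le_mul_of_nonneg_right hc₂ξ hhn.le
      have h10 : (chi c₂ - ξ) h = chi c₂ h - ξ h := rfl
      rw [h10] at h7 h8
      linarith
    have h8 : ‖z‖ ≤ ‖c₂‖ + ‖c₂ - z‖ := by
      have := norm_sub_le c₂ (c₂ - z)
      rwa [sub_sub_cancel] at this
    have h11 : ε / 2 * ‖h‖ + 2 * (ε * ‖h‖ / 8) = 3 / 4 * (ε * ‖h‖) := by ring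
    have h12 : 0 ≤ ε * ‖h‖ := by positivity
    linarith
  rw [abs_le]
  exact ⟨by linarith, hU⟩

/-- The derivative of the norm has infinite Lipschitz rate at the point (this includes points where
the norm is not differentiable). -/
def Rough (x₀ : E) : Prop :=
  ∀ M > 0, ∀ r₀ > 0, ∃ r, 0 < r ∧ r < r₀ ∧ ∃ a b : E, Dn a ∧ Dn b ∧ ‖a - x₀‖ < r ∧ ‖b - x₀‖ < r ∧
    M * r ≤ ‖chi a - chi b‖

/-- A point of non-differentiability of the norm is rough. -/
lemma rough_of_not_dn (hG : Dense {z : E | Dn z}) {x₀ : E} (h : ¬Dn x₀) : Rough x₀ := by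
  by_contra hc
  apply h
  unfold Rough at hc
  push Not at hc
  obtain ⟨M, hM, r₀, hr₀, hb⟩ := hc
  refine dn_of_osc hG (fun a ha => ha) fun ε hε => ?_
  refine ⟨min (r₀ / 2) (ε / M), lt_min (by positivity) (by positivity), fun a ha b hb' h1 h2 => ?_⟩
  have hr : 0 < min (r₀ / 2) (ε / M) := lt_min (by positivity) (by positivity)
  have h3 := hb _ hr ((min_le_left _ _).trans_lt (by linarith)) a b ha hb' h1 h2
  refine h3.trans_le ?_
  have h4 : M * min (r₀ / 2) (ε / M) ≤ M * (ε / M) :=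
    mul_le_mul_of_nonneg_left (min_le_right _ _) hM.le
  have h5 : M * (ε / M) = ε := by field_simp
  linarith

end CornerBasic

end Vale.Agent.Lib.P084
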