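import Mathlib
import Vale.Agent.Lib.P084.Corner.Basic
import Vale.Agent.Lib.P084.OrderUnit
import Vale.Agent.Lib.P084.Regular

/-! The radial extension of a sphere isometry is Lipschitz, and the first order identity along
chords at its points of differentiability. -/

namespace Vale.Agent.Lib.P084

open Set Metric Filter Topology

section Rad

variable {X Y : Type*} [NormedAddCommGroup X] [NormedSpace ℝ X]
  [NormedAddCommGroup Y] [NormedSpace ℝ Y] {g : X → Y} {h : Y → X}

lemma radial_dist_le (H : SphereIso g h) (u v : X) : ‖radial g u - radial g v‖ ≤ 3 * ‖u - v‖ := by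
  by_cases hu : u = 0
  · subst hu
    rw [radial_zero, zero_sub, zero_sub, norm_neg, norm_neg, radial_norm H]
    linarith [norm_nonneg v]
  by_cases hv : v = 0
  · subst hv
    rw [radial_zero, sub_zero, sub_zero, radial_norm H]
    linarith [norm_nonneg u]
  have hun := unit_of_ne hu
  have hvn := unit_of_ne hv
  have hu0 : ‖u‖ ≠ 0 := norm_ne_zero_iff.2 hu
  have hv0 : ‖v‖ ≠ 0 := norm_ne_zero_iff.2 hv
  obtain ⟨a, ha⟩ : ∃ a : X, a = ‖u‖⁻¹ • u := ⟨_, rfl⟩
  obtain ⟨b, hb⟩ : ∃ b : X, b = ‖v‖⁻¹ • v := ⟨_, rfl⟩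
  rw [← ha] at hun
  rw [← hb] at hvn
  have hua : ‖u‖ • a = u := by rw [ha, smul_smul, mul_inv_cancel₀ hu0, one_smul]
  have hvb : ‖v‖ • b = v := by rw [hb, smul_smul, mul_inv_cancel₀ hv0, one_smul]
  have e : radial g u - radial g v = (‖u‖ - ‖v‖) • g a + ‖v‖ • (g a - g b) := by
    simp only [radial]
    rw [← ha, ← hb]
    module
  have h1 : ‖(‖u‖ - ‖v‖) • g a‖ ≤ ‖u - v‖ := by
    rw [norm_smul, H.map_g a hun, mul_one, Real.norm_eq_abs]
    exact abs_norm_sub_norm_le u v
  have h2 : ‖‖v‖ • (g a - g b)‖ ≤ 2 * ‖u - v‖ := by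
    have e0 : ‖v‖ * ‖a - b‖ = ‖‖v‖ • (a - b)‖ := by rw [norm_smul, norm_norm]
    rw [norm_smul, norm_norm, H.iso a b hun hvn, e0, smul_sub, hvb]
    have e2 : ‖v‖ • a - v = (‖v‖ - ‖u‖) • a + (u - v) := by
      have e3 : (‖v‖ - ‖u‖) • a = ‖v‖ • a - ‖u‖ • a := sub_smul _ _ _
      rw [e3, hua]
      abel
    rw [e2]
    refine (norm_add_le _ _).trans ?_
    rw [norm_smul, hun, mul_one, Real.norm_eq_abs]
    have := abs_norm_sub_norm_le v u
    rw [norm_sub_rev v u] at this
    linarith
  rw [e]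
  refine (norm_add_le _ _).trans ?_
  linarith

lemma radial_lipschitz (H : SphereIso g h) : LipschitzWith 3 (radial g) := by
  refine LipschitzWith.of_dist_le_mul fun u v => ?_
  rw [dist_eq_norm, dist_eq_norm]
  exact radial_dist_le H u v

/-- Euler's identity for the derivative of a homogeneous map. -/
lemma radial_fderiv_self {g : X → Y} {x : X} {A : X →L[ℝ] Y} (hA : HasFDerivAt (radial g) A x) :
    A x = radial g x := by
  have h1 : HasDerivAt (fun t : ℝ => (1 + t) • x) x 0 := by
    have h2 : HasDerivAt (fun t : ℝ => 1 + t) 1 0 := by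
      simpa using (hasDerivAt_id (0 : ℝ)).const_add 1
    simpa using h2.smul_const x
  have h3 : HasFDerivAt (radial g) A ((fun t : ℝ => (1 + t) • x) 0) := by simpa using hA
  have h4 := h3.comp_hasDerivAt (0 : ℝ) h1
  have h5 : HasDerivAt (fun t : ℝ => (1 + t) • radial g x) (radial g x) 0 := by
    have h2 : HasDerivAt (fun t : ℝ => 1 + t) 1 0 := by
      simpa using (hasDerivAt_id (0 : ℝ)).const_add 1
    simpa using h2.smul_const (radial g x)
  have h6 : (radial g ∘ fun t : ℝ => (1 + t) • x) =ᶠ[𝓝 0] fun t : ℝ => (1 + t) • radial g x := by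
    have h7 : ∀ᶠ t : ℝ in 𝓝 0, 0 < 1 + t := by
      have : ContinuousAt (fun t : ℝ => 1 + t) 0 := by fun_prop
      exact this.eventually (lt_mem_nhds (by norm_num))
    filter_upwards [h7] with t ht
    exact radial_smul g ht.le x
  exact (h4.congr_of_eventuallyEq h6.symm).unique h5

/-- Differentiability of the radial extension is invariant under positive scaling. -/
lemma radial_hasFDerivAt_smul {g : X → Y} {x : X} {A : X →L[ℝ] Y}
    (hA : HasFDerivAt (radial g) A x) {s : ℝ} (hs : 0 < s) :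
    HasFDerivAt (radial g) A (s • x) := by
  have h1 : HasFDerivAt (fun z : X => s⁻¹ • z) (s⁻¹ • ContinuousLinearMap.id ℝ X) (s • x) :=
    (hasFDerivAt_id (s • x)).const_smul s⁻¹
  have h2 : HasFDerivAt (radial g) A ((fun z : X => s⁻¹ • z) (s • x)) := by
    simpa [smul_smul, inv_mul_cancel₀ hs.ne'] using hA
  have h3 := (h2.comp (s • x) h1).const_smul s
  have h4 : s • A.comp (s⁻¹ • ContinuousLinearMap.id ℝ X) = A := by
    ext v
    simp [smul_smul, mul_inv_cancel₀ hs.ne']
  rw [h4] at h3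
  refine h3.congr_of_eventuallyEq (Eventually.of_forall fun z => ?_)
  change radial g z = s • radial g (s⁻¹ • z)
  rw [← radial_smul g hs.le, smul_smul, mul_inv_cancel₀ hs.ne', one_smul]

/-- The normalised line through a unit vector in a tangent direction. -/
noncomputable def nline (x u : X) (t : ℝ) : X := ‖x + t • u‖⁻¹ • (x + t • u)

lemma nline_zero {x : X} (hx : ‖x‖ = 1) (u : X) : nline x u 0 = x := by
  simp [nline, hx]

lemma nline_unit {x : X} (hx : ‖x‖ = 1) (u : X) : ∀ᶠ t in 𝓝 (0 : ℝ), ‖nline x u t‖ = 1 := by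
  have hc : ContinuousAt (fun t : ℝ => ‖x + t • u‖) 0 := by fun_prop
  have h1 : ∀ᶠ t : ℝ in 𝓝 0, 0 < ‖x + t • u‖ :=
    hc.eventually (lt_mem_nhds (by simp [hx]))
  filter_upwards [h1] with t ht
  simp only [nline]
  rw [norm_smul, norm_inv, norm_norm, inv_mul_cancel₀ ht.ne']

lemma nline_hasDerivAt {x u : X} (hx : ‖x‖ = 1) (hxd : Dn x) (hu : chi x u = 0) :
    HasDerivAt (nline x u) u 0 := by
  have h1 : HasDerivAt (fun t : ℝ => x + t • u) u 0 := by
    simpa using ((hasDerivAt_id (0 : ℝ)).smul_const u).const_add x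
  have h2 : HasFDerivAt (fun z : X => ‖z‖) (chi x) ((fun t : ℝ => x + t • u) 0) := by
    simp only [zero_smul, add_zero]
    exact hxd.hasFDerivAt
  have h3 : HasDerivAt (fun t : ℝ => ‖x + t • u‖) 0 0 := by
    have := h2.comp_hasDerivAt (0 : ℝ) h1
    rwa [hu] at this
  have h4 : HasDerivAt (fun t : ℝ => ‖x + t • u‖⁻¹) 0 0 := by
    have h5 : ‖x + (0 : ℝ) • u‖ ≠ 0 := by simp [hx]
    have := h3.fun_inv h5
    simpa using this
  have h5 : HasDerivAt (nline x u) _ 0 := h4.smul h1
  exact h5.congr_deriv (by simp [hx])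

/-- The identity along chords on the tangent hyperplane. -/
lemma chord_tangent (H : SphereIso g h) {x y u : X} (hx : ‖x‖ = 1) (hy : ‖y‖ = 1) (hxd : Dn x)
    {A : X →L[ℝ] Y} (hA : HasFDerivAt (radial g) A x) (hd : Dn (x - y)) (hd' : Dn (g x - g y))
    (hu : chi x u = 0) : chi (g x - g y) (A u) = chi (x - y) u := by
  have hn := nline_hasDerivAt hx hxd hu
  have hn0 := nline_zero hx u
  have h1 : HasFDerivAt (radial g) A (nline x u 0) := by rwa [hn0]
  have h2 : HasDerivAt (fun t => radial g (nline x u t)) (A u) 0 := h1.comp_hasDerivAt (0 : ℝ) hn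
  have h3 : HasDerivAt (fun t => radial g (nline x u t) - g y) (A u) 0 := h2.sub_const _
  have h4 : HasFDerivAt (fun z : Y => ‖z‖) (chi (g x - g y))
      ((fun t => radial g (nline x u t) - g y) 0) := by
    simp only [hn0]
    rw [radial_of_unit g hx]
    exact hd'.hasFDerivAt
  have h5 : HasDerivAt (fun t => ‖radial g (nline x u t) - g y‖) (chi (g x - g y) (A u)) 0 :=
    h4.comp_hasDerivAt (0 : ℝ) h3
  have h6 : HasDerivAt (fun t => nline x u t - y) u 0 := hn.sub_const _
  have h7 : HasFDerivAt (fun z : X => ‖z‖) (chi (x - y)) ((fun t => nline x u t - y) 0) := by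
    simp only [hn0]
    exact hd.hasFDerivAt
  have h8 : HasDerivAt (fun t => ‖nline x u t - y‖) (chi (x - y) u) 0 :=
    h7.comp_hasDerivAt (0 : ℝ) h6
  have h9 : (fun t => ‖radial g (nline x u t) - g y‖) =ᶠ[𝓝 0] fun t => ‖nline x u t - y‖ := by
    filter_upwards [nline_unit hx u] with t ht
    rw [radial_of_unit g ht, H.iso _ _ ht hy]
  exact (h5.congr_of_eventuallyEq h9.symm).unique h8

/-- The identity along chords. -/
lemma chord_full (H : SphereIso g h) {x y : X} (hx : ‖x‖ = 1) (hy : ‖y‖ = 1) (hxd : Dn x)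
    {A : X →L[ℝ] Y} (hA : HasFDerivAt (radial g) A x) (hd : Dn (x - y)) (hd' : Dn (g x - g y))
    (v : X) : chi (g x - g y) (A v) =
      chi (x - y) v + (chi (g x - g y) (g x) - chi (x - y) x) * chi x v := by
  have hxx : chi x x = 1 := by rw [hxd.chi_self, hx]
  have hu : chi x (v - chi x v • x) = 0 := by
    rw [map_sub, map_smul, hxx, smul_eq_mul, mul_one, sub_self]
  have h1 := chord_tangent H hx hy hxd hA hd hd' hu
  have hAx : A x = g x := by rw [radial_fderiv_self hA, radial_of_unit g hx]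
  rw [map_sub, map_sub, map_sub, map_smul, map_smul, map_smul, hAx, smul_eq_mul, smul_eq_mul] at h1
  linarith

end Rad

end Vale.Agent.Lib.P084
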