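import Mathlib
import Vale.Agent.Lib.P084.Corner.Rad

/-! Null sets and chords: for a fixed unit vector `a`, the unit vectors `y` such that `a - y` lies in
a given null cone are negligible among the unit vectors with `a + y` of norm less than two. -/

namespace Vale.Agent.Lib.P084

open Set Metric Filter Topology MeasureTheory Module
open scoped NNReal ENNReal

section Null

variable {X : Type*} [NormedAddCommGroup X] [NormedSpace ℝ X]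

lemma hat_smul {z : X} {t : ℝ} (ht : 0 < t) : ‖t • z‖⁻¹ • (t • z) = ‖z‖⁻¹ • z := by
  rw [norm_smul, Real.norm_of_nonneg ht.le, smul_smul]
  congr 1
  by_cases hz : ‖z‖ = 0
  · simp [hz]
  · field_simp

lemma theta_side {a v v' : X} {ξ : StrongDual ℝ X} (hξ : ‖ξ‖ = 1) (hξv : ξ v = ‖v‖)
    {c : ℝ} (hξa : ξ a ≤ 1 - c) (hle : ‖v'‖ ≤ ‖v‖) :
    (‖v‖ - ‖v'‖) * c ≤ ‖(‖v‖ • a - v) - (‖v'‖ • a - v')‖ := by
  have h1 : ξ v' ≤ ‖v'‖ := by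
    have := ξ.le_opNorm v'
    rw [hξ, one_mul, Real.norm_eq_abs] at this
    exact (le_abs_self _).trans this
  have h2 : ξ ((‖v'‖ • a - v') - (‖v‖ • a - v)) ≤ ‖(‖v‖ • a - v) - (‖v'‖ • a - v')‖ := by
    have := ξ.le_opNorm ((‖v'‖ • a - v') - (‖v‖ • a - v))
    rw [hξ, one_mul, Real.norm_eq_abs, norm_sub_rev] at this
    exact (le_abs_self _).trans this
  rw [map_sub, map_sub, map_sub, map_smul, map_smul, smul_eq_mul, smul_eq_mul, hξv] at h2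
  nlinarith [sub_nonneg.2 hle]

lemma dual_at {a v : X} (hv : v ≠ 0) {c : ℝ} (h : ‖a + ‖v‖⁻¹ • v‖ ≤ 2 - c) :
    ∃ ξ : StrongDual ℝ X, ‖ξ‖ = 1 ∧ ξ v = ‖v‖ ∧ ξ a ≤ 1 - c := by
  have hn : ‖v‖ ≠ 0 := norm_ne_zero_iff.2 hv
  obtain ⟨ξ, h1, h2⟩ := exists_dual_vector ℝ v hn
  have h2' : ξ v = ‖v‖ := by simpa using h2
  refine ⟨ξ, h1, h2', ?_⟩
  have h3 := ξ.le_opNorm (a + ‖v‖⁻¹ • v)
  rw [h1, one_mul, Real.norm_eq_abs] at h3
  have h4 := (le_abs_self _).trans h3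
  rw [map_add, map_smul, h2', smul_eq_mul, inv_mul_cancel₀ hn] at h4
  linarith

/-- The map `v ↦ ‖v‖ a - v` has a Lipschitz inverse away from the tangent directions. -/
lemma theta_bound {a v v' : X} (ha : ‖a‖ = 1) (hv : v ≠ 0) (hv' : v' ≠ 0) {c : ℝ} (hc : 0 < c)
    (h1 : ‖a + ‖v‖⁻¹ • v‖ ≤ 2 - c) (h2 : ‖a + ‖v'‖⁻¹ • v'‖ ≤ 2 - c) :
    ‖v - v'‖ ≤ (1 + 1 / c) * ‖(‖v‖ • a - v) - (‖v'‖ • a - v')‖ := by
  obtain ⟨u, hu⟩ : ∃ u, u = ‖(‖v‖ • a - v) - (‖v'‖ • a - v')‖ := ⟨_, rfl⟩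
  rw [← hu]
  have hs : |‖v‖ - ‖v'‖| * c ≤ u := by
    rcases le_total ‖v'‖ ‖v‖ with hle | hle
    · obtain ⟨ξ, e1, e2, e3⟩ := dual_at hv h1
      rw [abs_of_nonneg (sub_nonneg.2 hle), hu]
      exact theta_side e1 e2 e3 hle
    · obtain ⟨ξ, e1, e2, e3⟩ := dual_at hv' h2
      rw [abs_of_nonpos (sub_nonpos.2 hle), neg_sub, hu, norm_sub_rev]
      exact theta_side e1 e2 e3 hle
  have e : v - v' = (‖v‖ - ‖v'‖) • a - ((‖v‖ • a - v) - (‖v'‖ • a - v')) := by module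
  have h3 : ‖v - v'‖ ≤ |‖v‖ - ‖v'‖| + u := by
    rw [e]
    refine (norm_sub_le _ _).trans ?_
    rw [norm_smul, ha, mul_one, Real.norm_eq_abs, hu]
  have h4 : |‖v‖ - ‖v'‖| ≤ u / c := by rwa [le_div_iff₀ hc]
  have h5 : (1 + 1 / c) * u = u + u / c := by ring
  rw [h5]
  linarith

variable [FiniteDimensional ℝ X] [MeasurableSpace X] [BorelSpace X]

/-- The unit vectors seen from `a` in the directions of a null set form a null cone. -/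
lemma null_theta_level {a : X} (ha : ‖a‖ = 1) {N : Set X}
    (hN : μH[(finrank ℝ X : ℝ)] N = 0) {c : ℝ} (hc : 0 < c) :
    μH[(finrank ℝ X : ℝ)] {v : X | v ≠ 0 ∧ ‖a + ‖v‖⁻¹ • v‖ ≤ 2 - c ∧ ‖v‖ • a - v ∈ N} = 0 := by
  classical
  obtain ⟨S, hS⟩ : ∃ S : Set X, S = {v : X | v ≠ 0 ∧ ‖a + ‖v‖⁻¹ • v‖ ≤ 2 - c ∧ ‖v‖ • a - v ∈ N} :=
    ⟨_, rfl⟩
  rw [← hS]
  obtain ⟨Θ, hΘ⟩ : ∃ Θ : X → X, Θ = fun v => ‖v‖ • a - v := ⟨_, rfl⟩
  have hb : ∀ v ∈ S, ∀ v' ∈ S, ‖v - v'‖ ≤ (1 + 1 / c) * ‖Θ v - Θ v'‖ := by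
    intro v hv v' hv'
    rw [hS] at hv hv'
    rw [hΘ]
    exact theta_bound ha hv.1 hv'.1 hc hv.2.1 hv'.2.1
  have hinj : InjOn Θ S := by
    intro v hv v' hv' e
    have h1 := hb v hv v' hv'
    rw [e, sub_self, norm_zero, mul_zero] at h1
    exact sub_eq_zero.1 (norm_le_zero_iff.1 h1)
  have hleft := hinj.leftInvOn_invFunOn
  obtain ⟨Ψ, hΨ⟩ : ∃ Ψ : X → X, Ψ = Function.invFunOn Θ S := ⟨_, rfl⟩
  rw [← hΨ] at hleft
  have hK : (0 : ℝ) ≤ 1 + 1 / c := by positivity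
  have hlip : LipschitzOnWith (Real.toNNReal (1 + 1 / c)) Ψ (Θ '' S) := by
    refine LipschitzOnWith.of_dist_le_mul ?_
    rintro _ ⟨v, hv, rfl⟩ _ ⟨v', hv', rfl⟩
    rw [hleft hv, hleft hv', dist_eq_norm, dist_eq_norm, Real.coe_toNNReal _ hK]
    exact hb v hv v' hv'
  have himg : Ψ '' (Θ '' S) = S := by
    ext v
    constructor
    · rintro ⟨_, ⟨v', hv', rfl⟩, rfl⟩
      rwa [hleft hv']
    · intro hv
      exact ⟨Θ v, ⟨v, hv, rfl⟩, hleft hv⟩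
  have hnull : μH[(finrank ℝ X : ℝ)] (Θ '' S) = 0 := by
    refine measure_mono_null ?_ hN
    rintro _ ⟨v, hv, rfl⟩
    rw [hS] at hv
    rw [hΘ]
    exact hv.2.2
  have h := hlip.hausdorffMeasure_image_le (d := (finrank ℝ X : ℝ)) (by positivity)
  rw [himg, hnull, mul_zero] at h
  exact le_antisymm h zero_le

lemma null_theta {a : X} (ha : ‖a‖ = 1) {N : Set X} (hN : μH[(finrank ℝ X : ℝ)] N = 0) :
    μH[(finrank ℝ X : ℝ)] {v : X | v ≠ 0 ∧ ‖a + ‖v‖⁻¹ • v‖ < 2 ∧ ‖v‖ • a - v ∈ N} = 0 := by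
  have hsub : {v : X | v ≠ 0 ∧ ‖a + ‖v‖⁻¹ • v‖ < 2 ∧ ‖v‖ • a - v ∈ N} ⊆
      ⋃ m : ℕ, {v : X | v ≠ 0 ∧ ‖a + ‖v‖⁻¹ • v‖ ≤ 2 - 1 / ((m : ℝ) + 1) ∧ ‖v‖ • a - v ∈ N} := by
    rintro v ⟨h1, h2, h3⟩
    obtain ⟨m, hm⟩ := exists_nat_one_div_lt (sub_pos.2 h2)
    refine mem_iUnion.2 ⟨m, h1, ?_, h3⟩
    linarith
  refine measure_mono_null hsub (measure_iUnion_null fun m => ?_)
  exact null_theta_level ha hN (by positivity)

/-- The unit vectors outside a null set invariant by positive scaling are dense. -/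
lemma dense_unit_of_null {B : Set X} (hB : μH[(finrank ℝ X : ℝ)] B = 0)
    (hc : ∀ z, z ∉ B → ∀ t : ℝ, 0 < t → t • z ∉ B) {y₀ : X} (hy₀ : ‖y₀‖ = 1) {ε : ℝ} (hε : 0 < ε) :
    ∃ y, ‖y‖ = 1 ∧ y ∉ B ∧ ‖y - y₀‖ < ε := by
  have hae : ∀ᵐ z ∂(μH[(finrank ℝ X : ℝ)] : Measure X), z ∉ B := measure_eq_zero_iff_ae_notMem.1 hB
  have hd := Measure.dense_of_ae hae
  obtain ⟨z, hz, hzB⟩ := Metric.dense_iff.1 hd y₀ (min (ε / 4) (1 / 2)) (by positivity)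
  rw [mem_ball, dist_eq_norm] at hz
  have h1 : ‖z - y₀‖ < ε / 4 := hz.trans_le (min_le_left _ _)
  have h2 : ‖z - y₀‖ < 1 / 2 := hz.trans_le (min_le_right _ _)
  have h3 : 1 / 2 ≤ ‖z‖ := by
    have h0 := norm_sub_le z (z - y₀)
    rw [sub_sub_cancel, hy₀] at h0
    linarith
  have hzn : 0 < ‖z‖ := by linarith
  have hz0 : z ≠ 0 := norm_pos_iff.1 hzn
  refine ⟨‖z‖⁻¹ • z, unit_of_ne hz0, hc z hzB _ (inv_pos.2 hzn), ?_⟩
  have h4 := normalize_dist (v₀ := y₀) hz0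
  rw [hy₀, inv_one, one_smul] at h4
  refine h4.trans_lt ?_
  rw [div_lt_iff₀ hzn]
  nlinarith

end Null

section Generic

variable {X Y : Type*} [NormedAddCommGroup X] [NormedSpace ℝ X]
  [NormedAddCommGroup Y] [NormedSpace ℝ Y] {g : X → Y} {h : Y → X}
  [FiniteDimensional ℝ X] [MeasurableSpace X] [BorelSpace X]
  [FiniteDimensional ℝ Y] [MeasurableSpace Y] [BorelSpace Y]

/-- A unit vector `y` is generic with respect to a sequence of unit vectors and two sets if the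
chords from the sequence to `y` avoid the two sets. -/
def GenericChord {ι : Type*} (g : X → Y) (C : ι → X) (N : Set X) (N' : Set Y) (y : X) : Prop :=
  ‖y‖ = 1 ∧ ∀ k, ‖C k + y‖ < 2 → C k - y ∉ N ∧ g (C k) - g y ∉ N'

theorem generic_dense [Nontrivial X] (H : SphereIso g h) (hrank : finrank ℝ X = finrank ℝ Y)
    {ι : Type*} [Countable ι] {C : ι → X} (hC : ∀ k, ‖C k‖ = 1) {N : Set X} {N' : Set Y}
    (hN : μH[(finrank ℝ X : ℝ)] N = 0) (hN' : μH[(finrank ℝ Y : ℝ)] N' = 0)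
    (hNc : ∀ z ∈ N, ∀ t : ℝ, 0 < t → t • z ∈ N) (hNc' : ∀ z ∈ N', ∀ t : ℝ, 0 < t → t • z ∈ N')
    {y₀ : X} (hy₀ : ‖y₀‖ = 1) {ε : ℝ} (hε : 0 < ε) :
    ∃ y, GenericChord g C N N' y ∧ ‖y - y₀‖ < ε := by
  obtain ⟨Bx, hBx⟩ : ∃ Bx : ι → Set X,
      Bx = fun k => {v : X | v ≠ 0 ∧ ‖C k + ‖v‖⁻¹ • v‖ < 2 ∧ ‖v‖ • C k - v ∈ N} := ⟨_, rfl⟩
  obtain ⟨By, hBy⟩ : ∃ By : ι → Set X,
      By = fun k => {v : X | v ≠ 0 ∧ ‖C k + ‖v‖⁻¹ • v‖ < 2 ∧ ‖v‖ • g (C k) - radial g v ∈ N'} :=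
    ⟨_, rfl⟩
  have hBx0 : ∀ k, μH[(finrank ℝ X : ℝ)] (Bx k) = 0 := by
    intro k
    rw [hBx]
    exact null_theta (hC k) hN
  have hBy0 : ∀ k, μH[(finrank ℝ X : ℝ)] (By k) = 0 := by
    intro k
    have h1 := null_theta (H.map_g _ (hC k)) hN'
    have h2 := ((radial_lipschitz H.symm).lipschitzOnWith (s := {w : Y | w ≠ 0 ∧
      ‖g (C k) + ‖w‖⁻¹ • w‖ < 2 ∧ ‖w‖ • g (C k) - w ∈ N'})).hausdorffMeasure_image_le
      (d := (finrank ℝ X : ℝ)) (by positivity)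
    rw [hrank, h1, mul_zero, ← hrank] at h2
    refine measure_mono_null ?_ (le_antisymm h2 zero_le)
    intro v hv
    rw [hBy] at hv
    obtain ⟨hv0, hv1, hv2⟩ := hv
    refine ⟨radial g v, ⟨radial_ne_zero H hv0, ?_, ?_⟩, radial_symm H v⟩
    · have e : ‖radial g v‖⁻¹ • radial g v = g (‖v‖⁻¹ • v) := by
        rw [radial_norm H]
        simp only [radial]
        rw [smul_smul, inv_mul_cancel₀ (norm_ne_zero_iff.2 hv0), one_smul]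
      rw [e]
      have h3 := radial_norm_add H (u := C k) (u' := ‖v‖⁻¹ • v) (by rw [hC k, unit_of_ne hv0])
      rw [radial_of_unit g (hC k), radial_of_unit g (unit_of_ne hv0)] at h3
      rw [h3]
      exact hv1
    · rw [radial_norm H]
      exact hv2
  obtain ⟨B, hB⟩ : ∃ B : Set X, B = ⋃ k, (Bx k ∪ By k) := ⟨_, rfl⟩
  have hB0 : μH[(finrank ℝ X : ℝ)] B = 0 := by
    rw [hB]
    exact measure_iUnion_null fun k => measure_union_null (hBx0 k) (hBy0 k)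
  have hBc : ∀ z, z ∉ B → ∀ t : ℝ, 0 < t → t • z ∉ B := by
    intro z hz t ht hzt
    apply hz
    have htz : ∀ z : X, t • z ≠ 0 → z ≠ 0 := fun z hz0 hz1 => hz0 (by rw [hz1, smul_zero])
    rw [hB] at hzt ⊢
    obtain ⟨k, hk⟩ := mem_iUnion.1 hzt
    refine mem_iUnion.2 ⟨k, ?_⟩
    have hi : t⁻¹ > 0 := inv_pos.2 ht
    rcases hk with hk | hk
    · left
      rw [hBx] at hk ⊢
      obtain ⟨h1, h2, h3⟩ := hk
      refine ⟨htz _ h1, ?_, ?_⟩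
      · rwa [hat_smul ht] at h2
      · have h4 := hNc _ h3 _ hi
        have e : t⁻¹ • (‖t • z‖ • C k - t • z) = ‖z‖ • C k - z := by
          rw [norm_smul, Real.norm_of_nonneg ht.le, smul_sub, smul_smul, smul_smul, ← mul_assoc,
            inv_mul_cancel₀ ht.ne', one_mul, one_smul]
        rwa [e] at h4
    · right
      rw [hBy] at hk ⊢
      obtain ⟨h1, h2, h3⟩ := hk
      refine ⟨htz _ h1, ?_, ?_⟩
      · rwa [hat_smul ht] at h2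
      · have h4 := hNc' _ h3 _ hi
        have e : t⁻¹ • (‖t • z‖ • g (C k) - radial g (t • z)) = ‖z‖ • g (C k) - radial g z := by
          rw [radial_smul g ht.le, norm_smul, Real.norm_of_nonneg ht.le, smul_sub, smul_smul,
            smul_smul, ← mul_assoc, inv_mul_cancel₀ ht.ne', one_mul, one_smul]
        rwa [e] at h4
  obtain ⟨y, hy1, hyB, hyd⟩ := dense_unit_of_null hB0 hBc hy₀ hε
  refine ⟨y, ⟨hy1, fun k hk => ?_⟩, hyd⟩
  have hy0 : y ≠ 0 := by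
    rw [← norm_pos_iff, hy1]
    norm_num
  have hnot : y ∉ Bx k ∪ By k := fun hc => hyB (by rw [hB]; exact mem_iUnion.2 ⟨k, hc⟩)
  constructor
  · intro hc
    apply hnot
    left
    rw [hBx]
    refine ⟨hy0, ?_, ?_⟩
    · rwa [hy1, inv_one, one_smul]
    · rwa [hy1, one_smul]
  · intro hc
    apply hnot
    right
    rw [hBy]
    refine ⟨hy0, ?_, ?_⟩
    · rwa [hy1, inv_one, one_smul]
    · rwa [hy1, one_smul, radial_of_unit g hy1]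

end Generic

end Vale.Agent.Lib.P084
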