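import Mathlib
import Vale.Agent.Lib.P084.Corner.Null

/-! Almost every point has a finite Lipschitz rate for the derivative of the norm: the graph of the
derivative is a Lipschitz graph in the coordinates `z + ∇‖z‖` (Minty), and one applies Rademacher's
theorem and Sard's lemma to the inverse map. -/

namespace Vale.Agent.Lib.P084

open Set Metric Filter Topology MeasureTheory Module
open scoped NNReal ENNReal RealInnerProductSpace

section RateDef

variable {E : Type*} [NormedAddCommGroup E] [NormedSpace ℝ E]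

/-- The derivative of the norm, along differentiability points, is Lipschitz at the point. -/
def Rate (z : E) : Prop := ∃ C : ℝ, ∃ r > 0, ∀ a : E, Dn a → ‖a - z‖ < r → ‖chi a - chi z‖ ≤ C * ‖a - z‖

lemma Rate.smul {z : E} (hz : Rate z) {t : ℝ} (ht : 0 < t) : Rate (t • z) := by
  obtain ⟨C, r, hr, h⟩ := hz
  refine ⟨C * t⁻¹, t * r, by positivity, fun a ha har => ?_⟩
  have hi : 0 < t⁻¹ := inv_pos.2 ht
  have e : t⁻¹ • a - z = t⁻¹ • (a - t • z) := by
    rw [smul_sub, smul_smul, inv_mul_cancel₀ ht.ne', one_smul]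
  have hn : ‖t⁻¹ • a - z‖ = t⁻¹ * ‖a - t • z‖ := by
    rw [e, norm_smul, Real.norm_of_nonneg hi.le]
  have h1 := h (t⁻¹ • a) (ha.smul hi) (by
    rw [hn, inv_mul_lt_iff₀ ht]
    exact har)
  rw [chi_smul hi, hn] at h1
  rw [chi_smul ht]
  calc ‖chi a - chi z‖ ≤ C * (t⁻¹ * ‖a - t • z‖) := h1
    _ = C * t⁻¹ * ‖a - t • z‖ := by ring

/-- The bad set for the rate is a cone. -/
lemma badRate_cone {z : E} (hz : ¬(Dn z ∧ Rate z)) {t : ℝ} (ht : 0 < t) :
    ¬(Dn (t • z) ∧ Rate (t • z)) := by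
  rintro ⟨h1, h2⟩
  apply hz
  have hi : 0 < t⁻¹ := inv_pos.2 ht
  have h3 := h1.smul hi
  have h4 := h2.smul hi
  rw [smul_smul, inv_mul_cancel₀ ht.ne', one_smul] at h3 h4
  exact ⟨h3, h4⟩

end RateDef

section Minty

variable {X : Type*} [NormedAddCommGroup X] [NormedSpace ℝ X]
  {E' : Type*} [NormedAddCommGroup E'] [InnerProductSpace ℝ E'] [FiniteDimensional ℝ E']
  (e : X ≃L[ℝ] E')

/-- The gradient of the norm in the Euclidean coordinates. -/
noncomputable def gradN (z : X) : E' :=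
  (InnerProductSpace.toDual ℝ E').symm ((chi z).comp (e.symm : E' →L[ℝ] X))

lemma inner_gradN (z : X) (w : E') : ⟪gradN e z, w⟫ = chi z (e.symm w) := by
  simp [gradN, InnerProductSpace.toDual_symm_apply]

/-- The Minty coordinates. -/
noncomputable def psiN (z : X) : E' := e z + gradN e z

lemma inner_gradN_sub (a z : X) (u : X) : ⟪gradN e a - gradN e z, e u⟫ = (chi a - chi z) u := by
  rw [inner_sub_left, inner_gradN, inner_gradN]
  simp

lemma monotone_gradN {z z' : X} (hz : Dn z) (hz' : Dn z') :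
    0 ≤ ⟪gradN e z - gradN e z', e z - e z'⟫ := by
  rw [← map_sub, inner_gradN_sub]
  change 0 ≤ chi z (z - z') - chi z' (z - z')
  rw [map_sub, map_sub, hz.chi_self, hz'.chi_self]
  have h1 := chi_le z z'
  have h2 := chi_le z' z
  linarith

lemma psiN_expand {z z' : X} (hz : Dn z) (hz' : Dn z') :
    ‖e z - e z'‖ ≤ ‖psiN e z - psiN e z'‖ := by
  have e1 : psiN e z - psiN e z' = (e z - e z') + (gradN e z - gradN e z') := by
    simp only [psiN]
    abel
  have h1 := monotone_gradN e hz hz'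
  rw [real_inner_comm] at h1
  have h2 : ‖e z - e z'‖ ^ 2 ≤ ‖psiN e z - psiN e z'‖ ^ 2 := by
    rw [e1, norm_add_sq_real]
    nlinarith [sq_nonneg ‖gradN e z - gradN e z'‖]
  exact (pow_le_pow_iff_left₀ (norm_nonneg _) (norm_nonneg _) (by norm_num)).1 h2

/-- The Lipschitz inverse of the Minty coordinates. -/
lemma exists_minty : ∃ (J : E' → E') (K : ℝ≥0), LipschitzWith K J ∧
    ∀ z : X, Dn z → J (psiN e z) = e z := by
  classical
  obtain ⟨D, hD⟩ : ∃ D : Set X, D = {z : X | Dn z} := ⟨_, rfl⟩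
  have hinj : InjOn (psiN e) D := by
    intro z hz z' hz' h
    rw [hD] at hz hz'
    have h1 := psiN_expand e hz hz'
    rw [h, sub_self, norm_zero] at h1
    exact e.injective (sub_eq_zero.1 (norm_le_zero_iff.1 h1))
  have hleft := hinj.leftInvOn_invFunOn
  obtain ⟨Ψ, hΨ⟩ : ∃ Ψ : E' → X, Ψ = Function.invFunOn (psiN e) D := ⟨_, rfl⟩
  rw [← hΨ] at hleft
  have hlip : LipschitzOnWith 1 (fun ζ => e (Ψ ζ)) (psiN e '' D) := by
    refine LipschitzOnWith.of_dist_le_mul ?_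
    rintro _ ⟨z, hz, rfl⟩ _ ⟨z', hz', rfl⟩
    simp only [hleft hz, hleft hz']
    rw [dist_eq_norm, dist_eq_norm, NNReal.coe_one, one_mul]
    rw [hD] at hz hz'
    exact psiN_expand e hz hz'
  obtain ⟨J, hJ, hEq⟩ := hlip.extend_finite_dimension
  refine ⟨J, _, hJ, fun z hz => ?_⟩
  have hzD : z ∈ D := by rw [hD]; exact hz
  have h1 := hEq ⟨z, hzD, rfl⟩
  simp only [hleft hzD] at h1
  exact h1.symm

lemma injective_of_det_ne {P : E' →L[ℝ] E'} (h : P.det ≠ 0) : Function.Injective P := by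
  have h1 : IsUnit (LinearMap.det (P : E' →ₗ[ℝ] E')) := isUnit_iff_ne_zero.2 h
  have h2 := (LinearMap.isUnit_iff_isUnit_det (P : E' →ₗ[ℝ] E')).2 h1
  exact ((Module.End.isUnit_iff _).1 h2).1

/-- A map differentiable with invertible derivative at a point is locally expanding there. -/
lemma expand_of_det {J : E' → E'} {ζ : E'} (hd : DifferentiableAt ℝ J ζ)
    (hdet : (fderiv ℝ J ζ).det ≠ 0) :
    ∃ c > 0, ∃ r > 0, ∀ ζ', ‖ζ' - ζ‖ < r → c * ‖ζ' - ζ‖ ≤ ‖J ζ' - J ζ‖ := by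
  obtain ⟨P, hP⟩ : ∃ P, P = fderiv ℝ J ζ := ⟨_, rfl⟩
  rw [← hP] at hdet
  have hinj := injective_of_det_ne hdet
  obtain ⟨K, hK, hanti⟩ := LinearMap.exists_antilipschitzWith (P : E' →ₗ[ℝ] E')
    (LinearMap.ker_eq_bot.2 hinj)
  have hKr : (0 : ℝ) < K := by exact_mod_cast hK
  have hlow : ∀ w, ‖w‖ ≤ K * ‖P w‖ := by
    intro w
    have h1 := hanti.le_mul_dist w 0
    simpa [dist_eq_norm] using h1
  have hc : 0 < 1 / (2 * (K : ℝ)) := by positivity
  have h2 := hd.hasFDerivAt.isLittleO.def hc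
  obtain ⟨r, hr, hball⟩ := Metric.eventually_nhds_iff.1 h2
  refine ⟨1 / (2 * (K : ℝ)), hc, r, hr, fun ζ' hζ' => ?_⟩
  have h3 := hball (y := ζ') (by rwa [dist_eq_norm])
  rw [← hP] at h3
  have h4 := hlow (ζ' - ζ)
  have h5 : ‖P (ζ' - ζ)‖ ≤ ‖J ζ' - J ζ‖ + ‖J ζ' - J ζ - P (ζ' - ζ)‖ := by
    have := norm_sub_le (J ζ' - J ζ) (J ζ' - J ζ - P (ζ' - ζ))
    rwa [sub_sub_cancel] at this
  have h6 : 1 / (K : ℝ) * ‖ζ' - ζ‖ ≤ ‖P (ζ' - ζ)‖ := by
    rw [div_mul_eq_mul_div, one_mul, div_le_iff₀ hKr]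
    linarith
  have h7 : 1 / (K : ℝ) = 2 * (1 / (2 * (K : ℝ))) := by
    field_simp
  rw [h7] at h6
  linarith

lemma norm_gradN_sub_le (a z : X) :
    ‖gradN e a - gradN e z‖ ≤ ‖(e.symm : E' →L[ℝ] X)‖ * ‖chi a - chi z‖ := by
  have h1 : gradN e a - gradN e z =
      (InnerProductSpace.toDual ℝ E').symm ((chi a - chi z).comp (e.symm : E' →L[ℝ] X)) := by
    simp only [gradN]
    rw [ContinuousLinearMap.sub_comp, map_sub]
  rw [h1, LinearIsometryEquiv.norm_map, mul_comm]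
  exact ContinuousLinearMap.opNorm_comp_le _ _

lemma norm_chi_sub_le (a z : X) :
    ‖chi a - chi z‖ ≤ ‖gradN e a - gradN e z‖ * ‖(e : X →L[ℝ] E')‖ := by
  refine ContinuousLinearMap.opNorm_le_bound _ (by positivity) fun u => ?_
  rw [← inner_gradN_sub e a z u, Real.norm_eq_abs]
  refine (abs_real_inner_le_norm _ _).trans ?_
  rw [mul_assoc]
  exact mul_le_mul_of_nonneg_left ((e : X →L[ℝ] E').le_opNorm u) (norm_nonneg _)

/-- A good point for the Lipschitz inverse has a finite rate. -/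
lemma rate_of_good {J : E' → E'} (hJ : ∀ z : X, Dn z → J (psiN e z) = e z) {z : X} (hz : Dn z)
    (hd : DifferentiableAt ℝ J (psiN e z)) (hdet : (fderiv ℝ J (psiN e z)).det ≠ 0) : Rate z := by
  obtain ⟨c, hc, r₁, hr₁, hexp⟩ := expand_of_det hd hdet
  obtain ⟨A, hA⟩ : ∃ A, A = ‖(e : X →L[ℝ] E')‖ := ⟨_, rfl⟩
  obtain ⟨B, hB⟩ : ∃ B, B = ‖(e.symm : E' →L[ℝ] X)‖ := ⟨_, rfl⟩
  have hA0 : 0 ≤ A := by rw [hA]; exact norm_nonneg _
  have hB0 : 0 ≤ B := by rw [hB]; exact norm_nonneg _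
  obtain ⟨r', hr', hclose⟩ := chi_close hz (ε := r₁ / (4 * (B + 1))) (by positivity)
  refine ⟨(A / c + A) * A, min r' (r₁ / (4 * (A + 1))), lt_min hr' (by positivity), fun a ha har => ?_⟩
  have h1 : ‖a - z‖ < r' := har.trans_le (min_le_left _ _)
  have h2 : ‖a - z‖ < r₁ / (4 * (A + 1)) := har.trans_le (min_le_right _ _)
  have he : ‖e a - e z‖ ≤ A * ‖a - z‖ := by
    rw [← map_sub, hA]
    exact (e : X →L[ℝ] E').le_opNorm (a - z)
  have hg : ‖gradN e a - gradN e z‖ ≤ B * ‖chi a - chi z‖ := by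
    rw [hB]
    exact norm_gradN_sub_le e a z
  have hΨ : psiN e a - psiN e z = (e a - e z) + (gradN e a - gradN e z) := by
    simp only [psiN]
    abel
  have hnear : ‖psiN e a - psiN e z‖ < r₁ := by
    rw [hΨ]
    refine (norm_add_le _ _).trans_lt ?_
    have h3 := hclose a ha h1
    have h4 : B * ‖chi a - chi z‖ ≤ (B + 1) * (r₁ / (4 * (B + 1))) :=
      mul_le_mul (by linarith) h3.le (norm_nonneg _) (by linarith)
    have h5 : (B + 1) * (r₁ / (4 * (B + 1))) = r₁ / 4 := by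
      field_simp
    have h6 : A * ‖a - z‖ ≤ (A + 1) * (r₁ / (4 * (A + 1))) :=
      mul_le_mul (by linarith) h2.le (norm_nonneg _) (by linarith)
    have h7 : (A + 1) * (r₁ / (4 * (A + 1))) = r₁ / 4 := by
      field_simp
    linarith
  have hexp' := hexp _ hnear
  rw [hJ a ha, hJ z hz] at hexp'
  have h8 : gradN e a - gradN e z = (psiN e a - psiN e z) - (e a - e z) := by
    rw [hΨ]
    abel
  have h9 : ‖gradN e a - gradN e z‖ ≤ ‖psiN e a - psiN e z‖ + ‖e a - e z‖ := by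
    rw [h8]
    exact norm_sub_le _ _
  have h10 : ‖psiN e a - psiN e z‖ ≤ A / c * ‖a - z‖ := by
    have : ‖psiN e a - psiN e z‖ ≤ ‖e a - e z‖ / c := by
      rw [le_div_iff₀ hc]
      linarith
    refine this.trans ?_
    rw [div_mul_eq_mul_div]
    exact div_le_div_of_nonneg_right he hc.le
  have h11 := norm_chi_sub_le e a z
  rw [← hA] at h11
  calc ‖chi a - chi z‖ ≤ ‖gradN e a - gradN e z‖ * A := h11
    _ ≤ ((A / c + A) * ‖a - z‖) * A := by
        refine mul_le_mul_of_nonneg_right ?_ hA0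
        linarith
    _ = (A / c + A) * A * ‖a - z‖ := by ring

variable [FiniteDimensional ℝ X] [MeasurableSpace X] [BorelSpace X] [MeasurableSpace E']
  [BorelSpace E']

/-- Almost every point is good for the Lipschitz inverse. -/
theorem ae_good_minty {J : E' → E'} {K : ℝ≥0} (hJL : LipschitzWith K J)
    (hJ : ∀ z : X, Dn z → J (psiN e z) = e z) :
    ∀ᵐ z ∂(μH[(finrank ℝ X : ℝ)] : Measure X), Dn z ∧ DifferentiableAt ℝ J (psiN e z) ∧
      (fderiv ℝ J (psiN e z)).det ≠ 0 := by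
  have hrank : finrank ℝ X = finrank ℝ E' := e.toLinearEquiv.finrank_eq
  obtain ⟨Z₁, hZ₁⟩ : ∃ Z₁ : Set E', Z₁ = {ζ | ¬DifferentiableAt ℝ J ζ} := ⟨_, rfl⟩
  obtain ⟨Z₂, hZ₂⟩ : ∃ Z₂ : Set E', Z₂ = {ζ | DifferentiableAt ℝ J ζ ∧ (fderiv ℝ J ζ).det = 0} :=
    ⟨_, rfl⟩
  have h1 : μH[(finrank ℝ E' : ℝ)] Z₁ = 0 := by
    rw [hZ₁]
    exact hJL.ae_differentiableAt
  have h2 : μH[(finrank ℝ E' : ℝ)] (J '' Z₁) = 0 := by
    have h3 := hJL.lipschitzOnWith (s := Z₁) |>.hausdorffMeasure_image_le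
      (d := (finrank ℝ E' : ℝ)) (by positivity)
    rw [h1, mul_zero] at h3
    exact le_antisymm h3 zero_le
  have h3 : μH[(finrank ℝ E' : ℝ)] (J '' Z₂) = 0 := by
    refine addHaar_image_eq_zero_of_det_fderivWithin_eq_zero _ (f' := fderiv ℝ J) ?_ ?_
    · intro ζ hζ
      rw [hZ₂] at hζ
      exact hζ.1.hasFDerivAt.hasFDerivWithinAt
    · intro ζ hζ
      rw [hZ₂] at hζ
      exact hζ.2
  obtain ⟨B, hB⟩ : ∃ B : Set E', B = J '' Z₁ ∪ J '' Z₂ := ⟨_, rfl⟩
  have hB0 : μH[(finrank ℝ E' : ℝ)] B = 0 := by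
    rw [hB]
    exact measure_union_null h2 h3
  have h4 : μH[(finrank ℝ X : ℝ)] ((e.symm : E' → X) '' B) = 0 := by
    have h5 := (e.symm.lipschitz.lipschitzOnWith (s := B)).hausdorffMeasure_image_le
      (d := (finrank ℝ X : ℝ)) (by positivity)
    rw [hrank, hB0, mul_zero, ← hrank] at h5
    exact le_antisymm h5 zero_le
  have h6 : ∀ᵐ z ∂(μH[(finrank ℝ X : ℝ)] : Measure X), z ∉ (e.symm : E' → X) '' B :=
    measure_eq_zero_iff_ae_notMem.1 h4
  have h7 : ∀ᵐ z ∂(μH[(finrank ℝ X : ℝ)] : Measure X), DifferentiableAt ℝ (fun w : X => ‖w‖) z :=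
    lipschitzWith_one_norm.ae_differentiableAt
  filter_upwards [h6, h7] with z hz hdz
  refine ⟨hdz, ?_⟩
  by_contra hc
  apply hz
  refine ⟨e z, ?_, by simp⟩
  rw [hB, ← hJ z hdz]
  by_cases hd : DifferentiableAt ℝ J (psiN e z)
  · right
    refine ⟨_, ?_, rfl⟩
    rw [hZ₂]
    refine ⟨hd, ?_⟩
    by_contra hne
    exact hc ⟨hd, hne⟩
  · left
    refine ⟨_, ?_, rfl⟩
    rw [hZ₁]
    exact hd

/-- Almost every point has a finite rate. -/
theorem ae_rate : ∀ᵐ z ∂(μH[(finrank ℝ X : ℝ)] : Measure X), Dn z ∧ Rate z := by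
  obtain ⟨J, K, hJL, hJ⟩ := exists_minty (toEuclidean (E := X))
  filter_upwards [ae_good_minty (toEuclidean (E := X)) hJL hJ] with z hz
  exact ⟨hz.1, rate_of_good _ hJ hz.1 hz.2.1 hz.2.2⟩

end Minty

end Vale.Agent.Lib.P084
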