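import Mathlib
import Vale.Agent.Lib.P084.Corner.Rate

/-! From the chord relation for one linear map to a linear patch of the sphere. -/

namespace Vale.Agent.Lib.P084

open Set Metric Filter Topology Module

section Exit

variable {E : Type*} [NormedAddCommGroup E] [NormedSpace ℝ E]

/-- Interior points of the chord through a point of the open ball. -/
lemma chord_interior {a z : E} (ha : ‖a‖ = 1) {t₁ t₀ t : ℝ} (ht₁ : 0 < t₁)
    (h1 : ‖a - t₁ • z‖ < 1) (h0 : ‖a - t₀ • z‖ ≤ 1) (ht : 0 < t) (htt : t < t₀) :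
    ‖a - t • z‖ < 1 := by
  rcases le_total t t₁ with hle | hle
  · have h := line_lt (p := a) (d := z) (a := -t₁) (b := 0) (t := -t) (by
      rwa [neg_smul, ← sub_eq_add_neg]) (by simp [ha]) (by linarith) (by linarith)
    rwa [neg_smul, ← sub_eq_add_neg] at h
  · have h := line_lt (p := a) (d := -z) (a := t₁) (b := t₀) (t := t) (by
      rwa [smul_neg, ← sub_eq_add_neg]) (by rwa [smul_neg, ← sub_eq_add_neg]) hle htt
    rwa [smul_neg, ← sub_eq_add_neg] at h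

/-- The exit point of a chord starting at a point of the sphere and passing through the open ball. -/
lemma exit_point {a z : E} (ha : ‖a‖ = 1) {t₁ : ℝ} (ht₁ : 0 < t₁) (h1 : ‖a - t₁ • z‖ < 1) :
    ∃ t₀, t₁ < t₀ ∧ ‖a - t₀ • z‖ = 1 ∧ ‖a + (a - t₀ • z)‖ < 2 := by
  have hz : z ≠ 0 := by
    rintro rfl
    simp [ha] at h1
  have hzn : 0 < ‖z‖ := norm_pos_iff.2 hz
  obtain ⟨T, hT⟩ : ∃ T : ℝ, T = t₁ + 2 / ‖z‖ := ⟨_, rfl⟩
  have hT1 : t₁ ≤ T := by
    rw [hT]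
    have : 0 < 2 / ‖z‖ := by positivity
    linarith
  have hT2 : 1 ≤ ‖a - T • z‖ := by
    have h2 : ‖T • z‖ ≤ ‖a - T • z‖ + ‖a‖ := by
      have := norm_sub_le (a - T • z) a
      simpa using this
    rw [norm_smul, Real.norm_of_nonneg (by linarith), ha] at h2
    have h3 : T * ‖z‖ = t₁ * ‖z‖ + 2 := by
      rw [hT]
      field_simp
    nlinarith [mul_pos ht₁ hzn]
  have hcont : ContinuousOn (fun t : ℝ => ‖a - t • z‖) (Icc t₁ T) := by fun_prop
  obtain ⟨t₀, ht₀, ht₀1⟩ := intermediate_value_Icc hT1 hcont ⟨h1.le, hT2⟩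
  have ht₀1' : ‖a - t₀ • z‖ = 1 := ht₀1
  have hne : t₁ ≠ t₀ := by
    rintro rfl
    linarith
  have hlt : t₁ < t₀ := lt_of_le_of_ne ht₀.1 hne
  refine ⟨t₀, hlt, ht₀1', ?_⟩
  have e : a + (a - t₀ • z) = (2 : ℝ) • (a - (t₀ / 2) • z) := by module
  rw [e, norm_smul]
  have h2 := chord_interior ha ht₁ h1 ht₀1'.le (t := t₀ / 2) (by linarith) (by linarith)
  simpa using h2

/-- The value at the direction of a chord of the derivative of the norm along a nearby chord. -/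
lemma chord_value {a y y₀ z : E} {t₀ δ : ℝ} (ht₀ : 0 < t₀) (hy₀ : y₀ = a - t₀ • z)
    (hd : Dn (a - y)) (hδ : ‖y - y₀‖ < δ) : ‖z‖ - 2 * δ / t₀ ≤ chi (a - y) z := by
  have e : a - y = t₀ • z + (y₀ - y) := by
    rw [hy₀]
    abel
  have h1 : ‖t₀ • z‖ ≤ ‖a - y‖ + ‖y₀ - y‖ := by
    have e' : t₀ • z = (a - y) - (y₀ - y) := by
      rw [e]
      abel
    rw [e']
    exact norm_sub_le _ _
  rw [norm_smul, Real.norm_of_nonneg ht₀.le, norm_sub_rev y₀ y] at h1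
  have h2 := hd.chi_self
  rw [e, map_add, map_smul, smul_eq_mul, ← e] at h2
  have h3 := chi_le (a - y) (y₀ - y)
  rw [norm_sub_rev y₀ y] at h3
  have h4 : t₀ * ‖z‖ ≤ t₀ * chi (a - y) z + 2 * δ := by linarith
  have h5 : (‖z‖ - 2 * δ / t₀) * t₀ ≤ chi (a - y) z * t₀ := by
    have h6 : (‖z‖ - 2 * δ / t₀) * t₀ = t₀ * ‖z‖ - 2 * δ := by
      field_simp
    rw [h6]
    linarith
  exact le_of_mul_le_mul_right h5 ht₀

/-- The directions from a unit vector which enter the open ball. -/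
def Vis (a : E) : Set E := {z | ∃ t : ℝ, 0 < t ∧ ‖a - t • z‖ < 1}

/-- Directions seen from `a` are almost norming for the chords from `a` to a dense set. -/
lemma sup_of_dense {a : E} (ha : ‖a‖ = 1) {W : Set E}
    (hW : ∀ y₀, ‖y₀‖ = 1 → ∀ ε > 0, ∃ y ∈ W, ‖y - y₀‖ < ε)
    (hDn : ∀ y ∈ W, ‖a + y‖ < 2 → Dn (a - y)) {z : E} {t₁ : ℝ} (ht₁ : 0 < t₁)
    (h1 : ‖a - t₁ • z‖ < 1) :
    ∃ t₀, t₁ < t₀ ∧ ‖a - t₀ • z‖ = 1 ∧ ∀ ε > 0, ∃ y ∈ W, ‖y - (a - t₀ • z)‖ < ε ∧ ‖a + y‖ < 2 ∧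
      ‖z‖ - ε ≤ chi (a - y) z := by
  obtain ⟨t₀, ht, ht₀1, hmid⟩ := exit_point ha ht₁ h1
  have ht₀ : 0 < t₀ := by linarith
  refine ⟨t₀, ht, ht₀1, fun ε hε => ?_⟩
  obtain ⟨δ, hδ⟩ : ∃ δ : ℝ, δ = min ε (min (ε * t₀ / 2) ((2 - ‖a + (a - t₀ • z)‖) / 2)) := ⟨_, rfl⟩
  have hgap : 0 < (2 - ‖a + (a - t₀ • z)‖) / 2 := by linarith
  have hδpos : 0 < δ := by
    rw [hδ]
    exact lt_min hε (lt_min (by positivity) hgap)
  have hδ1 : δ ≤ ε := by rw [hδ]; exact min_le_left _ _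
  have hδ2 : δ ≤ ε * t₀ / 2 := by
    rw [hδ]
    exact (min_le_right _ _).trans (min_le_left _ _)
  have hδ3 : δ ≤ (2 - ‖a + (a - t₀ • z)‖) / 2 := by
    rw [hδ]
    exact (min_le_right _ _).trans (min_le_right _ _)
  obtain ⟨y, hy, hyd⟩ := hW _ ht₀1 δ hδpos
  have hay : ‖a + y‖ < 2 := by
    have e : a + y = (a + (a - t₀ • z)) + (y - (a - t₀ • z)) := by abel
    rw [e]
    refine (norm_add_le _ _).trans_lt ?_
    linarith
  refine ⟨y, hy, hyd.trans_le hδ1, hay, ?_⟩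
  have h2 := chord_value ht₀ rfl (hDn y hy hay) hyd
  have h3 : 2 * δ / t₀ ≤ ε := by
    rw [div_le_iff₀ ht₀]
    linarith
  linarith

/-- The chords from a unit vector to a dense set of the sphere separate points. -/
lemma sep_of_dense {a : E} (ha : ‖a‖ = 1) {W : Set E}
    (hW : ∀ y₀, ‖y₀‖ = 1 → ∀ ε > 0, ∃ y ∈ W, ‖y - y₀‖ < ε)
    (hDn : ∀ y ∈ W, ‖a + y‖ < 2 → Dn (a - y)) {v : E}
    (hv : ∀ y ∈ W, ‖a + y‖ < 2 → chi (a - y) v = 0) : v = 0 := by
  have hbound : ∀ s t : ℝ, 0 < t → ‖a - t • (a + s • v)‖ < 1 → ‖a + s • v‖ ≤ 1 := by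
    intro s t ht h1
    refine le_of_forall_pos_le_add fun ε hε => ?_
    obtain ⟨t₀, -, -, h2⟩ := sup_of_dense ha hW hDn ht h1
    obtain ⟨y, hy, -, hy2, hy3⟩ := h2 ε hε
    have h3 : chi (a - y) (a + s • v) = chi (a - y) a := by
      rw [map_add, map_smul, hv y hy hy2, smul_zero, add_zero]
    have h4 := chi_le (a - y) a
    rw [ha] at h4
    linarith
  have hvn : 0 ≤ ‖v‖ := norm_nonneg v
  have hsmall : ∀ s : ℝ, |s| * ‖v‖ < 1 → ‖a + s • v‖ ≤ 1 := by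
    intro s hs
    refine hbound s (1 / 2) (by norm_num) ?_
    have e : a - (1 / 2 : ℝ) • (a + s • v) = (1 / 2 : ℝ) • a + (-(s / 2)) • v := by module
    rw [e]
    refine (norm_add_le _ _).trans_lt ?_
    have h2 : ‖(1 / 2 : ℝ) • a‖ = 1 / 2 := by
      rw [norm_smul, ha]
      norm_num
    have h3 : ‖(-(s / 2)) • v‖ = |s| * ‖v‖ / 2 := by
      rw [norm_smul, Real.norm_eq_abs, abs_neg, abs_div]
      norm_num
      ring
    rw [h2, h3]
    linarith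
  have hall : ∀ s : ℝ, ‖a + s • v‖ ≤ 1 := by
    intro s
    obtain ⟨t, ht⟩ : ∃ t : ℝ, t = 1 / (2 * (|s| * ‖v‖ + 1)) := ⟨_, rfl⟩
    have hq : 0 < |s| * ‖v‖ + 1 := by positivity
    have htpos : 0 < t := by rw [ht]; positivity
    have ht1 : t ≤ 1 / 2 := by
      rw [ht, div_le_div_iff₀ (by positivity) (by norm_num)]
      nlinarith [mul_nonneg (abs_nonneg s) hvn]
    have h0 : t * (|s| * ‖v‖ + 1) = 1 / 2 := by
      rw [ht]
      field_simp
    have ht2 : t * (|s| * ‖v‖) ≤ 1 / 2 := by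
      nlinarith
    refine hbound s t htpos ?_
    have h1t : 0 < 1 - t := by linarith
    have e : a - t • (a + s • v) = (1 - t) • (a + (-(t * s / (1 - t))) • v) := by
      have e2 : (1 - t) * -(t * s / (1 - t)) = -(t * s) := by
        field_simp
      have e3 : (1 - t) • (a + (-(t * s / (1 - t))) • v) = (1 - t) • a + (-(t * s)) • v := by
        rw [smul_add, smul_smul, e2]
      rw [e3]
      module
    rw [e, norm_smul, Real.norm_of_nonneg h1t.le]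
    have h2 : ‖a + (-(t * s / (1 - t))) • v‖ ≤ 1 := by
      refine hsmall _ ?_
      rw [abs_neg, abs_div, abs_mul, abs_of_pos htpos, abs_of_pos h1t, div_mul_eq_mul_div,
        div_lt_one h1t]
      have h3 : t * |s| * ‖v‖ = t * (|s| * ‖v‖) := by ring
      rw [h3]
      nlinarith
    nlinarith
  by_contra hv0
  have hvpos : 0 < ‖v‖ := norm_pos_iff.2 hv0
  have h1 := hall (3 / ‖v‖)
  have h2 : ‖(3 / ‖v‖) • v‖ ≤ ‖a + (3 / ‖v‖) • v‖ + ‖a‖ := by
    have := norm_sub_le (a + (3 / ‖v‖) • v) a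
    simpa using this
  rw [norm_smul, ha, Real.norm_of_nonneg (by positivity), div_mul_cancel₀ _ hvpos.ne'] at h2
  linarith

/-- A vector on which all the chords at `a` are large enough is seen from `a`. -/
lemma vis_of_lower {a w : E} (ha : ‖a‖ = 1) {W : Set E}
    (hW : ∀ y₀, ‖y₀‖ = 1 → ∀ ε > 0, ∃ y ∈ W, ‖y - y₀‖ < ε)
    (hDn : ∀ y ∈ W, ‖a + y‖ < 2 → Dn (a - y))
    (hP : ∀ y ∈ W, ‖a + y‖ < 2 → 1 - ‖a + y‖ ≤ chi (a - y) w) : ∃ t : ℝ, 0 < t ∧ ‖a - t • w‖ < 1 := by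
  obtain ⟨b, hb⟩ : ∃ b : E, b = a - w := ⟨_, rfl⟩
  obtain ⟨B, hB⟩ : ∃ B : ℝ, B = ‖b‖ := ⟨_, rfl⟩
  have hB0 : 0 ≤ B := by rw [hB]; exact norm_nonneg _
  obtain ⟨s, hs⟩ : ∃ s : ℝ, s = 1 / (16 * (B + 1)) := ⟨_, rfl⟩
  have hspos : 0 < s := by rw [hs]; positivity
  have hsB : s * (B + 1) = 1 / 16 := by
    rw [hs]
    field_simp
  have hsB' : s * B ≤ 1 / 16 := by nlinarith
  obtain ⟨c, hc⟩ : ∃ c : E, c = a + s • b := ⟨_, rfl⟩
  have h1 : ‖a - (1 : ℝ) • c‖ < 1 := by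
    have e : a - (1 : ℝ) • c = (-s) • b := by
      rw [hc]
      module
    rw [e, norm_smul, Real.norm_eq_abs, abs_neg, abs_of_pos hspos, ← hB]
    linarith
  obtain ⟨t₀, ht₀, ht₀1, hsup⟩ := sup_of_dense ha hW hDn one_pos h1
  have hq : a - t₀ • c = (1 - t₀) • a + (-(t₀ * s)) • b := by
    rw [hc]
    module
  have ht4 : t₀ ≤ 4 := by
    have h2 : ‖(1 - t₀) • a‖ ≤ ‖a - t₀ • c‖ + ‖(-(t₀ * s)) • b‖ := by
      have := norm_sub_le (a - t₀ • c) ((-(t₀ * s)) • b)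
      rwa [hq, add_sub_cancel_right, ← hq] at this
    rw [norm_smul, norm_smul, ha, ht₀1, Real.norm_eq_abs, Real.norm_eq_abs, abs_neg, abs_mul,
      abs_of_pos hspos, abs_of_pos (by linarith : 0 < t₀), abs_of_neg (by linarith : 1 - t₀ < 0),
      ← hB] at h2
    nlinarith
  have hlow : |2 - t₀| ≤ 4 * (s * B) := by
    have h2 : ‖a - t₀ • c‖ ≤ ‖(1 - t₀) • a‖ + ‖(-(t₀ * s)) • b‖ := by
      rw [hq]
      exact norm_add_le _ _
    rw [ht₀1] at h2
    have h3 : ‖(1 - t₀) • a‖ ≤ 1 + ‖(-(t₀ * s)) • b‖ := by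
      have := norm_sub_le (a - t₀ • c) ((-(t₀ * s)) • b)
      rwa [hq, add_sub_cancel_right, ← hq, ht₀1] at this
    rw [norm_smul, norm_smul, ha, Real.norm_eq_abs, Real.norm_eq_abs, abs_neg, abs_mul,
      abs_of_pos hspos, abs_of_pos (by linarith : 0 < t₀), abs_of_neg (by linarith : 1 - t₀ < 0),
      ← hB] at h2 h3
    rw [abs_le]
    constructor <;> nlinarith
  have hclose : ‖a + (a - t₀ • c)‖ ≤ 8 * (s * B) := by
    have e : a + (a - t₀ • c) = (2 - t₀) • a + (-(t₀ * s)) • b := by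
      rw [hq]
      module
    rw [e]
    refine (norm_add_le _ _).trans ?_
    rw [norm_smul, norm_smul, ha, Real.norm_eq_abs, Real.norm_eq_abs, abs_neg, abs_mul,
      abs_of_pos hspos, abs_of_pos (by linarith : 0 < t₀), ← hB]
    have h2 := mul_le_mul_of_nonneg_right ht4 (mul_nonneg hspos.le hB0)
    have h3 : t₀ * s * B = t₀ * (s * B) := by ring
    rw [h3, mul_one]
    linarith
  have hcle : ‖c‖ ≤ 1 + 8 * (s * B) * s := by
    refine le_of_forall_pos_le_add fun ε hε => ?_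
    obtain ⟨ε', hε'⟩ : ∃ ε' : ℝ, ε' = min (ε / 2) (ε / (2 * s)) := ⟨_, rfl⟩
    have hε'pos : 0 < ε' := by
      rw [hε']
      exact lt_min (by positivity) (by positivity)
    have h1' : ε' ≤ ε / 2 := by rw [hε']; exact min_le_left _ _
    have h2' : ε' * s ≤ ε / 2 := by
      have : ε' ≤ ε / (2 * s) := by rw [hε']; exact min_le_right _ _
      rw [le_div_iff₀ (by positivity)] at this
      linarith
    obtain ⟨y, hy, hyd, hay, hyc⟩ := hsup ε' hε'pos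
    have h3 := hP y hy hay
    have h4 := chi_le (a - y) a
    rw [ha] at h4
    have h5 : c = (1 + s) • a + (-s) • w := by
      rw [hc, hb]
      module
    have h6 : chi (a - y) c = (1 + s) * chi (a - y) a + (-s) * chi (a - y) w := by
      rw [h5, map_add, map_smul, map_smul, smul_eq_mul, smul_eq_mul]
    have h7 : ‖a + y‖ ≤ 8 * (s * B) + ε' := by
      have e : a + y = (a + (a - t₀ • c)) + (y - (a - t₀ • c)) := by abel
      rw [e]
      refine (norm_add_le _ _).trans ?_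
      linarith
    have h8 : chi (a - y) c ≤ 1 + s * ‖a + y‖ := by
      rw [h6]
      nlinarith
    nlinarith
  obtain ⟨t, ht⟩ : ∃ t : ℝ, t = s / (1 + s) := ⟨_, rfl⟩
  have h1s : 0 < 1 + s := by linarith
  have htpos : 0 < t := by rw [ht]; positivity
  refine ⟨t, htpos, ?_⟩
  have e : a - t • w = (1 + s)⁻¹ • c := by
    have e2 : a - t • w = (1 - t) • a + t • b := by
      rw [hb]
      module
    have e3 : (1 + s)⁻¹ • c = (1 + s)⁻¹ • a + ((1 + s)⁻¹ * s) • b := by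
      rw [hc, smul_add, smul_smul]
    have e4 : 1 - t = (1 + s)⁻¹ := by
      rw [ht]
      field_simp
      ring
    have e5 : t = (1 + s)⁻¹ * s := by
      rw [ht]
      field_simp
    rw [e2, e3, e4, ← e5]
  rw [e, norm_smul, norm_inv, Real.norm_of_nonneg h1s.le, inv_mul_lt_iff₀ h1s]
  nlinarith

/-- Exit points depend continuously on the direction. -/
lemma exit_near {a y₀ : E} (ha : ‖a‖ = 1) (hy₀ : ‖y₀‖ = 1) (hmid : ‖a + y₀‖ < 2) {ε : ℝ}
    (hε : 0 < ε) : ∃ δ > 0, ∀ z, ‖z - (a - y₀)‖ < δ → ∃ t, |t - 1| < ε ∧ ‖a - t • z‖ = 1 := by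
  obtain ⟨ε', hε'⟩ : ∃ ε' : ℝ, ε' = min (ε / 2) (1 / 4) := ⟨_, rfl⟩
  have hpos : 0 < ε' := by
    rw [hε']
    exact lt_min (by positivity) (by norm_num)
  have h1 : ε' ≤ ε / 2 := by rw [hε']; exact min_le_left _ _
  have h2 : ε' ≤ 1 / 4 := by rw [hε']; exact min_le_right _ _
  have hhalf : ‖a - (1 / 2 : ℝ) • (a - y₀)‖ < 1 := by
    have e : a - (1 / 2 : ℝ) • (a - y₀) = (1 / 2 : ℝ) • (a + y₀) := by module
    rw [e, norm_smul]
    norm_num
    linarith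
  have hone : ‖a - (1 : ℝ) • (a - y₀)‖ = 1 := by simpa using hy₀
  have hlow : ‖a - (1 - ε') • (a - y₀)‖ < 1 :=
    chord_interior ha (by norm_num : (0 : ℝ) < 1 / 2) hhalf hone.le (by linarith) (by linarith)
  have hhigh : 1 < ‖a - (1 + ε') • (a - y₀)‖ := by
    by_contra hc
    push Not at hc
    have := chord_interior ha (by norm_num : (0 : ℝ) < 1 / 2) hhalf hc (t := 1) (by norm_num)
      (by linarith)
    linarith
  obtain ⟨δ, hδ⟩ : ∃ δ : ℝ, δ = min (1 - ‖a - (1 - ε') • (a - y₀)‖)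
      (‖a - (1 + ε') • (a - y₀)‖ - 1) / 2 := ⟨_, rfl⟩
  have hδpos : 0 < δ := by
    rw [hδ]
    exact div_pos (lt_min (by linarith) (by linarith)) (by norm_num)
  have hδ1 : 2 * δ ≤ 1 - ‖a - (1 - ε') • (a - y₀)‖ := by
    rw [hδ]
    linarith [min_le_left (1 - ‖a - (1 - ε') • (a - y₀)‖) (‖a - (1 + ε') • (a - y₀)‖ - 1)]
  have hδ2 : 2 * δ ≤ ‖a - (1 + ε') • (a - y₀)‖ - 1 := by
    rw [hδ]
    linarith [min_le_right (1 - ‖a - (1 - ε') • (a - y₀)‖) (‖a - (1 + ε') • (a - y₀)‖ - 1)]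
  refine ⟨δ / 2, by positivity, fun z hz => ?_⟩
  have hclose : ∀ t : ℝ, |t| ≤ 2 → |‖a - t • z‖ - ‖a - t • (a - y₀)‖| ≤ δ := by
    intro t ht
    refine (abs_norm_sub_norm_le _ _).trans ?_
    have e : a - t • z - (a - t • (a - y₀)) = (-t) • (z - (a - y₀)) := by module
    rw [e, norm_smul, Real.norm_eq_abs, abs_neg]
    nlinarith [norm_nonneg (z - (a - y₀)), abs_nonneg t]
  have ha1 : ‖a - (1 - ε') • z‖ < 1 := by
    have := (abs_le.1 (hclose (1 - ε') (by rw [abs_le]; constructor <;> linarith))).2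
    linarith
  have ha2 : 1 < ‖a - (1 + ε') • z‖ := by
    have := (abs_le.1 (hclose (1 + ε') (by rw [abs_le]; constructor <;> linarith))).1
    linarith
  have hcont : ContinuousOn (fun t : ℝ => ‖a - t • z‖) (Icc (1 - ε') (1 + ε')) := by fun_prop
  obtain ⟨t, ht, ht1⟩ := intermediate_value_Icc (by linarith : 1 - ε' ≤ 1 + ε') hcont
    ⟨ha1.le, ha2.le⟩
  refine ⟨t, ?_, ht1⟩
  rw [abs_lt]
  constructor <;> linarith [ht.1, ht.2]

end Exit

end Vale.Agent.Lib.P084
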