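import Mathlib
import Vale.Agent.Lib.P084.Corner.Star

/-! From the chord relation for one linear map to a linear patch of the sphere. -/

namespace Vale.Agent.Lib.P084

open Set Metric Filter Topology Module

section Patch

variable {X Y : Type*} [NormedAddCommGroup X] [NormedSpace ℝ X]
  [NormedAddCommGroup Y] [NormedSpace ℝ Y] {g : X → Y} {h : Y → X}

lemma add_iso (H : SphereIso g h) (hodd : ∀ x : X, ‖x‖ = 1 → g (-x) = -g x) {a b : X}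
    (ha : ‖a‖ = 1) (hb : ‖b‖ = 1) : ‖g a + g b‖ = ‖a + b‖ := by
  have h1 := H.iso a (-b) ha (by rwa [norm_neg])
  rwa [hodd b hb, sub_neg_eq_add, sub_neg_eq_add] at h1

/-- The value at the base point of the derivative of the norm along a chord. -/
lemma chi_base_lower {E : Type*} [NormedAddCommGroup E] [NormedSpace ℝ E] {a y : E} (ha : ‖a‖ = 1)
    (hd : Dn (a - y)) : 1 - ‖a + y‖ ≤ chi (a - y) a := by
  have e : a = (1 / 2 : ℝ) • (a - y) + (1 / 2 : ℝ) • (a + y) := by module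
  have h1 : chi (a - y) a = (1 / 2 : ℝ) * chi (a - y) (a - y) + (1 / 2 : ℝ) * chi (a - y) (a + y) := by
    have h0 := congrArg (chi (a - y)) e
    rwa [map_add, map_smul, map_smul, smul_eq_mul, smul_eq_mul] at h0
  rw [h1, hd.chi_self]
  have h2 := (abs_le.1 (abs_chi_le (a - y) (a + y))).1
  have h3 : ‖(2 : ℝ) • a‖ ≤ ‖a - y‖ + ‖a + y‖ := by
    have e2 : (2 : ℝ) • a = (a - y) + (a + y) := by module
    rw [e2]
    exact norm_add_le _ _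
  rw [norm_smul, ha] at h3
  norm_num at h3
  linarith

/-- The chord relation for a linear map, with respect to a dense set of unit vectors. -/
structure Star (g : X → Y) (x₀ : X) (A : Set X) (L : X →L[ℝ] Y) : Prop where
  unit : ∀ y ∈ A, ‖y‖ = 1
  dense : ∀ y₀, ‖y₀‖ = 1 → ∀ ε > 0, ∃ y ∈ A, ‖y - y₀‖ < ε
  dnX : ∀ y ∈ A, ‖x₀ + y‖ < 2 → Dn (x₀ - y)
  dnY : ∀ y ∈ A, ‖x₀ + y‖ < 2 → Dn (g x₀ - g y)
  rel : ∀ y ∈ A, ‖x₀ + y‖ < 2 → ∀ u, chi (g x₀ - g y) (L u) = chi (x₀ - y) u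

variable {x₀ : X} {A : Set X} {L : X →L[ℝ] Y}

lemma Star.dense_Y (S : Star g x₀ A L) (H : SphereIso g h) (q₀ : Y) (hq₀ : ‖q₀‖ = 1) (ε : ℝ)
    (hε : ε > 0) : ∃ q ∈ g '' A, ‖q - q₀‖ < ε := by
  obtain ⟨y, hy, hyd⟩ := S.dense (h q₀) (H.map_h _ hq₀) ε hε
  refine ⟨g y, ⟨y, hy, rfl⟩, ?_⟩
  have h1 := H.iso y (h q₀) (S.unit y hy) (H.map_h _ hq₀)
  rw [H.right _ hq₀] at h1
  rwa [h1]

lemma Star.dn_Y (S : Star g x₀ A L) (H : SphereIso g h) (hodd : ∀ x : X, ‖x‖ = 1 → g (-x) = -g x)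
    (hx₀ : ‖x₀‖ = 1) : ∀ q ∈ g '' A, ‖g x₀ + q‖ < 2 → Dn (g x₀ - q) := by
  rintro _ ⟨y, hy, rfl⟩ hq
  rw [add_iso H hodd hx₀ (S.unit y hy)] at hq
  exact S.dnY y hy hq

lemma Star.sep_X (S : Star g x₀ A L) (hx₀ : ‖x₀‖ = 1) {v : X}
    (hv : ∀ y ∈ A, ‖x₀ + y‖ < 2 → chi (x₀ - y) v = 0) : v = 0 :=
  sep_of_dense hx₀ S.dense S.dnX hv

lemma Star.sep_Y (S : Star g x₀ A L) (H : SphereIso g h) (hodd : ∀ x : X, ‖x‖ = 1 → g (-x) = -g x)
    (hx₀ : ‖x₀‖ = 1) {v : Y}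
    (hv : ∀ y ∈ A, ‖x₀ + y‖ < 2 → chi (g x₀ - g y) v = 0) : v = 0 := by
  refine sep_of_dense (H.map_g _ hx₀) (S.dense_Y H) (S.dn_Y H hodd hx₀) ?_
  rintro _ ⟨y, hy, rfl⟩ hq
  rw [add_iso H hodd hx₀ (S.unit y hy)] at hq
  exact hv y hy hq

lemma Star.injective (S : Star g x₀ A L) (hx₀ : ‖x₀‖ = 1) : Function.Injective L := by
  refine (injective_iff_map_eq_zero L).2 fun u hu => ?_
  refine S.sep_X hx₀ fun y hy hq => ?_
  rw [← S.rel y hy hq, hu, map_zero]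

/-- The image of the directions seen from the base point is expanded. -/
lemma Star.norm_le_X (S : Star g x₀ A L) (hx₀ : ‖x₀‖ = 1) {z : X} (hz : z ∈ Vis x₀) :
    ‖z‖ ≤ ‖L z‖ := by
  obtain ⟨t, ht, h1⟩ := hz
  obtain ⟨t₀, -, -, h2⟩ := sup_of_dense hx₀ S.dense S.dnX ht h1
  refine le_of_forall_pos_le_add fun ε hε => ?_
  obtain ⟨y, hy, -, hy2, hy3⟩ := h2 ε hε
  rw [← S.rel y hy hy2] at hy3
  have h3 := chi_le (g x₀ - g y) (L z)
  linarith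

lemma Star.norm_le_Y (S : Star g x₀ A L) (H : SphereIso g h)
    (hodd : ∀ x : X, ‖x‖ = 1 → g (-x) = -g x) (hx₀ : ‖x₀‖ = 1) {z : X} (hz : L z ∈ Vis (g x₀)) :
    ‖L z‖ ≤ ‖z‖ := by
  obtain ⟨t, ht, h1⟩ := hz
  obtain ⟨t₀, -, -, h2⟩ := sup_of_dense (H.map_g _ hx₀) (S.dense_Y H) (S.dn_Y H hodd hx₀) ht h1
  refine le_of_forall_pos_le_add fun ε hε => ?_
  obtain ⟨_, ⟨y, hy, rfl⟩, -, hy2, hy3⟩ := h2 ε hε
  rw [add_iso H hodd hx₀ (S.unit y hy)] at hy2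
  rw [S.rel y hy hy2] at hy3
  have h3 := chi_le (x₀ - y) z
  linarith

section Equiv

variable {E : X ≃L[ℝ] Y}

/-- The preimage of the base point is seen from the base point. -/
lemma Star.vis_symm (S : Star g x₀ A (E : X →L[ℝ] Y)) (H : SphereIso g h)
    (hodd : ∀ x : X, ‖x‖ = 1 → g (-x) = -g x) (hx₀ : ‖x₀‖ = 1) :
    ∃ t : ℝ, 0 < t ∧ ‖x₀ - t • E.symm (g x₀)‖ < 1 := by
  refine vis_of_lower hx₀ S.dense S.dnX fun y hy hq => ?_
  have h1 := S.rel y hy hq (E.symm (g x₀))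
  have h2 : ((E : X →L[ℝ] Y)) (E.symm (g x₀)) = g x₀ := by simp
  rw [h2] at h1
  rw [← h1]
  have h3 := chi_base_lower (H.map_g _ hx₀) (S.dnY y hy hq)
  rwa [add_iso H hodd hx₀ (S.unit y hy)] at h3

/-- A good chord from the base point is sent to its image by the linear map. -/
lemma Star.eq_of_good (S : Star g x₀ A (E : X →L[ℝ] Y)) (H : SphereIso g h)
    (hodd : ∀ x : X, ‖x‖ = 1 → g (-x) = -g x) (hx₀ : ‖x₀‖ = 1) {y : X} (hy : ‖y‖ = 1)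
    (hq : ‖x₀ + y‖ < 2) (hgood : GoodDir (x₀ - y)) (hvis : E.symm (g x₀ - g y) ∈ Vis x₀) :
    E.symm (g x₀ - g y) = x₀ - y := by
  obtain ⟨z, hz⟩ : ∃ z, z = x₀ - y := ⟨_, rfl⟩
  obtain ⟨z', hz'⟩ : ∃ z', z' = g x₀ - g y := ⟨_, rfl⟩
  obtain ⟨w, hw⟩ : ∃ w, w = E.symm z' := ⟨_, rfl⟩
  rw [← hz] at hgood ⊢
  rw [← hz'] at hvis ⊢
  rw [← hw] at hvis ⊢
  have hEw : (E : X →L[ℝ] Y) w = z' := by
    rw [hw]
    simp
  have hzz : ‖z'‖ = ‖z‖ := by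
    rw [hz, hz']
    exact H.iso _ _ hx₀ hy
  have h1 : ‖w‖ ≤ ‖z'‖ := by
    have := S.norm_le_X hx₀ hvis
    rwa [hEw] at this
  have h2 : ‖z'‖ ≤ ‖w‖ := by
    have hv : (E : X →L[ℝ] Y) w ∈ Vis (g x₀) := by
      rw [hEw]
      refine ⟨1 / 2, by norm_num, ?_⟩
      have e : g x₀ - (1 / 2 : ℝ) • z' = (1 / 2 : ℝ) • (g x₀ + g y) := by
        rw [hz']
        module
      rw [e, norm_smul, add_iso H hodd hx₀ hy]
      norm_num
      linarith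
    have := S.norm_le_Y H hodd hx₀ hv
    rwa [hEw] at this
  have hwz : ‖w‖ = ‖z‖ := by linarith
  have hlow : ‖z‖ ≤ chi z w := by
    refine le_of_forall_pos_le_add fun ε hε => ?_
    obtain ⟨ε₁, hε₁⟩ : ∃ ε₁ : ℝ, ε₁ = ε / (‖w‖ + 2) := ⟨_, rfl⟩
    have hε₁pos : 0 < ε₁ := by rw [hε₁]; positivity
    have hε₁e : ε₁ * (‖w‖ + 2) = ε := by
      rw [hε₁]
      field_simp
    obtain ⟨r, hr, hclose⟩ := chi_close hgood.1 hε₁pos
    obtain ⟨δ, hδ⟩ : ∃ δ : ℝ, δ = min r (min ε₁ (2 - ‖x₀ + y‖)) := ⟨_, rfl⟩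
    have hδpos : 0 < δ := by
      rw [hδ]
      exact lt_min hr (lt_min hε₁pos (by linarith))
    have hδ1 : δ ≤ r := by rw [hδ]; exact min_le_left _ _
    have hδ2 : δ ≤ ε₁ := by
      rw [hδ]
      exact (min_le_right _ _).trans (min_le_left _ _)
    have hδ3 : δ ≤ 2 - ‖x₀ + y‖ := by
      rw [hδ]
      exact (min_le_right _ _).trans (min_le_right _ _)
    obtain ⟨y', hy', hyd⟩ := S.dense y hy δ hδpos
    have hy'1 := S.unit y' hy'
    have hq' : ‖x₀ + y'‖ < 2 := by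
      have e : x₀ + y' = (x₀ + y) + (y' - y) := by abel
      rw [e]
      refine (norm_add_le _ _).trans_lt ?_
      linarith
    have hclose' := hclose (x₀ - y') (S.dnX y' hy' hq') (by
      have e : x₀ - y' - z = -(y' - y) := by
        rw [hz]
        abel
      rw [e, norm_neg]
      linarith)
    have h3 := S.rel y' hy' hq' w
    rw [hEw] at h3
    obtain ⟨z₁, hz₁⟩ : ∃ z₁, z₁ = g x₀ - g y' := ⟨_, rfl⟩
    rw [← hz₁] at h3
    have hd₁ : Dn z₁ := by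
      rw [hz₁]
      exact S.dnY y' hy' hq'
    have hgd : ‖g y' - g y‖ < ε₁ := by
      rw [H.iso _ _ hy'1 hy]
      linarith
    have h4 : z' = z₁ + (g y' - g y) := by
      rw [hz', hz₁]
      abel
    have h5 : chi z₁ z' = ‖z₁‖ + chi z₁ (g y' - g y) := by
      rw [h4, map_add, hd₁.chi_self]
    have h6 := (abs_le.1 (abs_chi_le z₁ (g y' - g y))).1
    have h7 : ‖z'‖ ≤ ‖z₁‖ + ‖g y' - g y‖ := by
      rw [h4]
      exact norm_add_le _ _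
    have h8 : chi (x₀ - y') w - chi z w ≤ ε₁ * ‖w‖ := by
      have h9 := (chi (x₀ - y') - chi z).le_opNorm w
      rw [Real.norm_eq_abs] at h9
      have h10 := le_abs_self ((chi (x₀ - y') - chi z) w)
      have h11 : (chi (x₀ - y') - chi z) w = chi (x₀ - y') w - chi z w := rfl
      rw [h11] at h9 h10
      have h12 := mul_le_mul_of_nonneg_right hclose'.le (norm_nonneg w)
      linarith
    have h13 : ε₁ * ‖w‖ + 2 * ε₁ = ε := by
      rw [← hε₁e]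
      ring
    linarith
  have hup : chi z w ≤ ‖z‖ := by
    rw [← hwz]
    exact chi_le z w
  exact hgood.2 w hwz (le_antisymm hup hlow)

end Equiv

end Patch

end Vale.Agent.Lib.P084
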