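import Mathlib
import Vale.Agent.Lib.P084.Corner.Patch

/-! Unique continuation for isometries of spheres when the smooth exposed directions are only dense:
the chords in these directions carry the linearity over the whole sphere. -/

namespace Vale.Agent.Lib.P084

open Set Metric Filter Topology

section PropD

variable {X Y : Type*} [NormedAddCommGroup X] [NormedSpace ℝ X]
  [NormedAddCommGroup Y] [NormedSpace ℝ Y]

/-- The end of a chord can be moved a little so that the chord has a smooth exposed direction. -/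
lemma perturb_end {x y : X} (hx : ‖x‖ = 1) (hy : ‖y‖ = 1) (hmidy : ‖y + x‖ < 2)
    (hGd : Dense {z : X | GoodDir z}) {ε₂ : ℝ} (hε₂pos : 0 < ε₂) :
    ∃ x', ‖x'‖ = 1 ∧ ‖x' - x‖ ≤ ε₂ ∧ GoodDir (x' - y) := by
  obtain ⟨ε₃, hε₃⟩ : ∃ ε₃ : ℝ, ε₃ = min (ε₂ / 8) (1 / 2) := ⟨_, rfl⟩
  have hε₃pos : 0 < ε₃ := by
    rw [hε₃]
    exact lt_min (by positivity) (by norm_num)
  have hε₃1 : ε₃ ≤ ε₂ / 8 := by rw [hε₃]; exact min_le_left _ _
  have hε₃2 : ε₃ ≤ 1 / 2 := by rw [hε₃]; exact min_le_right _ _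
  obtain ⟨δ, hδ, hexit⟩ := exit_near hy hx hmidy hε₃pos
  obtain ⟨z', hz'b, hz'G⟩ := Metric.dense_iff.1 hGd (x - y) (min δ ε₃) (lt_min hδ hε₃pos)
  rw [mem_ball, dist_eq_norm] at hz'b
  have hz'1 : ‖z' - (x - y)‖ < δ := hz'b.trans_le (min_le_left _ _)
  have hz'2 : ‖z' - (x - y)‖ < ε₃ := hz'b.trans_le (min_le_right _ _)
  obtain ⟨t, ht, ht1⟩ := hexit (-z') (by
    have e : -z' - (y - x) = -(z' - (x - y)) := by abel
    rw [e, norm_neg]
    exact hz'1)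
  have h1 : |t - 1| < ε₃ := ht
  rw [abs_lt] at ht
  have htpos : 0 < t := by linarith [ht.1]
  refine ⟨y + t • z', ?_, ?_, ?_⟩
  · have e : y + t • z' = y - t • -z' := by simp
    rw [e]
    exact ht1
  · have hxy2 : ‖x - y‖ ≤ 2 := by
      refine (norm_sub_le _ _).trans ?_
      rw [hx, hy]
      norm_num
    have hz'n : ‖z'‖ ≤ 3 := by
      have e : z' = (z' - (x - y)) + (x - y) := by abel
      rw [e]
      refine (norm_add_le _ _).trans ?_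
      linarith
    have e : y + t • z' - x = (t - 1) • z' + (z' - (x - y)) := by module
    rw [e]
    refine (norm_add_le _ _).trans ?_
    rw [norm_smul, Real.norm_eq_abs]
    have h2 : |t - 1| * ‖z'‖ ≤ ε₃ * 3 :=
      mul_le_mul h1.le hz'n (norm_nonneg _) hε₃pos.le
    linarith
  · have e : y + t • z' - y = t • z' := by abel
    rw [e]
    exact GoodDir.smul hz'G htpos

/-- A boundary point joined to the linear piece by a chord in the open cone is in the linear piece,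
when the smooth exposed directions are dense. -/
lemma capture_d {g : X → Y} {L : X ≃L[ℝ] Y}
    (hiso : ∀ a b : X, ‖a‖ = 1 → ‖b‖ = 1 → ‖g a - g b‖ = ‖a - b‖)
    {G : Set X} (hGo : IsOpen G) (hGd : Dense {z : X | GoodDir z}) (hGn : ∀ z ∈ G, ‖L z‖ = ‖z‖)
    {x b : X} (hx : ‖x‖ = 1) (hb : ‖b‖ = 1)
    (hxW : x ∈ LinSet g (L : X →L[ℝ] Y)) (hgb : g b = L b)
    (hmid : ‖(1 / 2 : ℝ) • (x + b)‖ < 1) (hxb : x - b ∈ G) :
    b ∈ LinSet g (L : X →L[ℝ] Y) := by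
  obtain ⟨κ, hκdef⟩ : ∃ κ : ℝ, κ = 1 - ‖(1 / 2 : ℝ) • (x + b)‖ := ⟨_, rfl⟩
  have hκpos : 0 < κ := by rw [hκdef]; linarith
  obtain ⟨ρ₀, hρ₀, hρ₀W⟩ := Metric.isOpen_iff.1 (isOpen_linSet g (L : X →L[ℝ] Y)) x hxW
  obtain ⟨εG, hεG, hεGb⟩ := Metric.isOpen_iff.1 hGo _ hxb
  obtain ⟨C, hC⟩ : ∃ C : ℝ, C = ‖(L.symm : Y →L[ℝ] X)‖ + 1 := ⟨_, rfl⟩
  have hC1 : 1 ≤ C := by
    rw [hC]
    linarith [norm_nonneg (L.symm : Y →L[ℝ] X)]
  have hCpos : 0 < C := by linarith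
  obtain ⟨ε, hε⟩ : ∃ ε : ℝ, ε = min (εG / (4 * C)) (κ / (4 * C)) := ⟨_, rfl⟩
  have hεpos : 0 < ε := by rw [hε]; positivity
  have hεa : ε * C ≤ εG / 4 := by
    have : ε ≤ εG / (4 * C) := by rw [hε]; exact min_le_left _ _
    rw [le_div_iff₀ (by positivity)] at this
    linarith
  have hεb : ε * C ≤ κ / 4 := by
    have : ε ≤ κ / (4 * C) := by rw [hε]; exact min_le_right _ _
    rw [le_div_iff₀ (by positivity)] at this
    linarith
  have hεC : ε ≤ ε * C := by nlinarith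
  refine ⟨ε, hεpos, fun y hy hyb => ?_⟩
  obtain ⟨y', hy'⟩ : ∃ y' : X, y' = L.symm (g y) := ⟨_, rfl⟩
  have hLy' : L y' = g y := by rw [hy']; simp
  have hy'b : ‖y' - b‖ ≤ ε * C := by
    have e : y' - b = (L.symm : Y →L[ℝ] X) (g y - g b) := by
      rw [map_sub, hgb]
      simp [hy']
    rw [e]
    have h1 := (L.symm : Y →L[ℝ] X).le_opNorm (g y - g b)
    rw [hiso _ _ hy hb] at h1
    have h2 : ‖(L.symm : Y →L[ℝ] X)‖ * ‖y - b‖ ≤ C * ‖y - b‖ :=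
      mul_le_mul_of_nonneg_right (by rw [hC]; linarith) (norm_nonneg _)
    have h3 : ‖y - b‖ * C ≤ ε * C := mul_le_mul_of_nonneg_right hyb.le hCpos.le
    linarith
  have hyy : ‖y' - y‖ ≤ κ / 2 := by
    have h1 : y' - y = (y' - b) - (y - b) := by abel
    rw [h1]
    have h2 := norm_sub_le (y' - b) (y - b)
    linarith
  have hmidy : ‖y + x‖ < 2 := by
    have e : y + x = (2 : ℝ) • ((1 / 2 : ℝ) • (x + b)) + (y - b) := by module
    rw [e]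
    refine (norm_add_le _ _).trans_lt ?_
    have h1 : ‖(2 : ℝ) • ((1 / 2 : ℝ) • (x + b))‖ = 2 * ‖(1 / 2 : ℝ) • (x + b)‖ := by
      rw [norm_smul]
      norm_num
    rw [h1]
    linarith
  -- the perturbed point
  obtain ⟨ε₂, hε₂⟩ : ∃ ε₂ : ℝ, ε₂ = min (εG / 4) (min (κ / 8) (ρ₀ / 2)) := ⟨_, rfl⟩
  have hε₂pos : 0 < ε₂ := by
    rw [hε₂]
    exact lt_min (by positivity) (lt_min (by positivity) (by positivity))
  have hε₂1 : ε₂ ≤ εG / 4 := by rw [hε₂]; exact min_le_left _ _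
  have hε₂2 : ε₂ ≤ κ / 8 := by
    rw [hε₂]
    exact (min_le_right _ _).trans (min_le_left _ _)
  have hε₂3 : ε₂ ≤ ρ₀ / 2 := by
    rw [hε₂]
    exact (min_le_right _ _).trans (min_le_right _ _)
  obtain ⟨x', hx'1, hx'x, hgood⟩ := perturb_end hx hy hmidy hGd hε₂pos
  have hG1 : x' - y ∈ G := by
    apply hεGb
    rw [mem_ball, dist_eq_norm]
    have e : x' - y - (x - b) = (x' - x) - (y - b) := by abel
    rw [e]
    refine (norm_sub_le _ _).trans_lt ?_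
    linarith
  have hG2 : x' - y' ∈ G := by
    apply hεGb
    rw [mem_ball, dist_eq_norm]
    have e : x' - y' - (x - b) = (x' - x) - (y' - b) := by abel
    rw [e]
    refine (norm_sub_le _ _).trans_lt ?_
    linarith
  have hmid' : ‖(1 / 2 : ℝ) • (x' + y)‖ ≤ 1 - κ / 2 := by
    have e : (1 / 2 : ℝ) • (x' + y) =
        (1 / 2 : ℝ) • (x + b) + ((1 / 2 : ℝ) • (x' - x) + (1 / 2 : ℝ) • (y - b)) := by module
    rw [e]
    refine (norm_add_le _ _).trans ?_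
    have h0 := norm_add_le ((1 / 2 : ℝ) • (x' - x)) ((1 / 2 : ℝ) • (y - b))
    have h1 : ‖(1 / 2 : ℝ) • (y - b)‖ = 1 / 2 * ‖y - b‖ := by
      rw [norm_smul]
      norm_num
    have h2 : ‖(1 / 2 : ℝ) • (x' - x)‖ = 1 / 2 * ‖x' - x‖ := by
      rw [norm_smul]
      norm_num
    rw [h1, h2] at h0
    linarith
  have hρ' : 0 < ρ₀ / 2 := by positivity
  have hball' : ball x' (ρ₀ / 2) ⊆ LinSet g (L : X →L[ℝ] Y) := by
    intro w hw
    apply hρ₀W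
    rw [mem_ball, dist_eq_norm] at hw ⊢
    have e : w - x = (w - x') + (x' - x) := by abel
    rw [e]
    refine (norm_add_le _ _).trans_lt ?_
    linarith
  have hcore := step_core (L := (L : X →L[ℝ] Y)) (y' := y') hiso hx'1 hy hLy' hρ' hball'
    hgood (hGn _ hG1) (hGn _ hG2) hκpos hmid' hyy
  rw [← hLy', hcore]
  rfl

/-- Passing to the limit: if two curves on the sphere lie in the linear piece before time `m` and
their limits are joined by a chord in a good direction, then the limit of the second curve is in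
the linear piece. -/
lemma limit_capture_d {g : X → Y} {L : X ≃L[ℝ] Y}
    (hiso : ∀ a b : X, ‖a‖ = 1 → ‖b‖ = 1 → ‖g a - g b‖ = ‖a - b‖)
    {G : Set X} (hGo : IsOpen G) (hGd : Dense {z : X | GoodDir z}) (hGn : ∀ z ∈ G, ‖L z‖ = ‖z‖)
    {φ ψ : ℝ → X} {m : ℝ} (hm : 0 < m)
    (hφc : ContinuousWithinAt φ (Iio m) m) (hψc : ContinuousWithinAt ψ (Iio m) m)
    (hφ1 : ∀ t ∈ Ioo 0 m, ‖φ t‖ = 1) (hψ1 : ∀ t ∈ Ioo 0 m, ‖ψ t‖ = 1)
    (hφW : ∀ t ∈ Ioo 0 m, φ t ∈ LinSet g (L : X →L[ℝ] Y))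
    (hψW : ∀ t ∈ Ioo 0 m, ψ t ∈ LinSet g (L : X →L[ℝ] Y))
    (hψm1 : ‖ψ m‖ = 1)
    (hmid : ‖(1 / 2 : ℝ) • (φ m + ψ m)‖ < 1) (hdiff : φ m - ψ m ∈ G) :
    ψ m ∈ LinSet g (L : X →L[ℝ] Y) := by
  have hmem : ∀ᶠ t in 𝓝[<] m, t ∈ Ioo 0 m := Ioo_mem_nhdsLT hm
  have hψt : Tendsto ψ (𝓝[<] m) (𝓝 (ψ m)) := hψc
  have hφt : Tendsto φ (𝓝[<] m) (𝓝 (φ m)) := hφc
  have hg1 : Tendsto (fun t => g (ψ t)) (𝓝[<] m) (𝓝 (g (ψ m))) := by
    rw [tendsto_iff_norm_sub_tendsto_zero]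
    have h0 : Tendsto (fun t => ‖ψ t - ψ m‖) (𝓝[<] m) (𝓝 0) :=
      tendsto_iff_norm_sub_tendsto_zero.1 hψt
    refine h0.congr' ?_
    filter_upwards [hmem] with t ht
    rw [hiso _ _ (hψ1 t ht) hψm1]
  have hg2 : Tendsto (fun t => g (ψ t)) (𝓝[<] m) (𝓝 (L (ψ m))) := by
    have h0 : Tendsto (fun t => L (ψ t)) (𝓝[<] m) (𝓝 (L (ψ m))) :=
      L.continuous.continuousAt.tendsto.comp hψt
    refine h0.congr' ?_
    filter_upwards [hmem] with t ht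
    exact (linSet_apply (hψW t ht) (hψ1 t ht)).symm
  have hgm : g (ψ m) = L (ψ m) := tendsto_nhds_unique hg1 hg2
  have hev1 : ∀ᶠ t in 𝓝[<] m, φ t - ψ m ∈ G :=
    (hφt.sub_const (ψ m)).eventually (hGo.mem_nhds hdiff)
  have hev2 : ∀ᶠ t in 𝓝[<] m, ‖(1 / 2 : ℝ) • (φ t + ψ m)‖ < 1 := by
    have h0 : Tendsto (fun t => ‖(1 / 2 : ℝ) • (φ t + ψ m)‖) (𝓝[<] m)
        (𝓝 ‖(1 / 2 : ℝ) • (φ m + ψ m)‖) := ((hφt.add_const (ψ m)).const_smul _).norm
    exact h0.eventually (gt_mem_nhds hmid)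
  obtain ⟨t, ht, h1, h2⟩ := (hmem.and (hev1.and hev2)).exists
  exact capture_d hiso hGo hGd hGn (hφ1 t ht) hψm1 (hφW t ht) hgm h2 h1

/-- The exit step: if all the upper ends of chords at levels below `m` lie in the linear piece, so
do those at the levels `m` and `-m`. -/
lemma exit_step_d {g : X → Y} {L : X ≃L[ℝ] Y}
    (hiso : ∀ a b : X, ‖a‖ = 1 → ‖b‖ = 1 → ‖g a - g b‖ = ‖a - b‖)
    (hodd : ∀ x : X, ‖x‖ = 1 → g (-x) = -g x)
    {G : Set X} (hGo : IsOpen G) (hGc : ∀ z ∈ G, ∀ s : ℝ, s ≠ 0 → s • z ∈ G)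
    (hGd : Dense {z : X | GoodDir z}) (hGn : ∀ z ∈ G, ‖L z‖ = ‖z‖)
    {d : X} (hd : ‖d‖ = 1) (hdG : d ∈ G) {y : X} {γ : ℝ → X}
    (hγ : γ = fun τ => τ • y + upperT y d τ • d) {m : ℝ} (hm : 0 < m) (hm1 : m ≤ 1)
    (hγ1 : ∀ τ : ℝ, |τ| ≤ 1 → ‖γ τ‖ = 1) (hγc : ∀ τ : ℝ, |τ| ≤ 1 → ContinuousAt γ τ)
    {t₁ : ℝ} (hin : ‖m • y + t₁ • d‖ < 1)
    (hbefore : ∀ τ : ℝ, |τ| < m → γ τ ∈ LinSet g (L : X →L[ℝ] Y)) :
    γ m ∈ LinSet g (L : X →L[ℝ] Y) ∧ γ (-m) ∈ LinSet g (L : X →L[ℝ] Y) := by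
  obtain ⟨hpos, hmid⟩ := chord_mid hd y hin
  have hφm : γ m = m • y + upperT y d m • d := by rw [hγ]
  have hψm : γ (-m) = (-m) • y + upperT y d (-m) • d := by rw [hγ]
  rw [← hφm, ← hψm] at hmid
  have habsm : |m| ≤ 1 := by rwa [abs_of_pos hm]
  have habsm' : |-m| ≤ 1 := by rwa [abs_neg]
  have hφc : ContinuousWithinAt γ (Iio m) m := (hγc m habsm).continuousWithinAt
  have hψc : ContinuousWithinAt (fun t => -γ (-t)) (Iio m) m := by
    have h1 : ContinuousAt (fun t : ℝ => γ (-t)) m :=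
      ContinuousAt.comp (f := fun t : ℝ => -t) (g := γ) (hγc (-m) habsm') continuous_neg.continuousAt
    exact h1.neg.continuousWithinAt
  have habs : ∀ t ∈ Ioo 0 m, |t| < m := fun t ht => by rw [abs_of_pos ht.1]; exact ht.2
  have habs' : ∀ t ∈ Ioo 0 m, |-t| < m := fun t ht => by rw [abs_neg]; exact habs t ht
  have hφ1 : ∀ t ∈ Ioo 0 m, ‖γ t‖ = 1 := fun t ht => hγ1 t ((habs t ht).le.trans hm1)
  have hψ1 : ∀ t ∈ Ioo 0 m, ‖-γ (-t)‖ = 1 := fun t ht => by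
    rw [norm_neg]
    exact hγ1 _ ((habs' t ht).le.trans hm1)
  have hφW : ∀ t ∈ Ioo 0 m, γ t ∈ LinSet g (L : X →L[ℝ] Y) := fun t ht => hbefore t (habs t ht)
  have hψW : ∀ t ∈ Ioo 0 m, -γ (-t) ∈ LinSet g (L : X →L[ℝ] Y) := fun t ht =>
    linSet_neg hodd (hbefore _ (habs' t ht))
  obtain ⟨s, hs⟩ : ∃ s : ℝ, s = upperT y d m + upperT y d (-m) := ⟨_, rfl⟩
  rw [← hs] at hpos
  have hdiff : γ m - -γ (-m) = s • d := by
    rw [hφm, hψm, hs]
    module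
  have hG1 : γ m - -γ (-m) ∈ G := by
    rw [hdiff]
    exact hGc d hdG s hpos.ne'
  have hG2 : -γ (-m) - γ m ∈ G := by
    have e : -γ (-m) - γ m = (-s) • d := by
      rw [hφm, hψm, hs]
      module
    rw [e]
    exact hGc d hdG (-s) (neg_ne_zero.2 hpos.ne')
  have hmid' : ‖(1 / 2 : ℝ) • (-γ (-m) + γ m)‖ < 1 := by rwa [add_comm]
  have hA : -γ (-m) ∈ LinSet g (L : X →L[ℝ] Y) :=
    limit_capture_d hiso hGo hGd hGn hm hφc hψc hφ1 hψ1 hφW hψW (by rw [norm_neg]; exact hγ1 _ habsm')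
      hmid hG1
  have hB : γ m ∈ LinSet g (L : X →L[ℝ] Y) :=
    limit_capture_d hiso hGo hGd hGn hm hψc hφc hψ1 hφ1 hψW hφW (hγ1 _ habsm) hmid' hG2
  refine ⟨hB, ?_⟩
  have hC := linSet_neg hodd hA
  rwa [neg_neg] at hC

/-- Linearity spreads from a direction `d` of the good cone over the whole half sphere seen from
`-d` along chords parallel to `d`. -/
lemma propagate_line_d {g : X → Y} {L : X ≃L[ℝ] Y}
    (hiso : ∀ a b : X, ‖a‖ = 1 → ‖b‖ = 1 → ‖g a - g b‖ = ‖a - b‖)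
    (hodd : ∀ x : X, ‖x‖ = 1 → g (-x) = -g x)
    {G : Set X} (hGo : IsOpen G) (hGc : ∀ z ∈ G, ∀ s : ℝ, s ≠ 0 → s • z ∈ G)
    (hGd : Dense {z : X | GoodDir z}) (hGn : ∀ z ∈ G, ‖L z‖ = ‖z‖)
    {d : X} (hd : ‖d‖ = 1) (hdG : d ∈ G) (hdW : d ∈ LinSet g (L : X →L[ℝ] Y))
    {y : X} (hy : ‖y‖ = 1) {c : ℝ} (hc : c < 0) (hline : ‖y + c • d‖ < 1) :
    g y = L y := by
  obtain ⟨γ, hγ⟩ : ∃ γ : ℝ → X, γ = fun τ => τ • y + upperT y d τ • d := ⟨_, rfl⟩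
  have hin : ∀ τ : ℝ, |τ| ≤ 1 → ‖τ • y + (τ * c) • d‖ < 1 := by
    intro τ hτ
    have e : τ • y + (τ * c) • d = τ • (y + c • d) := by module
    rw [e, norm_smul, Real.norm_eq_abs]
    calc |τ| * ‖y + c • d‖ ≤ 1 * ‖y + c • d‖ := mul_le_mul_of_nonneg_right hτ (norm_nonneg _)
      _ < 1 := by linarith
  have hγ1 : ∀ τ : ℝ, |τ| ≤ 1 → ‖γ τ‖ = 1 := fun τ hτ => by
    rw [hγ]
    exact (upperT_spec hd y τ (hin τ hτ)).2.1
  have hγc : ∀ τ : ℝ, |τ| ≤ 1 → ContinuousAt γ τ := by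
    intro τ hτ
    rw [hγ]
    have h1 := upperT_continuousAt hd y (hin τ hτ)
    exact (continuousAt_id.smul continuousAt_const).add (h1.smul continuousAt_const)
  have hγ0 : γ 0 = d := by
    obtain ⟨h1, h2, -, -⟩ := upperT_spec hd y 0 (hin 0 (by simp))
    have hγe : γ 0 = upperT y d 0 • d := by
      rw [hγ]
      simp
    rw [hγe]
    have h3 : ‖(0 : ℝ) • y + upperT y d 0 • d‖ = |upperT y d 0| := by
      rw [zero_smul, zero_add, norm_smul, hd, mul_one, Real.norm_eq_abs]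
    rw [h3] at h2
    simp only [zero_mul] at h1
    rw [abs_of_pos h1] at h2
    rw [h2, one_smul]
  have hγ2 : γ 1 = y := by
    obtain ⟨h1, h2, h3, h4⟩ := upperT_spec hd y 1 (hin 1 (by simp))
    have hu : upperT y d 1 = 0 := by
      rcases lt_trichotomy (upperT y d 1) 0 with hlt | heq | hgt
      · have h5 := h3 0 hlt
        simp only [one_smul, zero_smul, add_zero] at h5
        linarith
      · exact heq
      · have h5 := h4 0 (by linarith) hgt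
        simp only [one_smul, zero_smul, add_zero] at h5
        linarith
    rw [hγ]
    simp [hu]
  suffices hW : y ∈ LinSet g (L : X →L[ℝ] Y) from linSet_apply hW hy
  by_contra hyW
  have hAcl : IsClosed (Icc (-1 : ℝ) 1 ∩ γ ⁻¹' (LinSet g (L : X →L[ℝ] Y))ᶜ) := by
    refine ContinuousOn.preimage_isClosed_of_isClosed ?_ isClosed_Icc
      (isOpen_linSet g (L : X →L[ℝ] Y)).isClosed_compl
    intro τ hτ
    exact (hγc τ (abs_le.2 hτ)).continuousWithinAt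
  have hAc : IsCompact (Icc (-1 : ℝ) 1 ∩ γ ⁻¹' (LinSet g (L : X →L[ℝ] Y))ᶜ) :=
    isCompact_Icc.of_isClosed_subset hAcl inter_subset_left
  have hAne : (Icc (-1 : ℝ) 1 ∩ γ ⁻¹' (LinSet g (L : X →L[ℝ] Y))ᶜ).Nonempty :=
    ⟨1, ⟨by norm_num, by norm_num⟩, by
      change γ 1 ∉ LinSet g (L : X →L[ℝ] Y)
      rwa [hγ2]⟩
  obtain ⟨τs, hτs, hmin⟩ := hAc.exists_isMinOn hAne continuous_abs.continuousOn
  have hτs0 : τs ≠ 0 := by
    rintro rfl
    exact hτs.2 (by rw [hγ0]; exact hdW)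
  have hm : 0 < |τs| := abs_pos.2 hτs0
  have hm1 : |τs| ≤ 1 := abs_le.2 hτs.1
  have hbefore : ∀ τ : ℝ, |τ| < |τs| → γ τ ∈ LinSet g (L : X →L[ℝ] Y) := by
    intro τ hτ
    by_contra hc'
    have h1 : τ ∈ Icc (-1 : ℝ) 1 ∩ γ ⁻¹' (LinSet g (L : X →L[ℝ] Y))ᶜ :=
      ⟨abs_le.1 (hτ.le.trans hm1), hc'⟩
    have h2 := hmin h1
    have h2' : |τs| ≤ |τ| := h2
    linarith
  obtain ⟨h3, h4⟩ := exit_step_d hiso hodd hGo hGc hGd hGn hd hdG hγ hm hm1 hγ1 hγc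
    (hin |τs| (by rwa [abs_abs])) hbefore
  apply hτs.2
  rcases abs_choice τs with h5 | h5
  · rw [h5] at h3
    exact h3
  · rw [h5, neg_neg] at h4
    exact h4

/-- **Unique continuation.** An odd isometry of unit spheres which agrees with a linear map on an
open piece of exposed smooth directions is that linear map on the whole sphere. -/
theorem sphere_eq_of_patch_d {g : X → Y} {L : X ≃L[ℝ] Y}
    (hiso : ∀ a b : X, ‖a‖ = 1 → ‖b‖ = 1 → ‖g a - g b‖ = ‖a - b‖)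
    (hodd : ∀ x : X, ‖x‖ = 1 → g (-x) = -g x)
    (hSm : Dense {z : X | DifferentiableAt ℝ (fun z : X => ‖z‖) z})
    {G : Set X} (hGo : IsOpen G) (hGc : ∀ z ∈ G, ∀ s : ℝ, s ≠ 0 → s • z ∈ G)
    (hGd : Dense {z : X | GoodDir z}) (hGL : ∀ z ∈ G, ‖z‖ = 1 → g z = L z)
    {x₁ : X} (hx₁ : x₁ ∈ G) :
    ∀ y : X, ‖y‖ = 1 → g y = L y := by
  have hgn : ∀ a : X, ‖a‖ = 1 → ‖g a‖ = 1 := by
    intro a ha
    have h1 := hiso a (-a) ha (by rwa [norm_neg])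
    rw [hodd a ha, sub_neg_eq_add, sub_neg_eq_add, ← two_smul ℝ (g a), ← two_smul ℝ a, norm_smul,
      norm_smul, ha] at h1
    have h2 : (2 : ℝ) * ‖g a‖ = 2 * 1 := by simpa using h1
    linarith
  have hGn : ∀ z ∈ G, ‖L z‖ = ‖z‖ := by
    intro z hz
    by_cases hz0 : z = 0
    · simp [hz0]
    have hzn : 0 < ‖z‖ := norm_pos_iff.2 hz0
    have h1 : ‖z‖⁻¹ • z ∈ G := hGc z hz _ (inv_pos.2 hzn).ne'
    have h2 : ‖‖z‖⁻¹ • z‖ = 1 := by
      rw [norm_smul, norm_inv, norm_norm, inv_mul_cancel₀ hzn.ne']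
    have h4 := hgn _ h2
    rw [hGL _ h1 h2, map_smul, norm_smul, norm_inv, norm_norm, inv_mul_eq_div,
      div_eq_one_iff_eq hzn.ne'] at h4
    exact h4
  have hWG : ∀ d ∈ G, ‖d‖ = 1 → d ∈ LinSet g (L : X →L[ℝ] Y) := by
    intro d hd hd1
    obtain ⟨ε, hε, hb⟩ := Metric.isOpen_iff.1 hGo _ hd
    exact ⟨ε, hε, fun y hy hyd => hGL y (hb (by rw [mem_ball, dist_eq_norm]; exact hyd)) hy⟩
  have hsm : ∀ y : X, ‖y‖ = 1 → DifferentiableAt ℝ (fun z : X => ‖z‖) y → g y = L y := by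
    intro y hy hyd
    obtain ⟨d, hdG, hd1, hpos⟩ := exists_dir_of_cone hGo hGc hx₁ hy hyd
    obtain ⟨c, hc, hline⟩ := exists_back_step hy hyd hpos
    exact propagate_line_d hiso hodd hGo hGc hGd hGn hd1 hdG (hWG d hdG hd1) hy hc hline
  intro y hy
  have hsmall : ∀ ε : ℝ, 0 < ε → ‖g y - L y‖ ≤ (1 + ‖(L : X →L[ℝ] Y)‖) * ε := by
    intro ε hε
    obtain ⟨w', hw'b, hw'S⟩ := Metric.dense_iff.1 hSm y (min (ε / 4) (1 / 2)) (by positivity)
    rw [mem_ball, dist_eq_norm] at hw'b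
    have h1 : ‖w' - y‖ < ε / 4 := hw'b.trans_le (min_le_left _ _)
    have h2 : ‖w' - y‖ < 1 / 2 := hw'b.trans_le (min_le_right _ _)
    have h3 : 1 / 2 ≤ ‖w'‖ := by
      have h0 := norm_sub_le w' (w' - y)
      rw [sub_sub_cancel, hy] at h0
      linarith
    have hw'n : 0 < ‖w'‖ := by linarith
    have hw'0 : w' ≠ 0 := norm_pos_iff.1 hw'n
    obtain ⟨w, hw⟩ : ∃ w : X, w = ‖w'‖⁻¹ • w' := ⟨_, rfl⟩
    have hw1 : ‖w‖ = 1 := by
      rw [hw, norm_smul, norm_inv, norm_norm, inv_mul_cancel₀ hw'n.ne']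
    have hws : DifferentiableAt ℝ (fun z : X => ‖z‖) w := by
      rw [hw]
      exact (differentiableAt_norm_smul (inv_pos.2 hw'n).ne').1 hw'S
    have hgw := hsm w hw1 hws
    have hwy : ‖w - y‖ ≤ ε := by
      have h4 := normalize_dist (v₀ := y) hw'0
      rw [hy, inv_one, one_smul, ← hw] at h4
      refine h4.trans ?_
      rw [div_le_iff₀ hw'n]
      nlinarith
    have e : g y - L y = (g y - g w) + (L.toContinuousLinearMap (w - y)) := by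
      rw [hgw]
      simp
    rw [e]
    refine (norm_add_le _ _).trans ?_
    rw [hiso _ _ hy hw1, norm_sub_rev y w]
    have h5 := (L.toContinuousLinearMap).le_opNorm (w - y)
    have h6 : ‖L.toContinuousLinearMap‖ * ‖w - y‖ ≤ ‖L.toContinuousLinearMap‖ * ε :=
      mul_le_mul_of_nonneg_left hwy (norm_nonneg _)
    have h7 : ‖(L : X →L[ℝ] Y)‖ = ‖L.toContinuousLinearMap‖ := rfl
    rw [h7]
    nlinarith
  have hz : ‖g y - L y‖ = 0 := by
    by_contra hne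
    have hp : 0 < ‖g y - L y‖ := lt_of_le_of_ne (norm_nonneg _) (Ne.symm hne)
    have hA : 0 < 1 + ‖(L : X →L[ℝ] Y)‖ := by positivity
    have h8 := hsmall (‖g y - L y‖ / (2 * (1 + ‖(L : X →L[ℝ] Y)‖))) (by positivity)
    have h9 : (1 + ‖(L : X →L[ℝ] Y)‖) * (‖g y - L y‖ / (2 * (1 + ‖(L : X →L[ℝ] Y)‖))) =
        ‖g y - L y‖ / 2 := by
      field_simp
    rw [h9] at h8
    linarith
  exact sub_eq_zero.1 (norm_eq_zero.1 hz)

end PropD

end Vale.Agent.Lib.P084
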