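import Mathlib
import Vale.Agent.Lib.P084.Corner.PropD
import Vale.Agent.Lib.P084.Loc.Calc

/-! From the chord relation for one invertible linear map to the linearity on the whole sphere. -/

namespace Vale.Agent.Lib.P084

open Set Metric Filter Topology Module

section Patch2

variable {X Y : Type*} [NormedAddCommGroup X] [NormedSpace ℝ X]
  [NormedAddCommGroup Y] [NormedSpace ℝ Y] {g : X → Y} {h : Y → X}
  {x₀ : X} {A : Set X} {E : X ≃L[ℝ] Y}

/-- For `y` near `-x₀`, the pull back of the chord is seen from `x₀`. -/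
lemma Star.near_vis (S : Star g x₀ A (E : X →L[ℝ] Y)) (H : SphereIso g h)
    (hodd : ∀ x : X, ‖x‖ = 1 → g (-x) = -g x) (hx₀ : ‖x₀‖ = 1) :
    ∃ ρ > 0, ρ ≤ 1 ∧ ∀ y, ‖y‖ = 1 → ‖y + x₀‖ < ρ → E.symm (g x₀ - g y) ∈ Vis x₀ := by
  obtain ⟨t, ht, h1⟩ := S.vis_symm H hodd hx₀
  obtain ⟨B, hB⟩ : ∃ B : ℝ, B = ‖(E.symm : Y →L[ℝ] X)‖ + 1 := ⟨_, rfl⟩
  have hBpos : 0 < B := by
    rw [hB]
    linarith [norm_nonneg (E.symm : Y →L[ℝ] X)]
  obtain ⟨γ, hγ⟩ : ∃ γ : ℝ, γ = 1 - ‖x₀ - t • E.symm (g x₀)‖ := ⟨_, rfl⟩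
  have hγpos : 0 < γ := by rw [hγ]; linarith
  obtain ⟨ρ, hρ⟩ : ∃ ρ : ℝ, ρ = min 1 (γ / (t * B)) := ⟨_, rfl⟩
  have hρpos : 0 < ρ := by
    rw [hρ]
    exact lt_min one_pos (by positivity)
  refine ⟨ρ, hρpos, by rw [hρ]; exact min_le_left _ _, fun y hy hyρ => ?_⟩
  have hρ2 : ρ * (t * B) ≤ γ := by
    have : ρ ≤ γ / (t * B) := by rw [hρ]; exact min_le_right _ _
    rwa [le_div_iff₀ (by positivity)] at this
  obtain ⟨v, hv⟩ : ∃ v, v = E.symm (g (-x₀) - g y) := ⟨_, rfl⟩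
  have hvn : ‖v‖ ≤ B * ‖y + x₀‖ := by
    have h2 := (E.symm : Y →L[ℝ] X).le_opNorm (g (-x₀) - g y)
    have h3 : ‖g (-x₀) - g y‖ = ‖y + x₀‖ := by
      rw [H.iso _ _ (by rwa [norm_neg]) hy]
      have e : -x₀ - y = -(y + x₀) := by abel
      rw [e, norm_neg]
    rw [h3] at h2
    have h4 : ((E.symm : Y →L[ℝ] X)) (g (-x₀) - g y) = v := by rw [hv]; rfl
    rw [h4] at h2
    have h5 : ‖(E.symm : Y →L[ℝ] X)‖ * ‖y + x₀‖ ≤ B * ‖y + x₀‖ :=
      mul_le_mul_of_nonneg_right (by rw [hB]; linarith) (norm_nonneg _)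
    linarith
  refine ⟨t / 2, by positivity, ?_⟩
  have e1 : E.symm (g x₀ - g y) = (2 : ℝ) • E.symm (g x₀) + v := by
    rw [hv, hodd _ hx₀, ← map_smul, ← map_add]
    congr 1
    module
  have e2 : x₀ - (t / 2) • E.symm (g x₀ - g y) = (x₀ - t • E.symm (g x₀)) + (-(t / 2)) • v := by
    rw [e1]
    module
  rw [e2]
  refine (norm_add_le _ _).trans_lt ?_
  rw [norm_smul, Real.norm_eq_abs, abs_neg, abs_of_pos (by positivity : 0 < t / 2)]
  have h6 : t / 2 * ‖v‖ ≤ t / 2 * (B * ρ) := by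
    refine mul_le_mul_of_nonneg_left (hvn.trans ?_) (by positivity)
    exact mul_le_mul_of_nonneg_left hyρ.le hBpos.le
  have h7 : t / 2 * (B * ρ) = ρ * (t * B) / 2 := by ring
  have h8 := hρ2
  rw [hγ] at h8
  rw [h7] at h6
  have h9 : 0 ≤ ρ * (t * B) := by positivity
  linarith

/-- The map is linear on a neighbourhood of the antipode of the base point. -/
theorem Star.patch (S : Star g x₀ A (E : X →L[ℝ] Y)) (H : SphereIso g h)
    (hodd : ∀ x : X, ‖x‖ = 1 → g (-x) = -g x) (hx₀ : ‖x₀‖ = 1)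
    (hGood : Dense {z : X | GoodDir z}) :
    ∃ ρ > 0, ρ ≤ 1 ∧ ∀ y, ‖y‖ = 1 → ‖y + x₀‖ < ρ → g y = E y := by
  obtain ⟨ρ, hρ, hρ1, hvis⟩ := S.near_vis H hodd hx₀
  have hlt : ∀ y : X, ‖y + x₀‖ < ρ → ‖x₀ + y‖ < 2 := by
    intro y hy
    rw [add_comm]
    linarith
  have hgood : ∀ y, ‖y‖ = 1 → ‖y + x₀‖ < ρ → GoodDir (x₀ - y) → g x₀ - g y = E x₀ - E y := by
    intro y hy hyρ hg
    have h1 := S.eq_of_good H hodd hx₀ hy (hlt y hyρ) hg (hvis y hy hyρ)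
    have h2 := congrArg E h1
    rwa [E.apply_symm_apply, map_sub] at h2
  obtain ⟨C, hC⟩ : ∃ C : ℝ, C = 1 + ‖(E : X →L[ℝ] Y)‖ := ⟨_, rfl⟩
  have hCpos : 0 < C := by
    rw [hC]
    positivity
  have hall : ∀ y₀, ‖y₀‖ = 1 → ‖y₀ + x₀‖ < ρ → g y₀ = g x₀ - E x₀ + E y₀ := by
    intro y₀ hy₀ hy₀ρ
    have hsmall : ∀ ε : ℝ, 0 < ε → ‖g y₀ - (g x₀ - E x₀ + E y₀)‖ ≤ C * ε := by
      intro ε hε
      obtain ⟨ε₂, hε₂⟩ : ∃ ε₂ : ℝ, ε₂ = min ε (ρ - ‖y₀ + x₀‖) := ⟨_, rfl⟩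
      have hε₂pos : 0 < ε₂ := by
        rw [hε₂]
        exact lt_min hε (by linarith)
      have hε₂1 : ε₂ ≤ ε := by rw [hε₂]; exact min_le_left _ _
      have hε₂2 : ε₂ ≤ ρ - ‖y₀ + x₀‖ := by rw [hε₂]; exact min_le_right _ _
      -- move the end of the chord from `x₀` to `y₀`
      have hmid : ‖x₀ + y₀‖ < 2 := hlt y₀ hy₀ρ
      obtain ⟨ε₃, hε₃⟩ : ∃ ε₃ : ℝ, ε₃ = min (ε₂ / 8) (1 / 2) := ⟨_, rfl⟩
      have hε₃pos : 0 < ε₃ := by
        rw [hε₃]
        exact lt_min (by positivity) (by norm_num)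
      have hε₃1 : ε₃ ≤ ε₂ / 8 := by rw [hε₃]; exact min_le_left _ _
      have hε₃2 : ε₃ ≤ 1 / 2 := by rw [hε₃]; exact min_le_right _ _
      obtain ⟨δ, hδ, hexit⟩ := exit_near hx₀ hy₀ hmid hε₃pos
      obtain ⟨z, hzb, hzG⟩ := Metric.dense_iff.1 hGood (x₀ - y₀) (min δ ε₃) (lt_min hδ hε₃pos)
      rw [mem_ball, dist_eq_norm] at hzb
      have hz1 : ‖z - (x₀ - y₀)‖ < δ := hzb.trans_le (min_le_left _ _)
      have hz2 : ‖z - (x₀ - y₀)‖ < ε₃ := hzb.trans_le (min_le_right _ _)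
      obtain ⟨t, ht, ht1⟩ := hexit z hz1
      have ht' := abs_lt.1 ht
      have htpos : 0 < t := by linarith [ht'.1]
      have hxy2 : ‖x₀ - y₀‖ ≤ 2 := by
        refine (norm_sub_le _ _).trans ?_
        rw [hx₀, hy₀]
        norm_num
      have hzn : ‖z‖ ≤ 3 := by
        have e : z = (z - (x₀ - y₀)) + (x₀ - y₀) := by abel
        rw [e]
        refine (norm_add_le _ _).trans ?_
        linarith
      obtain ⟨y, hy⟩ : ∃ y, y = x₀ - t • z := ⟨_, rfl⟩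
      have hy1 : ‖y‖ = 1 := by rw [hy]; exact ht1
      have hyy₀ : ‖y - y₀‖ ≤ ε₂ / 2 := by
        have e : y - y₀ = (1 - t) • z + -(z - (x₀ - y₀)) := by
          rw [hy]
          module
        rw [e]
        refine (norm_add_le _ _).trans ?_
        rw [norm_neg, norm_smul, Real.norm_eq_abs, abs_sub_comm]
        have h2 : |t - 1| * ‖z‖ ≤ ε₃ * 3 := mul_le_mul ht.le hzn (norm_nonneg _) hε₃pos.le
        linarith
      have hyρ : ‖y + x₀‖ < ρ := by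
        have e : y + x₀ = (y - y₀) + (y₀ + x₀) := by abel
        rw [e]
        refine (norm_add_le _ _).trans_lt ?_
        linarith
      have hzy : x₀ - y = t • z := by
        rw [hy]
        abel
      have hgy := hgood y hy1 hyρ (by rw [hzy]; exact GoodDir.smul hzG htpos)
      have e3 : g y = g x₀ - E x₀ + E y := by
        have := hgy
        have e4 : g y = g x₀ - (g x₀ - g y) := by abel
        rw [e4, this]
        abel
      have e5 : g y₀ - (g x₀ - E x₀ + E y₀) = (g y₀ - g y) + (E : X →L[ℝ] Y) (y - y₀) := by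
        rw [e3]
        simp only [map_sub, ContinuousLinearEquiv.coe_coe]
        abel
      rw [e5]
      refine (norm_add_le _ _).trans ?_
      rw [H.iso _ _ hy₀ hy1, norm_sub_rev y₀ y]
      have h6 := (E : X →L[ℝ] Y).le_opNorm (y - y₀)
      have h7 : ‖y - y₀‖ ≤ ε := by linarith
      have h8 : ‖(E : X →L[ℝ] Y)‖ * ‖y - y₀‖ ≤ ‖(E : X →L[ℝ] Y)‖ * ε :=
        mul_le_mul_of_nonneg_left h7 (norm_nonneg _)
      rw [hC]
      nlinarith
    have hz : ‖g y₀ - (g x₀ - E x₀ + E y₀)‖ = 0 := by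
      by_contra hne
      have hp : 0 < ‖g y₀ - (g x₀ - E x₀ + E y₀)‖ := lt_of_le_of_ne (norm_nonneg _) (Ne.symm hne)
      have h8 := hsmall (‖g y₀ - (g x₀ - E x₀ + E y₀)‖ / (2 * C)) (by positivity)
      have h9 : C * (‖g y₀ - (g x₀ - E x₀ + E y₀)‖ / (2 * C)) =
          ‖g y₀ - (g x₀ - E x₀ + E y₀)‖ / 2 := by
        field_simp
      rw [h9] at h8
      linarith
    exact sub_eq_zero.1 (norm_eq_zero.1 hz)
  have hbase : E x₀ = g x₀ := by
    have h1 := hall (-x₀) (by rwa [norm_neg]) (by simpa using hρ)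
    rw [hodd _ hx₀, map_neg] at h1
    have h2 : (2 : ℝ) • E x₀ = (2 : ℝ) • g x₀ := by
      have e : (2 : ℝ) • E x₀ - (2 : ℝ) • g x₀ = 0 := by
        have e2 : (2 : ℝ) • E x₀ - (2 : ℝ) • g x₀ =
            -(g x₀ - E x₀ + -E x₀) - (-g x₀) - (2 : ℝ) • g x₀ + (2 : ℝ) • g x₀ - (2 : ℝ) • g x₀ +
              (2 : ℝ) • g x₀ - (2 : ℝ) • g x₀ := by module
        rw [e2, ← h1]
        module
      exact sub_eq_zero.1 e
    exact smul_right_injective Y (by norm_num : (2 : ℝ) ≠ 0) h2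
  refine ⟨ρ, hρ, hρ1, fun y hy hyρ => ?_⟩
  have h1 := hall y hy hyρ
  rw [hbase, sub_self, zero_add] at h1
  exact h1

/-- The chord relation for an invertible linear map gives the linearity on the whole sphere. -/
theorem Star.eq_on_sphere (S : Star g x₀ A (E : X →L[ℝ] Y)) (H : SphereIso g h)
    (hodd : ∀ x : X, ‖x‖ = 1 → g (-x) = -g x) (hx₀ : ‖x₀‖ = 1)
    (hGood : Dense {z : X | GoodDir z}) : ∀ y, ‖y‖ = 1 → g y = E y := by
  obtain ⟨ρ, hρ, hρ1, hp⟩ := S.patch H hodd hx₀ hGood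
  have hS0 : ‖-x₀‖ = 1 := by rwa [norm_neg]
  have h0 : (0 : X) ∉ ball (-x₀) (ρ / 2) := by
    rw [mem_ball, dist_eq_norm, zero_sub, neg_neg, hx₀]
    linarith
  have hcone := Loc.coneSet_coneOf (isOpen_ball (x := -x₀) (ε := ρ / 2)) h0
  obtain ⟨hGo, -, hG1, hG2⟩ := hcone
  have hGc : ∀ z ∈ Loc.coneOf (ball (-x₀) (ρ / 2)), ∀ s : ℝ, s ≠ 0 →
      s • z ∈ Loc.coneOf (ball (-x₀) (ρ / 2)) := by
    intro z hz s hs
    rcases lt_or_gt_of_ne hs with hneg | hpos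
    · have h3 := hG2 _ (hG1 z hz (-s) (neg_pos.2 hneg))
      rwa [← neg_smul, neg_neg] at h3
    · exact hG1 z hz s hpos
  have hGL : ∀ z ∈ Loc.coneOf (ball (-x₀) (ρ / 2)), ‖z‖ = 1 → g z = E z := by
    rintro z ⟨s, hs, hz⟩ hz1
    rw [mem_ball, dist_eq_norm, sub_neg_eq_add] at hz
    have hsn : |‖s • z‖ - ‖-x₀‖| ≤ ‖s • z - -x₀‖ := abs_norm_sub_norm_le _ _
    rw [sub_neg_eq_add, norm_smul, hz1, mul_one, hS0, Real.norm_eq_abs] at hsn
    have hs1 : |s| - 1 ≤ ρ / 2 ∧ 1 - |s| ≤ ρ / 2 := by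
      constructor
      · linarith [le_abs_self (|s| - 1)]
      · linarith [neg_abs_le (|s| - 1)]
    rcases lt_or_gt_of_ne hs with hneg | hpos
    · rw [abs_of_neg hneg] at hs1
      have h5 : ‖-z + x₀‖ < ρ := by
        have e : -z + x₀ = (s • z + x₀) + (-(1 + s)) • z := by module
        rw [e]
        refine (norm_add_le _ _).trans_lt ?_
        rw [norm_smul, hz1, mul_one, Real.norm_eq_abs, abs_neg]
        have h6 : |1 + s| ≤ ρ / 2 := by
          rw [abs_le]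
          constructor <;> linarith
        linarith
      have h7 := hp (-z) (by rwa [norm_neg]) h5
      rw [hodd z hz1, map_neg] at h7
      exact neg_injective h7
    · rw [abs_of_pos hpos] at hs1
      have h5 : ‖z + x₀‖ < ρ := by
        have e : z + x₀ = (s • z + x₀) + (1 - s) • z := by module
        rw [e]
        refine (norm_add_le _ _).trans_lt ?_
        rw [norm_smul, hz1, mul_one, Real.norm_eq_abs]
        have h6 : |1 - s| ≤ ρ / 2 := by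
          rw [abs_le]
          constructor <;> linarith
        linarith
      exact hp z hz1 h5
  have hx₁ : -x₀ ∈ Loc.coneOf (ball (-x₀) (ρ / 2)) :=
    Loc.subset_coneOf _ (mem_ball_self (by positivity))
  exact sphere_eq_of_patch_d H.iso hodd (hGood.mono fun z hz => hz.1) hGo hGc hGood hGL hx₁

end Patch2

end Vale.Agent.Lib.P084
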