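import Mathlib
import Vale.Agent.Lib.P084.Corner.Patch2

/-! A sequence of pairs of points near a rough point gives a linear map with the chord relation. -/

namespace Vale.Agent.Lib.P084

open Set Metric Filter Topology Module MeasureTheory

lemma tendsto_clm_apply {α E F : Type*} [NormedAddCommGroup E] [NormedSpace ℝ E]
    [NormedAddCommGroup F] [NormedSpace ℝ F] {l : Filter α} {f : α → E →L[ℝ] F} {c : α → E}
    {f₀ : E →L[ℝ] F} {c₀ : E} (hf : Tendsto f l (𝓝 f₀)) (hc : Tendsto c l (𝓝 c₀)) :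
    Tendsto (fun k => f k (c k)) l (𝓝 (f₀ c₀)) :=
  ((isBoundedBilinearMap_apply (𝕜 := ℝ) (E := E) (F := F)).continuous.tendsto (f₀, c₀)).comp
    (hf.prodMk_nhds hc)

section Algebra

variable {X Y : Type*} [NormedAddCommGroup X] [NormedSpace ℝ X]
  [NormedAddCommGroup Y] [NormedSpace ℝ Y]

/-- The algebra of the chord identity at two points. -/
lemma chord_diff_bound {ξ₁ ξ₂ χ₁ χ₂ : X →L[ℝ] ℝ} {η₁ η₂ : Y →L[ℝ] ℝ} {A₁ A₂ : X →L[ℝ] Y}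
    {e₁ e₂ δ₁ δ₂ δ₃ : ℝ} (h1 : ∀ v, η₁ (A₁ v) = ξ₁ v + e₁ * χ₁ v) (h2 : ∀ v, η₂ (A₂ v) = ξ₂ v + e₂ * χ₂ v)
    (hξ : ‖ξ₁ - ξ₂‖ ≤ δ₁) (hη : ‖η₁ - η₂‖ ≤ δ₂) (he : |e₁ - e₂| ≤ δ₃) (hχ : ‖χ₂‖ ≤ 1) (hA : ‖A₂‖ ≤ 3)
    (v : X) : |η₁ ((A₁ - A₂) v) - e₁ * (χ₁ - χ₂) v| ≤ (δ₁ + δ₃ + 3 * δ₂) * ‖v‖ := by
  have e : η₁ ((A₁ - A₂) v) - e₁ * (χ₁ - χ₂) v =
      (ξ₁ - ξ₂) v + (e₁ - e₂) * χ₂ v - (η₁ - η₂) (A₂ v) := by
    change η₁ (A₁ v - A₂ v) - e₁ * (χ₁ v - χ₂ v) = ξ₁ v - ξ₂ v + (e₁ - e₂) * χ₂ v -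
      (η₁ (A₂ v) - η₂ (A₂ v))
    rw [map_sub, h1, h2]
    ring
  rw [e]
  have h3 : |(ξ₁ - ξ₂) v| ≤ δ₁ * ‖v‖ := by
    have := (ξ₁ - ξ₂).le_opNorm v
    rw [Real.norm_eq_abs] at this
    exact this.trans (mul_le_mul_of_nonneg_right hξ (norm_nonneg _))
  have h4 : |(e₁ - e₂) * χ₂ v| ≤ δ₃ * ‖v‖ := by
    rw [abs_mul]
    have h5 := χ₂.le_opNorm v
    rw [Real.norm_eq_abs] at h5
    have h6 : |χ₂ v| ≤ ‖v‖ := h5.trans (by nlinarith [norm_nonneg v])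
    exact mul_le_mul he h6 (abs_nonneg _) ((abs_nonneg _).trans he)
  have h7 : |(η₁ - η₂) (A₂ v)| ≤ 3 * δ₂ * ‖v‖ := by
    have h8 := (η₁ - η₂).le_opNorm (A₂ v)
    rw [Real.norm_eq_abs] at h8
    have h9 := A₂.le_opNorm v
    have h10 : ‖A₂ v‖ ≤ 3 * ‖v‖ := h9.trans (mul_le_mul_of_nonneg_right hA (norm_nonneg _))
    have h11 : 0 ≤ δ₂ := (norm_nonneg _).trans hη
    calc |(η₁ - η₂) (A₂ v)| ≤ ‖η₁ - η₂‖ * ‖A₂ v‖ := h8
      _ ≤ δ₂ * (3 * ‖v‖) := mul_le_mul hη h10 (norm_nonneg _) h11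
      _ = 3 * δ₂ * ‖v‖ := by ring
  have h12 := abs_sub (((ξ₁ - ξ₂) v + (e₁ - e₂) * χ₂ v)) ((η₁ - η₂) (A₂ v))
  have h13 := abs_add_le ((ξ₁ - ξ₂) v) ((e₁ - e₂) * χ₂ v)
  nlinarith

end Algebra

section Limit

variable {X Y : Type*} [NormedAddCommGroup X] [NormedSpace ℝ X]
  [NormedAddCommGroup Y] [NormedSpace ℝ Y] {g : X → Y} {h : Y → X}

/-- The data of a sequence of pairs of differentiability points whose gradients separate much faster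
than the points. -/
structure Jump (g : X → Y) (x₀ : X) (a b : ℕ → X) (A₁ A₂ : ℕ → X →L[ℝ] Y) (r : ℕ → ℝ) : Prop where
  unit_a : ∀ k, ‖a k‖ = 1
  unit_b : ∀ k, ‖b k‖ = 1
  dn_a : ∀ k, Dn (a k)
  dn_b : ∀ k, Dn (b k)
  deriv_a : ∀ k, HasFDerivAt (radial g) (A₁ k) (a k)
  deriv_b : ∀ k, HasFDerivAt (radial g) (A₂ k) (b k)
  r_pos : ∀ k, 0 < r k
  near_a : ∀ k, ‖a k - x₀‖ ≤ r k
  near_b : ∀ k, ‖b k - x₀‖ ≤ r k
  r_lim : Tendsto r atTop (𝓝 0)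
  jump : ∀ k : ℕ, ((k : ℝ) + 1) * r k ≤ ‖chi (a k) - chi (b k)‖

variable {x₀ : X} {a b : ℕ → X} {A₁ A₂ : ℕ → X →L[ℝ] Y} {r : ℕ → ℝ}

/-- The normalising factor. -/
noncomputable def jumpT (a b : ℕ → X) (A₁ A₂ : ℕ → X →L[ℝ] Y) (k : ℕ) : ℝ :=
  max ‖chi (a k) - chi (b k)‖ ‖A₁ k - A₂ k‖

lemma Jump.rho_pos (J : Jump g x₀ a b A₁ A₂ r) (k : ℕ) : 0 < ‖chi (a k) - chi (b k)‖ := by
  have h1 := J.jump k
  have h2 := J.r_pos k
  have h3 : 0 < ((k : ℝ) + 1) * r k := by positivity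
  linarith

lemma Jump.T_pos (J : Jump g x₀ a b A₁ A₂ r) (k : ℕ) : 0 < jumpT a b A₁ A₂ k :=
  lt_of_lt_of_le (J.rho_pos k) (le_max_left _ _)

lemma Jump.r_div (J : Jump g x₀ a b A₁ A₂ r) (k : ℕ) :
    (jumpT a b A₁ A₂ k)⁻¹ * r k ≤ 1 / ((k : ℝ) + 1) := by
  have h1 := J.T_pos k
  have h2 : ((k : ℝ) + 1) * r k ≤ jumpT a b A₁ A₂ k := (J.jump k).trans (le_max_left _ _)
  rw [inv_mul_le_iff₀ h1, mul_one_div, le_div_iff₀ (by positivity)]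
  linarith

/-- The chord data at a generic `y`. -/
structure ChordAt (g : X → Y) (x₀ : X) (a b : ℕ → X) (y : X) : Prop where
  unit : ‖y‖ = 1
  dn_x : Dn (x₀ - y)
  dn_y : Dn (g x₀ - g y)
  rate_x : Rate (x₀ - y)
  rate_y : Rate (g x₀ - g y)
  ev_a : ∀ᶠ k in atTop, Dn (a k - y) ∧ Dn (g (a k) - g y)
  ev_b : ∀ᶠ k in atTop, Dn (b k - y) ∧ Dn (g (b k) - g y)

lemma Jump.tendsto_a (J : Jump g x₀ a b A₁ A₂ r) : Tendsto a atTop (𝓝 x₀) := by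
  rw [tendsto_iff_norm_sub_tendsto_zero]
  exact squeeze_zero (fun _ => norm_nonneg _) J.near_a J.r_lim

lemma Jump.tendsto_ga (J : Jump g x₀ a b A₁ A₂ r) (H : SphereIso g h) (hx₀ : ‖x₀‖ = 1) :
    Tendsto (fun k => g (a k)) atTop (𝓝 (g x₀)) := by
  rw [tendsto_iff_norm_sub_tendsto_zero]
  refine squeeze_zero (fun _ => norm_nonneg _) (fun k => ?_) J.r_lim
  rw [H.iso _ _ (J.unit_a k) hx₀]
  exact J.near_a k

/-- A rate along a sequence. -/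
lemma rate_seq {E : Type*} [NormedAddCommGroup E] [NormedSpace ℝ E] {z : E} (hz : Rate z)
    {c : ℕ → E} {r : ℕ → ℝ} (hc : ∀ k, ‖c k - z‖ ≤ r k) (hr : Tendsto r atTop (𝓝 0))
    (hd : ∀ᶠ k in atTop, Dn (c k)) :
    ∃ C : ℝ, 0 ≤ C ∧ ∀ᶠ k in atTop, ‖chi (c k) - chi z‖ ≤ C * r k := by
  obtain ⟨C, r₀, hr₀, h⟩ := hz
  refine ⟨|C|, abs_nonneg _, ?_⟩
  have h1 : ∀ᶠ k in atTop, r k < r₀ := hr.eventually (gt_mem_nhds hr₀)
  filter_upwards [h1, hd] with k hk hdk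
  refine (h _ hdk ((hc k).trans_lt hk)).trans ?_
  have h2 : 0 ≤ r k := (norm_nonneg _).trans (hc k)
  calc C * ‖c k - z‖ ≤ |C| * ‖c k - z‖ := mul_le_mul_of_nonneg_right (le_abs_self C) (norm_nonneg _)
    _ ≤ |C| * r k := mul_le_mul_of_nonneg_left (hc k) (abs_nonneg _)

/-- Estimates along a generic chord. -/
lemma Jump.chord_rates (J : Jump g x₀ a b A₁ A₂ r) (H : SphereIso g h) (hx₀ : ‖x₀‖ = 1) {y : X}
    (hy : ChordAt g x₀ a b y) :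
    ∃ C : ℝ, 0 ≤ C ∧ ∀ᶠ k in atTop,
      ‖chi (a k - y) - chi (x₀ - y)‖ ≤ C * r k ∧ ‖chi (b k - y) - chi (x₀ - y)‖ ≤ C * r k ∧
      ‖chi (g (a k) - g y) - chi (g x₀ - g y)‖ ≤ C * r k ∧
      ‖chi (g (b k) - g y) - chi (g x₀ - g y)‖ ≤ C * r k := by
  have h1 : ∀ k, ‖(a k - y) - (x₀ - y)‖ ≤ r k := fun k => by
    rw [sub_sub_sub_cancel_right]
    exact J.near_a k
  have h2 : ∀ k, ‖(b k - y) - (x₀ - y)‖ ≤ r k := fun k => by
    rw [sub_sub_sub_cancel_right]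
    exact J.near_b k
  have h3 : ∀ k, ‖(g (a k) - g y) - (g x₀ - g y)‖ ≤ r k := fun k => by
    rw [sub_sub_sub_cancel_right, H.iso _ _ (J.unit_a k) hx₀]
    exact J.near_a k
  have h4 : ∀ k, ‖(g (b k) - g y) - (g x₀ - g y)‖ ≤ r k := fun k => by
    rw [sub_sub_sub_cancel_right, H.iso _ _ (J.unit_b k) hx₀]
    exact J.near_b k
  obtain ⟨C₁, hC₁, e1⟩ := rate_seq hy.rate_x h1 J.r_lim (hy.ev_a.mono fun k hk => hk.1)
  obtain ⟨C₂, hC₂, e2⟩ := rate_seq hy.rate_x h2 J.r_lim (hy.ev_b.mono fun k hk => hk.1)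
  obtain ⟨C₃, hC₃, e3⟩ := rate_seq hy.rate_y h3 J.r_lim (hy.ev_a.mono fun k hk => hk.2)
  obtain ⟨C₄, hC₄, e4⟩ := rate_seq hy.rate_y h4 J.r_lim (hy.ev_b.mono fun k hk => hk.2)
  refine ⟨C₁ + C₂ + C₃ + C₄, by positivity, ?_⟩
  filter_upwards [e1, e2, e3, e4] with k k1 k2 k3 k4
  have hr := J.r_pos k
  refine ⟨k1.trans ?_, k2.trans ?_, k3.trans ?_, k4.trans ?_⟩ <;>
    exact mul_le_mul_of_nonneg_right (by linarith) hr.le

lemma e_diff {X' Y' : Type*} [NormedAddCommGroup X'] [NormedSpace ℝ X'] [NormedAddCommGroup Y']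
    [NormedSpace ℝ Y'] {ξ₁ ξ₂ : X' →L[ℝ] ℝ} {η₁ η₂ : Y' →L[ℝ] ℝ} {p₁ p₂ : Y'} {a' b' : X'}
    (hη₂ : ‖η₂‖ ≤ 1) (hξ₂ : ‖ξ₂‖ ≤ 1) (hp : ‖p₁‖ = 1) (ha : ‖a'‖ = 1) :
    |(η₁ p₁ - ξ₁ a') - (η₂ p₂ - ξ₂ b')| ≤
      ‖ξ₁ - ξ₂‖ + ‖η₁ - η₂‖ + ‖p₁ - p₂‖ + ‖a' - b'‖ := by
  have e : (η₁ p₁ - ξ₁ a') - (η₂ p₂ - ξ₂ b') =
      (η₁ - η₂) p₁ + η₂ (p₁ - p₂) - ((ξ₁ - ξ₂) a' + ξ₂ (a' - b')) := by
    change (η₁ p₁ - ξ₁ a') - (η₂ p₂ - ξ₂ b') =
      (η₁ p₁ - η₂ p₁) + η₂ (p₁ - p₂) - ((ξ₁ a' - ξ₂ a') + ξ₂ (a' - b'))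
    rw [map_sub, map_sub]
    ring
  rw [e]
  have h1 : |(η₁ - η₂) p₁| ≤ ‖η₁ - η₂‖ := by
    have := (η₁ - η₂).le_opNorm p₁
    rwa [hp, mul_one, Real.norm_eq_abs] at this
  have h2 : |η₂ (p₁ - p₂)| ≤ ‖p₁ - p₂‖ := by
    have := η₂.le_opNorm (p₁ - p₂)
    rw [Real.norm_eq_abs] at this
    exact this.trans (by nlinarith [norm_nonneg (p₁ - p₂)])
  have h3 : |(ξ₁ - ξ₂) a'| ≤ ‖ξ₁ - ξ₂‖ := by
    have := (ξ₁ - ξ₂).le_opNorm a'
    rwa [ha, mul_one, Real.norm_eq_abs] at this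
  have h4 : |ξ₂ (a' - b')| ≤ ‖a' - b'‖ := by
    have := ξ₂.le_opNorm (a' - b')
    rw [Real.norm_eq_abs] at this
    exact this.trans (by nlinarith [norm_nonneg (a' - b')])
  rw [abs_le] at h1 h2 h3 h4 ⊢
  constructor <;> linarith [h1.1, h1.2, h2.1, h2.2, h3.1, h3.2, h4.1, h4.2]

/-- Limits along a subsequence: the first relation. -/
lemma Jump.limit_rel₁ (J : Jump g x₀ a b A₁ A₂ r) (H : SphereIso g h) (hx₀ : ‖x₀‖ = 1) {y : X}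
    (hy : ChordAt g x₀ a b y) {φ : ℕ → ℕ} (hφ : StrictMono φ) {A₀ : X →L[ℝ] Y} {χ₀ : X →L[ℝ] ℝ}
    (hA : Tendsto (fun k => A₁ (φ k)) atTop (𝓝 A₀))
    (hχ : Tendsto (fun k => chi (a (φ k))) atTop (𝓝 χ₀)) (v : X) :
    chi (g x₀ - g y) (A₀ v) =
      chi (x₀ - y) v + (chi (g x₀ - g y) (g x₀) - chi (x₀ - y) x₀) * χ₀ v := by
  obtain ⟨C, hC, hev⟩ := J.chord_rates H hx₀ hy
  have hr0 : Tendsto (fun k => C * r k) atTop (𝓝 0) := by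
    simpa using J.r_lim.const_mul C
  have hξ₁ : Tendsto (fun k => chi (a k - y)) atTop (𝓝 (chi (x₀ - y))) := by
    rw [tendsto_iff_norm_sub_tendsto_zero]
    exact squeeze_zero' (Eventually.of_forall fun _ => norm_nonneg _)
      (hev.mono fun k hk => hk.1) hr0
  have hη₁ : Tendsto (fun k => chi (g (a k) - g y)) atTop (𝓝 (chi (g x₀ - g y))) := by
    rw [tendsto_iff_norm_sub_tendsto_zero]
    exact squeeze_zero' (Eventually.of_forall fun _ => norm_nonneg _)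
      (hev.mono fun k hk => hk.2.2.1) hr0
  have hφt := hφ.tendsto_atTop
  have he : Tendsto (fun k => chi (g (a (φ k)) - g y) (g (a (φ k))) - chi (a (φ k) - y) (a (φ k)))
      atTop (𝓝 (chi (g x₀ - g y) (g x₀) - chi (x₀ - y) x₀)) :=
    (tendsto_clm_apply (hη₁.comp hφt) ((J.tendsto_ga H hx₀).comp hφt)).sub
      (tendsto_clm_apply (hξ₁.comp hφt) (J.tendsto_a.comp hφt))
  have hL : Tendsto (fun k => chi (g (a (φ k)) - g y) (A₁ (φ k) v)) atTop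
      (𝓝 (chi (g x₀ - g y) (A₀ v))) :=
    tendsto_clm_apply (hη₁.comp hφt) (tendsto_clm_apply hA tendsto_const_nhds)
  have hRR : Tendsto (fun k => chi (a (φ k) - y) v +
      (chi (g (a (φ k)) - g y) (g (a (φ k))) - chi (a (φ k) - y) (a (φ k))) * chi (a (φ k)) v) atTop
      (𝓝 (chi (x₀ - y) v + (chi (g x₀ - g y) (g x₀) - chi (x₀ - y) x₀) * χ₀ v)) :=
    (tendsto_clm_apply (hξ₁.comp hφt) tendsto_const_nhds).add
      (he.mul (tendsto_clm_apply hχ tendsto_const_nhds))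
  refine tendsto_nhds_unique (hL.congr' ?_) hRR
  filter_upwards [hφt.eventually hy.ev_a] with k hk
  exact chord_full H (J.unit_a _) hy.unit (J.dn_a _) (J.deriv_a _) hk.1 hk.2 v

/-- Limits along a subsequence: the second relation. -/
lemma Jump.limit_rel₂ (J : Jump g x₀ a b A₁ A₂ r) (H : SphereIso g h) (hx₀ : ‖x₀‖ = 1) {y : X}
    (hy : ChordAt g x₀ a b y) {φ : ℕ → ℕ} (hφ : StrictMono φ) {R : X →L[ℝ] Y} {ν : X →L[ℝ] ℝ}
    (hR : Tendsto (fun k => (jumpT a b A₁ A₂ (φ k))⁻¹ • (A₁ (φ k) - A₂ (φ k))) atTop (𝓝 R))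
    (hν : Tendsto (fun k => (jumpT a b A₁ A₂ (φ k))⁻¹ • (chi (a (φ k)) - chi (b (φ k)))) atTop (𝓝 ν))
    (v : X) :
    chi (g x₀ - g y) (R v) = (chi (g x₀ - g y) (g x₀) - chi (x₀ - y) x₀) * ν v := by
  obtain ⟨C, hC, hev⟩ := J.chord_rates H hx₀ hy
  have hr0 : Tendsto (fun k => C * r k) atTop (𝓝 0) := by
    simpa using J.r_lim.const_mul C
  have hξ₁ : Tendsto (fun k => chi (a k - y)) atTop (𝓝 (chi (x₀ - y))) := by
    rw [tendsto_iff_norm_sub_tendsto_zero]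
    exact squeeze_zero' (Eventually.of_forall fun _ => norm_nonneg _)
      (hev.mono fun k hk => hk.1) hr0
  have hη₁ : Tendsto (fun k => chi (g (a k) - g y)) atTop (𝓝 (chi (g x₀ - g y))) := by
    rw [tendsto_iff_norm_sub_tendsto_zero]
    exact squeeze_zero' (Eventually.of_forall fun _ => norm_nonneg _)
      (hev.mono fun k hk => hk.2.2.1) hr0
  have hφt := hφ.tendsto_atTop
  have he : Tendsto (fun k => chi (g (a (φ k)) - g y) (g (a (φ k))) - chi (a (φ k) - y) (a (φ k)))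
      atTop (𝓝 (chi (g x₀ - g y) (g x₀) - chi (x₀ - y) x₀)) :=
    (tendsto_clm_apply (hη₁.comp hφt) ((J.tendsto_ga H hx₀).comp hφt)).sub
      (tendsto_clm_apply (hξ₁.comp hφt) (J.tendsto_a.comp hφt))
  have hL : Tendsto (fun k => chi (g (a (φ k)) - g y)
      ((jumpT a b A₁ A₂ (φ k))⁻¹ • (A₁ (φ k) - A₂ (φ k)) v) -
      (chi (g (a (φ k)) - g y) (g (a (φ k))) - chi (a (φ k) - y) (a (φ k))) *
        ((jumpT a b A₁ A₂ (φ k))⁻¹ • (chi (a (φ k)) - chi (b (φ k)))) v) atTop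
      (𝓝 (chi (g x₀ - g y) (R v) - (chi (g x₀ - g y) (g x₀) - chi (x₀ - y) x₀) * ν v)) :=
    (tendsto_clm_apply (hη₁.comp hφt) (tendsto_clm_apply hR tendsto_const_nhds)).sub
      (he.mul (tendsto_clm_apply hν tendsto_const_nhds))
  have hK : Tendsto (fun k => (12 * C + 4) * ‖v‖ * (1 / (((φ k : ℕ) : ℝ) + 1))) atTop (𝓝 0) := by
    have h1 := tendsto_one_div_add_atTop_nhds_zero_nat (𝕜 := ℝ)
    simpa using (h1.comp hφt).const_mul ((12 * C + 4) * ‖v‖)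
  have hzero : Tendsto (fun k => chi (g (a (φ k)) - g y)
      ((jumpT a b A₁ A₂ (φ k))⁻¹ • (A₁ (φ k) - A₂ (φ k)) v) -
      (chi (g (a (φ k)) - g y) (g (a (φ k))) - chi (a (φ k) - y) (a (φ k))) *
        ((jumpT a b A₁ A₂ (φ k))⁻¹ • (chi (a (φ k)) - chi (b (φ k)))) v) atTop (𝓝 0) := by
    refine squeeze_zero_norm' ?_ hK
    filter_upwards [hφt.eventually hev, hφt.eventually hy.ev_a, hφt.eventually hy.ev_b]
      with k hk hka hkb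
    obtain ⟨i, hi⟩ : ∃ i, i = φ k := ⟨_, rfl⟩
    rw [← hi] at hk hka hkb ⊢
    obtain ⟨k1, k2, k3, k4⟩ := hk
    have hTi := J.T_pos i
    have hri := J.r_pos i
    have hA₂ : ‖A₂ i‖ ≤ 3 := by
      have := (J.deriv_b i).le_of_lipschitz (radial_lipschitz H)
      simpa using this
    have hξd : ‖chi (a i - y) - chi (b i - y)‖ ≤ 2 * C * r i := by
      have e : chi (a i - y) - chi (b i - y) =
          (chi (a i - y) - chi (x₀ - y)) - (chi (b i - y) - chi (x₀ - y)) := by abel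
      rw [e]
      refine (norm_sub_le _ _).trans ?_
      linarith
    have hηd : ‖chi (g (a i) - g y) - chi (g (b i) - g y)‖ ≤ 2 * C * r i := by
      have e : chi (g (a i) - g y) - chi (g (b i) - g y) =
          (chi (g (a i) - g y) - chi (g x₀ - g y)) - (chi (g (b i) - g y) - chi (g x₀ - g y)) := by
        abel
      rw [e]
      refine (norm_sub_le _ _).trans ?_
      linarith
    have hab : ‖a i - b i‖ ≤ 2 * r i := by
      have e : a i - b i = (a i - x₀) - (b i - x₀) := by abel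
      rw [e]
      refine (norm_sub_le _ _).trans ?_
      linarith [J.near_a i, J.near_b i]
    have hgab : ‖g (a i) - g (b i)‖ ≤ 2 * r i := by
      rw [H.iso _ _ (J.unit_a i) (J.unit_b i)]
      exact hab
    have hed := e_diff (ξ₁ := chi (a i - y)) (ξ₂ := chi (b i - y)) (η₁ := chi (g (a i) - g y))
      (η₂ := chi (g (b i) - g y)) (p₁ := g (a i)) (p₂ := g (b i)) (a' := a i) (b' := b i)
      (chi_norm_le _) (chi_norm_le _) (H.map_g _ (J.unit_a i)) (J.unit_a i)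
    have hed' : |(chi (g (a i) - g y) (g (a i)) - chi (a i - y) (a i)) -
        (chi (g (b i) - g y) (g (b i)) - chi (b i - y) (b i))| ≤ (4 * C + 4) * r i := by
      refine hed.trans ?_
      linarith
    have h1 := chord_diff_bound (ξ₁ := chi (a i - y)) (ξ₂ := chi (b i - y))
      (χ₁ := chi (a i)) (χ₂ := chi (b i)) (η₁ := chi (g (a i) - g y)) (η₂ := chi (g (b i) - g y))
      (A₁ := A₁ i) (A₂ := A₂ i)
      (chord_full H (J.unit_a i) hy.unit (J.dn_a i) (J.deriv_a i) hka.1 hka.2)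
      (chord_full H (J.unit_b i) hy.unit (J.dn_b i) (J.deriv_b i) hkb.1 hkb.2)
      hξd hηd hed' (chi_norm_le _) hA₂ v
    have e6 : chi (g (a i) - g y) ((jumpT a b A₁ A₂ i)⁻¹ • (A₁ i - A₂ i) v) -
        (chi (g (a i) - g y) (g (a i)) - chi (a i - y) (a i)) *
          ((jumpT a b A₁ A₂ i)⁻¹ • (chi (a i) - chi (b i))) v =
        (jumpT a b A₁ A₂ i)⁻¹ * (chi (g (a i) - g y) ((A₁ i - A₂ i) v) -
          (chi (g (a i) - g y) (g (a i)) - chi (a i - y) (a i)) * (chi (a i) - chi (b i)) v) := by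
      rw [map_smul, _root_.smul_apply, smul_eq_mul, smul_eq_mul]
      ring
    rw [e6, Real.norm_eq_abs, abs_mul, abs_of_pos (inv_pos.2 hTi)]
    have h7 : 2 * C * r i + (4 * C + 4) * r i + 3 * (2 * C * r i) = (12 * C + 4) * r i := by ring
    rw [h7] at h1
    have h8 := J.r_div i
    have hK0 : 0 ≤ (12 * C + 4) * ‖v‖ := by positivity
    calc (jumpT a b A₁ A₂ i)⁻¹ * _ ≤ (jumpT a b A₁ A₂ i)⁻¹ * ((12 * C + 4) * r i * ‖v‖) :=
          mul_le_mul_of_nonneg_left h1 (inv_pos.2 hTi).le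
      _ = (12 * C + 4) * ‖v‖ * ((jumpT a b A₁ A₂ i)⁻¹ * r i) := by ring
      _ ≤ (12 * C + 4) * ‖v‖ * (1 / ((i : ℝ) + 1)) := mul_le_mul_of_nonneg_left h8 hK0
  have h9 := tendsto_nhds_unique hL hzero
  linarith

end Limit

end Vale.Agent.Lib.P084
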