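import Mathlib
import Vale.Agent.Lib.P084.Corner.Limit

/-! The main theorem on rough points. -/

namespace Vale.Agent.Lib.P084

open Set Metric Filter Topology Module MeasureTheory

section Main

variable {X Y : Type*} [NormedAddCommGroup X] [NormedSpace ℝ X]
  [NormedAddCommGroup Y] [NormedSpace ℝ Y] {g : X → Y} {h : Y → X}

lemma finrank_le_of_sphereIso [FiniteDimensional ℝ X] [FiniteDimensional ℝ Y] (H : SphereIso g h) :
    finrank ℝ Y ≤ finrank ℝ X := by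
  have h1 : range (radial g) = univ := by
    refine eq_univ_of_forall fun w => ⟨radial h w, radial_symm H.symm w⟩
  have h2 := (radial_lipschitz H).dimH_range_le
  rw [h1, Real.dimH_univ_eq_finrank, Real.dimH_univ_eq_finrank] at h2
  exact_mod_cast h2

lemma finrank_eq_of_sphereIso [FiniteDimensional ℝ X] [FiniteDimensional ℝ Y] (H : SphereIso g h) :
    finrank ℝ X = finrank ℝ Y :=
  le_antisymm (finrank_le_of_sphereIso H.symm) (finrank_le_of_sphereIso H)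

variable [FiniteDimensional ℝ X] [MeasurableSpace X] [BorelSpace X]
  [FiniteDimensional ℝ Y] [MeasurableSpace Y] [BorelSpace Y]

omit [FiniteDimensional ℝ Y] [MeasurableSpace Y] [BorelSpace Y] in
/-- The bad set for the rate is null. -/
lemma null_badRate : μH[(finrank ℝ X : ℝ)] {z : X | ¬(Dn z ∧ Rate z)} = 0 :=
  ae_iff.1 ae_rate

/-- A good point for a sphere isometry. -/
def GoodT (g : X → Y) (z : X) : Prop := Dn z ∧ DifferentiableAt ℝ (radial g) z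

lemma GoodT.smul {z : X} (hz : GoodT g z) {t : ℝ} (ht : 0 < t) : GoodT g (t • z) :=
  ⟨hz.1.smul ht, (radial_hasFDerivAt_smul hz.2.hasFDerivAt ht).differentiableAt⟩

lemma null_badT (H : SphereIso g h) : μH[(finrank ℝ X : ℝ)] {z : X | ¬GoodT g z} = 0 := by
  have h1 : ∀ᵐ z ∂(μH[(finrank ℝ X : ℝ)] : Measure X), DifferentiableAt ℝ (fun w : X => ‖w‖) z :=
    lipschitzWith_one_norm.ae_differentiableAt
  have h2 : ∀ᵐ z ∂(μH[(finrank ℝ X : ℝ)] : Measure X), DifferentiableAt ℝ (radial g) z :=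
    (radial_lipschitz H).ae_differentiableAt
  have h3 : ∀ᵐ z ∂(μH[(finrank ℝ X : ℝ)] : Measure X), GoodT g z := by
    filter_upwards [h1, h2] with z a1 a2
    exact ⟨a1, a2⟩
  exact ae_iff.1 h3

/-- A differentiability point near a unit vector can be moved to a good unit vector with nearby
gradient. -/
lemma perturb_good (H : SphereIso g h) {x₀ c : X} (hx₀ : ‖x₀‖ = 1) (hc : Dn c) {r : ℝ} (hr : 0 < r)
    (hr1 : r ≤ 1 / 5) (hcr : ‖c - x₀‖ < r) {ε : ℝ} (hε : 0 < ε) :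
    ∃ a, ‖a‖ = 1 ∧ GoodT g a ∧ ‖a - x₀‖ ≤ 5 * r ∧ ‖chi a - chi c‖ ≤ ε := by
  have h1 : 4 / 5 ≤ ‖c‖ := by
    have := norm_sub_le c (c - x₀)
    rw [sub_sub_cancel, hx₀] at this
    linarith
  have hcn : 0 < ‖c‖ := by linarith
  have hc0 : c ≠ 0 := norm_pos_iff.1 hcn
  have hi : 0 < ‖c‖⁻¹ := inv_pos.2 hcn
  obtain ⟨c', hc'⟩ : ∃ c', c' = ‖c‖⁻¹ • c := ⟨_, rfl⟩
  have hc'1 : ‖c'‖ = 1 := by rw [hc']; exact unit_of_ne hc0
  have hc'd : Dn c' := by rw [hc']; exact hc.smul hi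
  have hc'χ : chi c' = chi c := by rw [hc']; exact chi_smul hi c
  have hc'x : ‖c' - x₀‖ ≤ 4 * r := by
    have h2 := normalize_dist (v₀ := x₀) hc0
    rw [hx₀, inv_one, one_smul, ← hc'] at h2
    refine h2.trans ?_
    rw [div_le_iff₀ hcn]
    nlinarith
  obtain ⟨r₁, hr₁, hclose⟩ := chi_close hc'd hε
  obtain ⟨a, ha1, haB, had⟩ := dense_unit_of_null (null_badT H)
    (fun z hz t ht hbad => hbad (GoodT.smul (not_not.1 hz) ht))
    hc'1 (lt_min hr₁ hr)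
  have ha2 : GoodT g a := not_not.1 haB
  refine ⟨a, ha1, ha2, ?_, ?_⟩
  · have e : a - x₀ = (a - c') + (c' - x₀) := by abel
    rw [e]
    refine (norm_add_le _ _).trans ?_
    have := had.trans_le (min_le_right _ _)
    linarith
  · rw [← hc'χ]
    exact (hclose a ha2.1 (had.trans_le (min_le_left _ _))).le

/-- One step of the construction of the sequence of pairs of points. -/
lemma jump_step (H : SphereIso g h) {x₀ : X} (hx₀ : ‖x₀‖ = 1) (hR : Rough x₀) (k : ℕ) :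
    ∃ (a b : X) (A₁ A₂ : X →L[ℝ] Y) (r : ℝ), ‖a‖ = 1 ∧ ‖b‖ = 1 ∧ Dn a ∧ Dn b ∧
      HasFDerivAt (radial g) A₁ a ∧ HasFDerivAt (radial g) A₂ b ∧ 0 < r ∧
      r ≤ 1 / ((k : ℝ) + 1) ∧ ‖a - x₀‖ ≤ r ∧ ‖b - x₀‖ ≤ r ∧
      ((k : ℝ) + 1) * r ≤ ‖chi a - chi b‖ := by
  have hk : (0 : ℝ) < (k : ℝ) + 1 := by positivity
  obtain ⟨r, hr, hr1, a', b', ha', hb', hax, hbx, hjump⟩ :=
    hR (10 * ((k : ℝ) + 1)) (by positivity) (1 / (5 * ((k : ℝ) + 1))) (by positivity)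
  have hr5 : r ≤ 1 / 5 := by
    refine hr1.le.trans ?_
    rw [div_le_div_iff₀ (by positivity) (by norm_num)]
    have : (0 : ℝ) ≤ k := by positivity
    linarith
  have hε : 0 < 10 * ((k : ℝ) + 1) * r / 4 := by positivity
  obtain ⟨a, ha1, hag, hax', haχ⟩ := perturb_good H hx₀ ha' hr hr5 hax hε
  obtain ⟨b, hb1, hbg, hbx', hbχ⟩ := perturb_good H hx₀ hb' hr hr5 hbx hε
  refine ⟨a, b, fderiv ℝ (radial g) a, fderiv ℝ (radial g) b, 5 * r, ha1, hb1, hag.1, hbg.1,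
    hag.2.hasFDerivAt, hbg.2.hasFDerivAt, by positivity, ?_, hax', hbx', ?_⟩
  · have := hr1.le
    rw [le_div_iff₀ (by positivity)] at this ⊢
    linarith
  · have e : chi a' - chi b' = (chi a' - chi a) + (chi a - chi b) + (chi b - chi b') := by abel
    have h1 : ‖chi a' - chi b'‖ ≤ ‖chi a' - chi a‖ + ‖chi a - chi b‖ + ‖chi b - chi b'‖ := by
      rw [e]
      exact (norm_add_le _ _).trans (add_le_add_left (norm_add_le _ _) _)
    rw [norm_sub_rev (chi a') (chi a)] at h1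
    linarith

/-- The sequence of pairs of points near a rough point. -/
theorem exists_jump (H : SphereIso g h) {x₀ : X} (hx₀ : ‖x₀‖ = 1) (hR : Rough x₀) :
    ∃ (a b : ℕ → X) (A₁ A₂ : ℕ → X →L[ℝ] Y) (r : ℕ → ℝ), Jump g x₀ a b A₁ A₂ r := by
  choose a b A₁ A₂ r h1 h2 h3 h4 h5 h6 h7 h8 h9 h10 h11 using jump_step H hx₀ hR
  refine ⟨a, b, A₁, A₂, r, h1, h2, h3, h4, h5, h6, h7, h9, h10, ?_, h11⟩
  exact squeeze_zero (fun k => (h7 k).le) h8 tendsto_one_div_add_atTop_nhds_zero_nat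

/-- The family of base points. -/
def jumpFam (x₀ : X) (a b : ℕ → X) : Option (Bool × ℕ) → X
  | none => x₀
  | some (true, k) => a k
  | some (false, k) => b k

variable [Nontrivial X]

/-- The set of generic unit vectors. -/
def jumpGen (g : X → Y) (x₀ : X) (a b : ℕ → X) : Set X :=
  {y | GenericChord g (jumpFam x₀ a b) {z : X | ¬(Dn z ∧ Rate z)} {z : Y | ¬(Dn z ∧ Rate z)} y}

omit [Nontrivial X] in
lemma jumpGen_chordAt {x₀ : X} {a b : ℕ → X} {A₁ A₂ : ℕ → X →L[ℝ] Y} {r : ℕ → ℝ}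
    (J : Jump g x₀ a b A₁ A₂ r) {y : X} (hy : y ∈ jumpGen g x₀ a b) (hq : ‖x₀ + y‖ < 2) :
    ChordAt g x₀ a b y := by
  obtain ⟨hy1, hyg⟩ := hy
  obtain ⟨h1, h2⟩ := hyg none hq
  have h1' : Dn (x₀ - y) ∧ Rate (x₀ - y) := not_not.1 h1
  have h2' : Dn (g x₀ - g y) ∧ Rate (g x₀ - g y) := not_not.1 h2
  have hev : ∀ {c : ℕ → X}, Tendsto c atTop (𝓝 x₀) → ∀ᶠ k in atTop, ‖c k + y‖ < 2 := by
    intro c hc
    have h3 : Tendsto (fun k => ‖c k + y‖) atTop (𝓝 ‖x₀ + y‖) := (hc.add_const y).norm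
    exact h3.eventually (gt_mem_nhds hq)
  have hb : Tendsto b atTop (𝓝 x₀) := by
    rw [tendsto_iff_norm_sub_tendsto_zero]
    exact squeeze_zero (fun _ => norm_nonneg _) J.near_b J.r_lim
  refine ⟨hy1, h1'.1, h2'.1, h1'.2, h2'.2, ?_, ?_⟩
  · filter_upwards [hev J.tendsto_a] with k hk
    obtain ⟨h3, h4⟩ := hyg (some (true, k)) hk
    exact ⟨(not_not.1 h3).1, (not_not.1 h4).1⟩
  · filter_upwards [hev hb] with k hk
    obtain ⟨h3, h4⟩ := hyg (some (false, k)) hk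
    exact ⟨(not_not.1 h3).1, (not_not.1 h4).1⟩

lemma jumpGen_dense (H : SphereIso g h) {x₀ : X} (hx₀ : ‖x₀‖ = 1) {a b : ℕ → X}
    (ha : ∀ k, ‖a k‖ = 1) (hb : ∀ k, ‖b k‖ = 1) (y₀ : X) (hy₀ : ‖y₀‖ = 1) (ε : ℝ) (hε : ε > 0) :
    ∃ y ∈ jumpGen g x₀ a b, ‖y - y₀‖ < ε := by
  have hC : ∀ k, ‖jumpFam x₀ a b k‖ = 1 := by
    rintro (_ | ⟨_ | _, k⟩)
    · exact hx₀
    · exact hb k
    · exact ha k
  exact generic_dense H (finrank_eq_of_sphereIso H) hC null_badRate null_badRate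
    (fun z hz t ht => badRate_cone hz ht) (fun z hz t ht => badRate_cone hz ht) hy₀ hε

lemma jumpGen_sep_Y (H : SphereIso g h) (hodd : ∀ x : X, ‖x‖ = 1 → g (-x) = -g x) {x₀ : X}
    (hx₀ : ‖x₀‖ = 1) {a b : ℕ → X} (ha : ∀ k, ‖a k‖ = 1) (hb : ∀ k, ‖b k‖ = 1)
    (hc : ∀ y ∈ jumpGen g x₀ a b, ‖x₀ + y‖ < 2 → Dn (g x₀ - g y)) {v : Y}
    (hv : ∀ y ∈ jumpGen g x₀ a b, ‖x₀ + y‖ < 2 → chi (g x₀ - g y) v = 0) : v = 0 := by
  refine sep_of_dense (W := g '' jumpGen g x₀ a b) (H.map_g _ hx₀) ?_ ?_ ?_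
  · intro q₀ hq₀ ε hε
    obtain ⟨y, hy, hyd⟩ := jumpGen_dense H hx₀ ha hb (h q₀) (H.map_h _ hq₀) ε hε
    refine ⟨g y, ⟨y, hy, rfl⟩, ?_⟩
    have h1 := H.iso y (h q₀) hy.1 (H.map_h _ hq₀)
    rw [H.right _ hq₀] at h1
    rwa [h1]
  · rintro _ ⟨y, hy, rfl⟩ hq
    rw [add_iso H hodd hx₀ hy.1] at hq
    exact hc y hy hq
  · rintro _ ⟨y, hy, rfl⟩ hq
    rw [add_iso H hodd hx₀ hy.1] at hq
    exact hv y hy hq

/-- The subsequence limit of a jump sequence. -/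
lemma Jump.exists_limit {x₀ : X} {a b : ℕ → X} {A₁ A₂ : ℕ → X →L[ℝ] Y} {r : ℕ → ℝ}
    (J : Jump g x₀ a b A₁ A₂ r) (H : SphereIso g h) :
    ∃ (φ : ℕ → ℕ) (A₀ R : X →L[ℝ] Y) (χ₀ ν : X →L[ℝ] ℝ), StrictMono φ ∧
      Tendsto (fun k => A₁ (φ k)) atTop (𝓝 A₀) ∧ Tendsto (fun k => chi (a (φ k))) atTop (𝓝 χ₀) ∧
      Tendsto (fun k => (jumpT a b A₁ A₂ (φ k))⁻¹ • (A₁ (φ k) - A₂ (φ k))) atTop (𝓝 R) ∧
      Tendsto (fun k => (jumpT a b A₁ A₂ (φ k))⁻¹ • (chi (a (φ k)) - chi (b (φ k)))) atTop (𝓝 ν) ∧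
      max ‖R‖ ‖ν‖ = 1 := by
  obtain ⟨F, hF⟩ : ∃ F : ℕ → (X →L[ℝ] Y) × (X →L[ℝ] ℝ) × (X →L[ℝ] Y) × (X →L[ℝ] ℝ),
      F = fun k => (A₁ k, chi (a k), (jumpT a b A₁ A₂ k)⁻¹ • (A₁ k - A₂ k),
        (jumpT a b A₁ A₂ k)⁻¹ • (chi (a k) - chi (b k))) := ⟨_, rfl⟩
  have hmax : ∀ k, max ‖(jumpT a b A₁ A₂ k)⁻¹ • (A₁ k - A₂ k)‖
      ‖(jumpT a b A₁ A₂ k)⁻¹ • (chi (a k) - chi (b k))‖ = 1 := by
    intro k
    have hT := J.T_pos k
    rw [norm_smul, norm_smul, norm_inv, Real.norm_of_nonneg hT.le, ← mul_max_of_nonneg _ _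
      (inv_pos.2 hT).le, max_comm]
    change (jumpT a b A₁ A₂ k)⁻¹ * jumpT a b A₁ A₂ k = 1
    exact inv_mul_cancel₀ hT.ne'
  have hbd : ∀ k, F k ∈ closedBall (0 : (X →L[ℝ] Y) × (X →L[ℝ] ℝ) × (X →L[ℝ] Y) × (X →L[ℝ] ℝ)) 3 := by
    intro k
    have hA : ‖A₁ k‖ ≤ 3 := by
      have := (J.deriv_a k).le_of_lipschitz (radial_lipschitz H)
      simpa using this
    have h1 := chi_norm_le (a k)
    have h2 := hmax k
    have h3 := le_max_left ‖(jumpT a b A₁ A₂ k)⁻¹ • (A₁ k - A₂ k)‖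
      ‖(jumpT a b A₁ A₂ k)⁻¹ • (chi (a k) - chi (b k))‖
    have h4 := le_max_right ‖(jumpT a b A₁ A₂ k)⁻¹ • (A₁ k - A₂ k)‖
      ‖(jumpT a b A₁ A₂ k)⁻¹ • (chi (a k) - chi (b k))‖
    rw [h2] at h3 h4
    rw [mem_closedBall_zero_iff, hF, Prod.norm_def, Prod.norm_def, Prod.norm_def]
    refine max_le hA (max_le ?_ (max_le ?_ ?_)) <;> simp only <;> linarith
  obtain ⟨p, -, φ, hφ, hlim⟩ := tendsto_subseq_of_bounded isBounded_closedBall hbd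
  obtain ⟨A₀, χ₀, R, ν⟩ := p
  have h1 : Tendsto (fun k => A₁ (φ k)) atTop (𝓝 A₀) := by
    have := (continuous_fst.tendsto _).comp hlim
    simpa [hF, Function.comp_def] using this
  have h2' : Tendsto (fun k => (F (φ k)).2) atTop (𝓝 (χ₀, R, ν)) :=
    (continuous_snd.tendsto _).comp hlim
  have h2 : Tendsto (fun k => chi (a (φ k))) atTop (𝓝 χ₀) := by
    have := (continuous_fst.tendsto _).comp h2'
    simpa [hF, Function.comp_def] using this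
  have h3' : Tendsto (fun k => (F (φ k)).2.2) atTop (𝓝 (R, ν)) :=
    (continuous_snd.tendsto _).comp h2'
  have h3 : Tendsto (fun k => (jumpT a b A₁ A₂ (φ k))⁻¹ • (A₁ (φ k) - A₂ (φ k))) atTop (𝓝 R) := by
    have := (continuous_fst.tendsto _).comp h3'
    simpa [hF, Function.comp_def] using this
  have h4 : Tendsto (fun k => (jumpT a b A₁ A₂ (φ k))⁻¹ • (chi (a (φ k)) - chi (b (φ k)))) atTop
      (𝓝 ν) := by
    have := (continuous_snd.tendsto _).comp h3'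
    simpa [hF, Function.comp_def] using this
  refine ⟨φ, A₀, R, χ₀, ν, hφ, h1, h2, h3, h4, ?_⟩
  have h5 := h3.norm.max h4.norm
  refine tendsto_nhds_unique h5 ?_
  simp only [hmax]
  exact tendsto_const_nhds

/-- The chord relation at a rough point. -/
theorem exists_star_of_jump (H : SphereIso g h) (hodd : ∀ x : X, ‖x‖ = 1 → g (-x) = -g x) {x₀ : X}
    (hx₀ : ‖x₀‖ = 1) {a b : ℕ → X} {A₁ A₂ : ℕ → X →L[ℝ] Y} {r : ℕ → ℝ}
    (J : Jump g x₀ a b A₁ A₂ r) : ∃ L : X →L[ℝ] Y, Star g x₀ (jumpGen g x₀ a b) L := by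
  obtain ⟨φ, A₀, R, χ₀, ν, hφ, hA, hχ, hR, hν, hmax⟩ := J.exists_limit H
  have hchord : ∀ y ∈ jumpGen g x₀ a b, ‖x₀ + y‖ < 2 → ChordAt g x₀ a b y :=
    fun y hy hq => jumpGen_chordAt J hy hq
  have h1 : ∀ y ∈ jumpGen g x₀ a b, ‖x₀ + y‖ < 2 → ∀ v, chi (g x₀ - g y) (A₀ v) =
      chi (x₀ - y) v + (chi (g x₀ - g y) (g x₀) - chi (x₀ - y) x₀) * χ₀ v :=
    fun y hy hq v => J.limit_rel₁ H hx₀ (hchord y hy hq) hφ hA hχ v
  have h2 : ∀ y ∈ jumpGen g x₀ a b, ‖x₀ + y‖ < 2 → ∀ v, chi (g x₀ - g y) (R v) =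
      (chi (g x₀ - g y) (g x₀) - chi (x₀ - y) x₀) * ν v :=
    fun y hy hq v => J.limit_rel₂ H hx₀ (hchord y hy hq) hφ hR hν v
  have hν0 : ν ≠ 0 := by
    intro h0
    have hR0 : R = 0 := by
      ext v
      refine jumpGen_sep_Y H hodd hx₀ J.unit_a J.unit_b
        (fun y hy hq => (hchord y hy hq).dn_y) fun y hy hq => ?_
      rw [h2 y hy hq, h0]
      simp
    rw [hR0, h0] at hmax
    simp at hmax
  obtain ⟨w, hw⟩ : ∃ w, ν w = 1 := by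
    obtain ⟨w₁, hw₁⟩ : ∃ w₁, ν w₁ ≠ 0 := by
      by_contra hc
      push Not at hc
      exact hν0 (ContinuousLinearMap.ext hc)
    refine ⟨(ν w₁)⁻¹ • w₁, ?_⟩
    rw [map_smul, smul_eq_mul, inv_mul_cancel₀ hw₁]
  refine ⟨A₀ - χ₀.smulRight (R w), fun y hy => hy.1, jumpGen_dense H hx₀ J.unit_a J.unit_b,
    fun y hy hq => (hchord y hy hq).dn_x, fun y hy hq => (hchord y hy hq).dn_y,
    fun y hy hq u => ?_⟩
  have h3 := h2 y hy hq w
  rw [hw, mul_one] at h3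
  change chi (g x₀ - g y) (A₀ u - χ₀ u • R w) = _
  rw [map_sub, map_smul, h1 y hy hq u, h3, smul_eq_mul]
  ring

/-- **Rough point theorem** in terms of the functions on the ambient spaces. -/
theorem extends_of_rough (H : SphereIso g h) (hGood : Dense {z : X | GoodDir z}) {x₀ : X}
    (hx₀ : ‖x₀‖ = 1) (hR : Rough x₀) : ∃ T : X ≃ₗᵢ[ℝ] Y, ∀ x, ‖x‖ = 1 → T x = g x := by
  have hodd : ∀ x : X, ‖x‖ = 1 → g (-x) = -g x := fun x hx => sphere_odd H hx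
  obtain ⟨a, b, A₁, A₂, r, J⟩ := exists_jump H hx₀ hR
  obtain ⟨L, S⟩ := exists_star_of_jump H hodd hx₀ J
  have hinj := S.injective hx₀
  obtain ⟨E, hE⟩ : ∃ E : X ≃L[ℝ] Y, (E : X →L[ℝ] Y) = L := by
    refine ⟨(LinearMap.linearEquivOfInjective (L : X →ₗ[ℝ] Y) hinj
      (finrank_eq_of_sphereIso H)).toContinuousLinearEquiv, ?_⟩
    ext u
    rfl
  rw [← hE] at S
  have h1 := S.eq_on_sphere H hodd hx₀ hGood
  exact exists_linearIsometryEquiv_of_agree H (E : X →L[ℝ] Y).toLinearMap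
    fun x hx => (h1 x hx).symm

end Main

end Vale.Agent.Lib.P084
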