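import Mathlib
import Vale.Agent.Lib.P084.Corner.Main
import Vale.Agent.Lib.P084.Interface

/-! The theorems on norms which are not pointwise `C^{1,1}`. -/

namespace Vale.Agent.Lib.P084

open Set Metric Filter Topology Module MeasureTheory

section Final

variable {E : Type*} [NormedAddCommGroup E] [NormedSpace ℝ E]

/-- A point where the norm is not differentiable, or where its derivative is not Lipschitz along
differentiability points, is rough. -/
lemma rough_of_not_rate (hG : Dense {z : E | Dn z}) {x₀ : E} (h : ¬(Dn x₀ ∧ Rate x₀)) : Rough x₀ := by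
  by_cases hd : Dn x₀
  · have hr : ¬Rate x₀ := fun hr => h ⟨hd, hr⟩
    intro M hM r₀ hr₀
    unfold Rate at hr
    push Not at hr
    obtain ⟨a, ha, hax, hlt⟩ := hr (2 * M) (r₀ / 2) (by positivity)
    have hne : 0 < ‖a - x₀‖ := by
      by_contra hc
      have h0 : a = x₀ := by
        have : ‖a - x₀‖ = 0 := le_antisymm (not_lt.1 hc) (norm_nonneg _)
        exact sub_eq_zero.1 (norm_eq_zero.1 this)
      rw [h0] at hlt
      simp at hlt
    refine ⟨2 * ‖a - x₀‖, by positivity, by linarith, a, x₀, ha, hd, by linarith, ?_, ?_⟩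
    · rw [sub_self, norm_zero]
      positivity
    · have : M * (2 * ‖a - x₀‖) = 2 * M * ‖a - x₀‖ := by ring
      rw [this]
      exact hlt.le
  · exact rough_of_not_dn hG hd

/-- In a strictly convex space every differentiability point is a smooth exposed direction. -/
lemma goodDir_of_strict [StrictConvexSpace ℝ E] {z : E} (hz : Dn z) : GoodDir z := by
  refine ⟨hz, fun w hw hχ => ?_⟩
  have h1 : chi z (z + w) = 2 * ‖z‖ := by
    rw [map_add, hz.chi_self, hχ]
    ring
  have h2 := chi_le z (z + w)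
  have h3 : ‖z + w‖ = ‖z‖ + ‖w‖ := by
    refine le_antisymm (norm_add_le _ _) ?_
    rw [hw]
    linarith
  have h4 : SameRay ℝ z w := sameRay_iff_norm_add.2 h3
  exact (h4.eq_of_norm_eq hw.symm).symm

/-- The smooth exposed directions of a finite-dimensional strictly convex space are dense. -/
lemma dense_goodDir_of_strict [FiniteDimensional ℝ E] [StrictConvexSpace ℝ E] :
    Dense {z : E | GoodDir z} :=
  (dense_differentiableAt_norm (E := E)).mono fun _ hz => goodDir_of_strict hz

end Final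

section Final2

variable {X Y : Type*} [NormedAddCommGroup X] [NormedSpace ℝ X] [NormedAddCommGroup Y]
  [NormedSpace ℝ Y]

/-- **Rough point theorem.** -/
theorem sphere_extends_of_rough [FiniteDimensional ℝ X] (hGood : Dense {z : X | GoodDir z}) {x₀ : X}
    (hx₀ : ‖x₀‖ = 1) (hR : ¬(Dn x₀ ∧ Rate x₀)) (f : sphere (0 : X) 1 ≃ᵢ sphere (0 : Y) 1) :
    ∃ T : X ≃ₗᵢ[ℝ] Y, ∀ x : sphere (0 : X) 1, T x = f x := by
  have : FiniteDimensional ℝ Y := finiteDimensional_of_sphere f
  let _ : MeasurableSpace X := borel X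
  have : BorelSpace X := ⟨rfl⟩
  let _ : MeasurableSpace Y := borel Y
  have : BorelSpace Y := ⟨rfl⟩
  have : Nontrivial X := ⟨⟨x₀, 0, by
    intro h0
    rw [h0, norm_zero] at hx₀
    exact zero_ne_one hx₀⟩⟩
  obtain ⟨g, h, H, hg⟩ := exists_sphereIso f
  obtain ⟨T, hT⟩ := extends_of_rough H hGood hx₀
    (rough_of_not_rate (hGood.mono fun z hz => hz.1) hR)
  refine ⟨T, fun x => ?_⟩
  rw [← hg x]
  exact hT x (by simpa using x.2)

/-- Strict convexity passes from the source to the target of a sphere isometry. -/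
lemma strictConvex_of_sphere [FiniteDimensional ℝ X] [Nontrivial X] [StrictConvexSpace ℝ X]
    {g : X → Y} {h : Y → X} (H : SphereIso g h) : StrictConvexSpace ℝ Y := by
  have hoddh : ∀ y : Y, ‖y‖ = 1 → h (-y) = -h y := by
    intro y hy
    have h1 := sphere_odd H (H.map_h y hy)
    rw [H.right y hy] at h1
    rw [← h1, H.left _ (by rw [norm_neg]; exact H.map_h y hy)]
  refine StrictConvexSpace.of_pairwise_sphere_norm_ne_two ?_
  intro a ha b hb hab
  have ha' : ‖a‖ = 1 := by simpa using ha
  have hb' : ‖b‖ = 1 := by simpa using hb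
  have h1 := add_iso H.symm hoddh ha' hb'
  rw [← h1]
  have hne : h a ≠ h b := by
    intro e
    apply hab
    rw [← H.right a ha', e, H.right b hb']
  intro h2
  have ha2 := H.map_h a ha'
  have hb2 := H.map_h b hb'
  have h3 : SameRay ℝ (h a) (h b) := sameRay_iff_norm_add.2 (by rw [h2, ha2, hb2]; norm_num)
  exact hne (h3.eq_of_norm_eq (by rw [ha2, hb2]))

/-- **Rough point theorem for strictly convex norms.**  If `X` is strictly convex and the norm of
`X` or of `Y` is not pointwise `C^{1,1}` at some unit vector, every sphere isometry extends. -/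
theorem strict_extends_of_rough [FiniteDimensional ℝ X] [StrictConvexSpace ℝ X]
    (f : sphere (0 : X) 1 ≃ᵢ sphere (0 : Y) 1)
    (hR : (∃ x₀ : X, ‖x₀‖ = 1 ∧ ¬(Dn x₀ ∧ Rate x₀)) ∨ (∃ y₀ : Y, ‖y₀‖ = 1 ∧ ¬(Dn y₀ ∧ Rate y₀))) :
    ∃ T : X ≃ₗᵢ[ℝ] Y, ∀ x : sphere (0 : X) 1, T x = f x := by
  rcases hR with ⟨x₀, hx₀, hr⟩ | ⟨y₀, hy₀, hr⟩
  · exact sphere_extends_of_rough dense_goodDir_of_strict hx₀ hr f
  · have hY : FiniteDimensional ℝ Y := finiteDimensional_of_sphere f
    have hnt : Nontrivial Y := ⟨⟨y₀, 0, by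
      intro h0
      rw [h0, norm_zero] at hy₀
      exact zero_ne_one hy₀⟩⟩
    have hnX : Nontrivial X := by
      obtain ⟨x, hx⟩ : ∃ x : X, ‖x‖ = 1 := by
        have hm := (f.symm ⟨y₀, by simpa using hy₀⟩).2
        exact ⟨_, mem_sphere_zero_iff_norm.1 hm⟩
      exact ⟨⟨x, 0, by
        intro h0
        rw [h0, norm_zero] at hx
        exact zero_ne_one hx⟩⟩
    obtain ⟨g, h, H, hg⟩ := exists_sphereIso f
    have hsY : StrictConvexSpace ℝ Y := strictConvex_of_sphere H
    obtain ⟨T', hT'⟩ := sphere_extends_of_rough dense_goodDir_of_strict hy₀ hr f.symm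
    refine ⟨T'.symm, fun x => ?_⟩
    have h1 := hT' (f x)
    rw [IsometryEquiv.symm_apply_apply] at h1
    rw [← h1]
    simp

end Final2

end Vale.Agent.Lib.P084
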