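import Mathlib
import Vale.Agent.Lib.P084.Corner.Final

/-! The case of `C^1` norms: the radial extension is `C^1`, and its derivative is isometric on the
kernel of the derivative of the norm. -/

namespace Vale.Agent.Lib.P084

open Set Metric Filter Topology Module

section Base

variable {E : Type*} [NormedAddCommGroup E] [NormedSpace ℝ E]

lemma chi_continuousAt (hD : ∀ z : E, z ≠ 0 → Dn z) {z : E} (hz : z ≠ 0) :
    ContinuousAt (chi : E → E →L[ℝ] ℝ) z := by
  rw [Metric.continuousAt_iff]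
  intro ε hε
  obtain ⟨r, hr, h⟩ := chi_close (hD z hz) hε
  refine ⟨min r ‖z‖, lt_min hr (norm_pos_iff.2 hz), fun a ha => ?_⟩
  rw [dist_eq_norm] at ha ⊢
  have hane : a ≠ 0 := by
    rintro rfl
    rw [zero_sub, norm_neg] at ha
    exact absurd (lt_of_lt_of_le ha (min_le_right _ _)) (lt_irrefl _)
  exact h a (hD a hane) (lt_of_lt_of_le ha (min_le_left _ _))

lemma normC1_of_dn (hD : ∀ z : E, z ≠ 0 → Dn z) : NormC 1 E := by
  intro x hx
  have : ContDiffAt ℝ ((1 : ℕ) : WithTop ℕ∞) (fun z : E => ‖z‖) x := by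
    rw [Nat.cast_one, contDiffAt_one_iff]
    refine ⟨chi, {z : E | z ≠ 0}, isOpen_ne.mem_nhds hx, fun z hz => ?_, fun z hz => ?_⟩
    · exact (chi_continuousAt hD hz).continuousWithinAt
    · exact (hD z hz).hasFDerivAt
  exact this

end Base

section Ctx

variable {X Y : Type*} [NormedAddCommGroup X] [NormedSpace ℝ X] [NormedAddCommGroup Y]
  [NormedSpace ℝ Y]

/-- The derivative of the radial extension. -/
noncomputable def dT (g : X → Y) (x : X) : X →L[ℝ] Y := fderiv ℝ (radial g) x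

/-- The standing assumptions of the `C^1` case. -/
structure C1Ctx (g : X → Y) (h : Y → X) : Prop where
  iso : SphereIso g h
  dnX : ∀ z : X, z ≠ 0 → Dn z
  dnY : ∀ z : Y, z ≠ 0 → Dn z
  smooth : ∀ z : X, z ≠ 0 → ContDiffAt ℝ ((1 : ℕ) : WithTop ℕ∞) (radial g) z

variable {g : X → Y} {h : Y → X}

lemma C1Ctx.of_dn [FiniteDimensional ℝ Y] (H : SphereIso g h) (hX : ∀ z : X, z ≠ 0 → Dn z)
    (hY : ∀ z : Y, z ≠ 0 → Dn z) : C1Ctx g h :=
  ⟨H, hX, hY, fun _ hz => radial_contDiffAt H le_rfl (normC1_of_dn hX) (normC1_of_dn hY) hz⟩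

lemma C1Ctx.hasFDerivAt (C : C1Ctx g h) {z : X} (hz : z ≠ 0) :
    HasFDerivAt (radial g) (dT g z) z :=
  ((C.smooth z hz).differentiableAt (by simp)).hasFDerivAt

lemma C1Ctx.dT_continuousAt (C : C1Ctx g h) {z : X} (hz : z ≠ 0) : ContinuousAt (dT g) z := by
  have h1 := (C.smooth z hz).fderiv_right (m := 0) (by simp)
  exact h1.continuousAt

lemma C1Ctx.dT_self (C : C1Ctx g h) {z : X} (hz : z ≠ 0) : dT g z z = radial g z :=
  radial_fderiv_self (C.hasFDerivAt hz)

lemma C1Ctx.dT_unit_self (C : C1Ctx g h) {z : X} (hz : ‖z‖ = 1) : dT g z z = g z := by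
  have h0 : z ≠ 0 := by
    rintro rfl
    simp at hz
  rw [C.dT_self h0, radial_of_unit g hz]

/-- The norm of the extension is the norm: derivative form. -/
lemma C1Ctx.chi_dT (C : C1Ctx g h) {z : X} (hz : z ≠ 0) (v : X) :
    chi (radial g z) (dT g z v) = chi z v := by
  have hn : ∀ w : X, ‖radial g w‖ = ‖w‖ := radial_norm C.iso
  have h1 : HasFDerivAt (fun w : X => ‖radial g w‖) ((chi (radial g z)).comp (dT g z)) z :=
    (C.dnY _ (radial_ne_zero C.iso hz)).hasFDerivAt.comp z (C.hasFDerivAt hz)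
  have h2 : HasFDerivAt (fun w : X => ‖radial g w‖) (chi z) z := by
    have : (fun w : X => ‖radial g w‖) = fun w => ‖w‖ := funext hn
    rw [this]
    exact (C.dnX z hz).hasFDerivAt
  have h3 := h1.unique h2
  have h4 := congrArg (fun φ : X →L[ℝ] ℝ => φ v) h3
  simpa using h4

/-- The derivative is isometric on tangent vectors. -/
lemma C1Ctx.norm_dT (C : C1Ctx g h) {x u : X} (hx : ‖x‖ = 1) (hu : chi x u = 0) :
    ‖dT g x u‖ = ‖u‖ := by
  have h0 : x ≠ 0 := by
    rintro rfl
    simp at hx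
  have hc := nline_hasDerivAt hx (C.dnX x h0) hu
  have hc2 : HasFDerivAt (radial g) (dT g x) (nline x u 0) := by
    rw [nline_zero hx]
    exact C.hasFDerivAt h0
  have h1 : HasDerivAt (fun t => radial g (nline x u t)) (dT g x u) 0 :=
    hc2.comp_hasDerivAt 0 hc
  have s1 := (hasDerivAt_iff_tendsto_slope.1 hc).norm
  have s2 := (hasDerivAt_iff_tendsto_slope.1 h1).norm
  have e : ∀ᶠ t in 𝓝[≠] (0 : ℝ), ‖slope (nline x u) 0 t‖ =
      ‖slope (fun t => radial g (nline x u t)) 0 t‖ := by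
    have h2 := (nline_unit hx u).filter_mono (nhdsWithin_le_nhds (s := {0}ᶜ))
    filter_upwards [h2] with t ht
    simp only [slope, vsub_eq_sub, norm_smul, nline_zero hx]
    rw [radial_of_unit g ht, radial_of_unit g hx, C.iso.iso _ _ ht hx]
  exact (tendsto_nhds_unique (s2.congr' (e.mono fun _ h => h.symm)) s1)

end Ctx

end Vale.Agent.Lib.P084
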