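import Mathlib
import Vale.Agent.Lib.P084.Corner.C1Ctx

/-! Algebra in dimension three, and chord identities for the `C^1` case. -/

namespace Vale.Agent.Lib.P084

open Set Metric Filter Topology Module

section Alg

lemma three_span {V : Type*} [AddCommGroup V] [Module ℝ V] [FiniteDimensional ℝ V]
    (hV : finrank ℝ V = 3) {u₁ u₂ u₃ : V}
    (h : ∀ α β γ : ℝ, α • u₁ + β • u₂ + γ • u₃ = 0 → α = 0 ∧ β = 0 ∧ γ = 0) (v : V) :
    ∃ α β γ : ℝ, v = α • u₁ + β • u₂ + γ • u₃ := by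
  have hli : LinearIndependent ℝ ![u₁, u₂, u₃] := by
    rw [Fintype.linearIndependent_iff]
    intro f hf
    simp only [Fin.sum_univ_three, Matrix.cons_val_zero, Matrix.cons_val_one, Matrix.cons_val] at hf
    obtain ⟨h0, h1, h2⟩ := h _ _ _ hf
    intro i
    fin_cases i
    · exact h0
    · exact h1
    · exact h2
  have hs := hli.span_eq_top_of_card_eq_finrank' (by simp [hV])
  have hv : v ∈ Submodule.span ℝ (range ![u₁, u₂, u₃]) := by
    rw [hs]
    exact Submodule.mem_top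
  obtain ⟨f, hf⟩ := (Submodule.mem_span_range_iff_exists_fun ℝ).1 hv
  refine ⟨f 0, f 1, f 2, ?_⟩
  rw [← hf]
  simp [Fin.sum_univ_three]

variable {E : Type*} [NormedAddCommGroup E] [NormedSpace ℝ E]

lemma eq_of_chi_eq_one [StrictConvexSpace ℝ E] {a b : E} (ha : ‖a‖ = 1) (hb : ‖b‖ = 1) (hd : Dn a)
    (h : chi a b = 1) : b = a :=
  (goodDir_of_strict hd).2 b (by rw [ha, hb]) (by rw [h, ha])

lemma eq_of_chi_eq_neg_one [StrictConvexSpace ℝ E] {a b : E} (ha : ‖a‖ = 1) (hb : ‖b‖ = 1) (hd : Dn a)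
    (h : chi a b = -1) : b = -a := by
  have h1 : -b = a := eq_of_chi_eq_one ha (by rwa [norm_neg]) hd (by rw [map_neg, h, neg_neg])
  rw [← h1, neg_neg]

lemma abs_chi_lt_one [StrictConvexSpace ℝ E] {a b : E} (ha : ‖a‖ = 1) (hb : ‖b‖ = 1) (hd : Dn a)
    (h1 : b ≠ a) (h2 : b ≠ -a) : |chi a b| < 1 := by
  have h3 := abs_chi_le a b
  rw [hb] at h3
  refine lt_of_le_of_ne h3 fun h4 => ?_
  rcases (abs_eq (by norm_num)).1 h4 with h5 | h5
  · exact h1 (eq_of_chi_eq_one ha hb hd h5)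
  · exact h2 (eq_of_chi_eq_neg_one ha hb hd h5)

/-- Three tangency conditions in dimension three force a coincidence of directions. -/
lemma three_dim_tangent [StrictConvexSpace ℝ E] [FiniteDimensional ℝ E] (hdim : finrank ℝ E = 3)
    (hD : ∀ z : E, z ≠ 0 → Dn z) {p a τ ν : E} (hp : ‖p‖ = 1) (ha : ‖a‖ = 1) (hτ : ‖τ‖ = 1)
    (hν : ‖ν‖ = 1) (h1 : chi p a = 0) (h2 : chi p τ = 0) (h3 : chi p ν = 0) (h4 : chi a ν = 0)
    (h5 : chi τ ν = 0) : a = τ ∨ a = -τ := by
  have ne0 : ∀ w : E, ‖w‖ = 1 → w ≠ 0 := fun w hw h => by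
    rw [h, norm_zero] at hw
    exact zero_ne_one hw
  by_contra hcon
  push Not at hcon
  obtain ⟨hc1, hc2⟩ := hcon
  have dp := hD p (ne0 p hp)
  have da := hD a (ne0 a ha)
  have dτ := hD τ (ne0 τ hτ)
  have hs := abs_chi_lt_one hτ ha dτ hc1 hc2
  have hs' := abs_chi_lt_one ha hτ da (fun e => hc1 e.symm) (fun e => hc2 (by rw [e, neg_neg]))
  have ep : chi p p = 1 := by rw [dp.chi_self, hp]
  have ea : chi a a = 1 := by rw [da.chi_self, ha]
  have eτ : chi τ τ = 1 := by rw [dτ.chi_self, hτ]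
  have hprod : chi τ a * chi a τ < 1 := by
    have h6 := abs_mul (chi τ a) (chi a τ)
    have h7 : |chi τ a * chi a τ| < 1 := by
      rw [h6]
      nlinarith [abs_nonneg (chi τ a), abs_nonneg (chi a τ)]
    exact (abs_lt.1 h7).2
  have hsolve : ∀ β γ : ℝ, β + γ * chi a τ = 0 → β * chi τ a + γ = 0 → β = 0 ∧ γ = 0 := by
    intro β γ e1 e2
    have hγ : γ * (1 - chi τ a * chi a τ) = 0 := by
      have : β = -(γ * chi a τ) := by linarith
      rw [this] at e2
      linarith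
    have hγ0 : γ = 0 := by
      rcases mul_eq_zero.1 hγ with h | h
      · exact h
      · linarith
    rw [hγ0] at e1
    exact ⟨by linarith, hγ0⟩
  have hexp : ∀ α β γ : ℝ, ∀ w, w = α • p + β • a + γ • τ →
      chi p w = α ∧ chi a w = α * chi a p + β + γ * chi a τ ∧
        chi τ w = α * chi τ p + β * chi τ a + γ := by
    intro α β γ w hw
    rw [hw]
    simp only [map_add, map_smul, smul_eq_mul, ep, ea, eτ, h1, h2]
    refine ⟨by ring, by ring, by ring⟩
  have hind : ∀ α β γ : ℝ, α • p + β • a + γ • τ = 0 → α = 0 ∧ β = 0 ∧ γ = 0 := by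
    intro α β γ he
    obtain ⟨e1, e2, e3⟩ := hexp α β γ 0 he.symm
    simp only [map_zero] at e1 e2 e3
    have hα : α = 0 := e1.symm
    rw [hα] at e2 e3
    have := hsolve β γ (by linarith) (by linarith)
    exact ⟨hα, this.1, this.2⟩
  obtain ⟨α, β, γ, hv⟩ := three_span hdim hind ν
  obtain ⟨e1, e2, e3⟩ := hexp α β γ ν hv
  have hα : α = 0 := by rw [← e1, h3]
  rw [hα, h4] at e2
  rw [hα, h5] at e3
  obtain ⟨hβ, hγ⟩ := hsolve β γ (by linarith) (by linarith)
  rw [hα, hβ, hγ] at hv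
  simp only [zero_smul, add_zero] at hv
  rw [hv, norm_zero] at hν
  exact zero_ne_one hν

end Alg

section Chords

variable {X Y : Type*} [NormedAddCommGroup X] [NormedSpace ℝ X] [NormedAddCommGroup Y]
  [NormedSpace ℝ Y]

variable {g : X → Y} {h : Y → X}

lemma C1Ctx.chord_sub (C : C1Ctx g h) {x y d : X} (hx : ‖x‖ = 1) (hy : ‖y‖ = 1) (hne : x ≠ y)
    (hd : chi x d = 0) : chi (g x - g y) (dT g x d) = chi (x - y) d := by
  have h0 : x ≠ 0 := by
    rintro rfl
    simp at hx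
  have hn : g x - g y ≠ 0 := by
    intro e
    have h1 := C.iso.iso x y hx hy
    rw [e, norm_zero] at h1
    exact hne (sub_eq_zero.1 (norm_eq_zero.1 h1.symm))
  have h1 := chord_full C.iso hx hy (C.dnX x h0) (C.hasFDerivAt h0)
    (C.dnX _ (sub_ne_zero.2 hne)) (C.dnY _ hn) d
  rw [hd, mul_zero, add_zero] at h1
  exact h1

lemma C1Ctx.chord_sub' (C : C1Ctx g h) {x y d : X} (hx : ‖x‖ = 1) (hy : ‖y‖ = 1) (hne : x ≠ y)
    (hd : chi y d = 0) : chi (g x - g y) (dT g y d) = chi (x - y) d := by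
  have h1 := C.chord_sub hy hx hne.symm hd
  have e1 : g y - g x = -(g x - g y) := by abel
  have e2 : y - x = -(x - y) := by abel
  rw [e1, e2, chi_neg, chi_neg] at h1
  simpa using h1

lemma C1Ctx.chord_add [FiniteDimensional ℝ X] [Nontrivial X] (C : C1Ctx g h) {x y d : X} (hx : ‖x‖ = 1) (hy : ‖y‖ = 1) (hne : x + y ≠ 0)
    (hd : chi x d = 0) : chi (g x + g y) (dT g x d) = chi (x + y) d := by
  have h1 : x ≠ -y := fun e => hne (by rw [e, neg_add_cancel])
  have h2 := C.chord_sub hx (y := -y) (by rwa [norm_neg]) h1 hd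
  rw [sphere_odd C.iso hy, sub_neg_eq_add, sub_neg_eq_add] at h2
  exact h2

lemma C1Ctx.chord_add' [FiniteDimensional ℝ X] [Nontrivial X] (C : C1Ctx g h) {x y d : X} (hx : ‖x‖ = 1) (hy : ‖y‖ = 1) (hne : x + y ≠ 0)
    (hd : chi y d = 0) : chi (g x + g y) (dT g y d) = chi (x + y) d := by
  have h1 := C.chord_add hy hx (by rwa [add_comm]) hd
  rwa [add_comm (g y), add_comm y] at h1

end Chords

end Vale.Agent.Lib.P084
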