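import Mathlib
import Vale.Agent.Lib.P084.Corner.NearAlg

/-! The near diagonal lemma in dimension three: on a set of points where the derivative of the norm
has a uniform angle with the chords, the derivatives of the radial extension agree on the common
tangent lines of nearby points. -/

namespace Vale.Agent.Lib.P084

open Set Metric Filter Topology Module

section Near

variable {X Y : Type*} [NormedAddCommGroup X] [NormedSpace ℝ X] [NormedAddCommGroup Y]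
  [NormedSpace ℝ Y]

variable {g : X → Y} {h : Y → X}

lemma ne0_of_unit {E : Type*} [NormedAddCommGroup E] (w : E) (hw : ‖w‖ = 1) : w ≠ 0 := fun e => by
  rw [e, norm_zero] at hw
  exact zero_ne_one hw

lemma norm_normalize_le {E : Type*} [NormedAddCommGroup E] [NormedSpace ℝ E] (w : E) :
    ‖‖w‖⁻¹ • w‖ ≤ 1 := by
  by_cases hw : w = 0
  · simp [hw]
  · exact (unit_of_ne hw).le

lemma norm_limit_one {E : Type*} [NormedAddCommGroup E] {u : ℕ → E} {u₀ : E}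
    (hu : Tendsto u atTop (𝓝 u₀)) (h1 : ∀ n, ‖u n‖ = 1) : ‖u₀‖ = 1 :=
  tendsto_nhds_unique hu.norm (tendsto_const_nhds.congr fun n => (h1 n).symm)

lemma C1Ctx.tendsto_g (C : C1Ctx g h) {x : ℕ → X} {x₁ : X} (hxu : ∀ n, ‖x n‖ = 1)
    (hx₁ : ‖x₁‖ = 1) (hx : Tendsto x atTop (𝓝 x₁)) :
    Tendsto (fun n => g (x n)) atTop (𝓝 (g x₁)) := by
  have h1 := ((radial_lipschitz C.iso).continuous.tendsto x₁).comp hx
  rw [radial_of_unit g hx₁] at h1
  refine h1.congr fun n => ?_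
  simp only [Function.comp]
  rw [radial_of_unit g (hxu n)]

lemma chi_tendsto {E : Type*} [NormedAddCommGroup E] [NormedSpace ℝ E]
    (hD : ∀ z : E, z ≠ 0 → Dn z) {u : ℕ → E} {u₀ : E} (h0 : u₀ ≠ 0)
    (hu : Tendsto u atTop (𝓝 u₀)) : Tendsto (fun n => chi (u n)) atTop (𝓝 (chi u₀)) :=
  (chi_continuousAt hD h0).tendsto.comp hu

lemma angle_bound {E : Type*} [NormedAddCommGroup E] [NormedSpace ℝ E] {c : ℝ} {ζ : E →L[ℝ] ℝ}
    {x y d : E} (hne : x ≠ y) (hζ : ζ ≠ 0) (hd : ζ d = 0)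
    (hang : c * (‖ζ‖ * ‖x - y‖) ≤ ζ (x - y)) (s : ℝ) :
    c ≤ ‖‖x - y‖⁻¹ • (x - y) - s • d‖ := by
  have hn : 0 < ‖x - y‖ := norm_pos_iff.2 (sub_ne_zero.2 hne)
  have hζn : 0 < ‖ζ‖ := norm_pos_iff.2 hζ
  have h1 : ζ (‖x - y‖⁻¹ • (x - y) - s • d) = ‖x - y‖⁻¹ * ζ (x - y) := by
    rw [map_sub, map_smul, map_smul, hd, smul_eq_mul, smul_eq_mul, mul_zero, sub_zero]
  have h2 := ζ.le_opNorm (‖x - y‖⁻¹ • (x - y) - s • d)
  rw [Real.norm_eq_abs, h1] at h2
  have h3 := le_abs_self (‖x - y‖⁻¹ * ζ (x - y))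
  have h4 : c * ‖ζ‖ ≤ ‖x - y‖⁻¹ * ζ (x - y) := by
    rw [← div_eq_inv_mul, le_div_iff₀ hn]
    linarith
  have h5 : c * ‖ζ‖ ≤ ‖ζ‖ * ‖‖x - y‖⁻¹ • (x - y) - s • d‖ := by linarith
  rw [mul_comm c] at h5
  exact le_of_mul_le_mul_left h5 hζn

variable [FiniteDimensional ℝ X] [Nontrivial X] [StrictConvexSpace ℝ X] [StrictConvexSpace ℝ Y]
  [FiniteDimensional ℝ Y]

lemma chi_sub_ne_zero {E : Type*} [NormedAddCommGroup E] [NormedSpace ℝ E] [StrictConvexSpace ℝ E]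
    {x y : E} (hx : ‖x‖ = 1) (hy : ‖y‖ = 1) (hdy : Dn y) (hne : x ≠ y) : chi x - chi y ≠ 0 := by
  intro e
  have h1 : chi y x = chi x x := by
    have := congrArg (fun φ : E →L[ℝ] ℝ => φ x) e
    simp only [_root_.sub_apply, _root_.zero_apply] at this
    linarith
  have hdx : Dn x := by
    have hd : DifferentiableAt ℝ (fun w : E => ‖w‖) y := hdy
    by_contra hnd
    have h2 : chi x = 0 := fderiv_zero_of_not_differentiableAt hnd
    rw [h2] at e
    have h3 : chi y y = 0 := by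
      have := congrArg (fun φ : E →L[ℝ] ℝ => φ y) e
      simp only [_root_.sub_apply, _root_.zero_apply] at this
      simpa using this.symm
    rw [hdy.chi_self, hy] at h3
    exact one_ne_zero h3
  rw [hdx.chi_self, hx] at h1
  exact hne (eq_of_chi_eq_one hy hx hdy h1)

/-- The limit argument of the near diagonal lemma. -/
lemma C1Ctx.near_diag_core (C : C1Ctx g h) (hdim : finrank ℝ Y = 3) {c : ℝ} (hc : 0 < c)
    {x y d : ℕ → X} {x₁ d₀ τ₀ : X} {τ₁ ν₀ : Y}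
    (hxu : ∀ n, ‖x n‖ = 1) (hyu : ∀ n, ‖y n‖ = 1) (hne : ∀ n, x n ≠ y n) (hdu : ∀ n, ‖d n‖ = 1)
    (hxd : ∀ n, chi (x n) (d n) = 0) (hyd : ∀ n, chi (y n) (d n) = 0)
    (hab : ∀ n, dT g (x n) (d n) ≠ dT g (y n) (d n))
    (hang : ∀ n, c * (‖chi (x n) - chi (y n)‖ * ‖x n - y n‖) ≤
      (chi (x n) - chi (y n)) (x n - y n))
    (hx₁ : ‖x₁‖ = 1) (hx : Tendsto x atTop (𝓝 x₁)) (hy : Tendsto y atTop (𝓝 x₁))
    (hd : Tendsto d atTop (𝓝 d₀))
    (hτ : Tendsto (fun n => ‖x n - y n‖⁻¹ • (x n - y n)) atTop (𝓝 τ₀))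
    (hτ' : Tendsto (fun n => ‖g (x n) - g (y n)‖⁻¹ • (g (x n) - g (y n))) atTop (𝓝 τ₁))
    (hν : Tendsto (fun n => ‖dT g (x n) (d n) - dT g (y n) (d n)‖⁻¹ •
      (dT g (x n) (d n) - dT g (y n) (d n))) atTop (𝓝 ν₀)) : False := by
  have hsub : ∀ n, x n - y n ≠ 0 := fun n => sub_ne_zero.2 (hne n)
  have hsub' : ∀ n, g (x n) - g (y n) ≠ 0 := fun n => by
    intro e
    have h1 := C.iso.iso _ _ (hxu n) (hyu n)
    rw [e, norm_zero] at h1
    exact hsub n (norm_eq_zero.1 h1.symm)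
  have hτu : ∀ n, ‖‖x n - y n‖⁻¹ • (x n - y n)‖ = 1 := fun n => unit_of_ne (hsub n)
  have hτ'u : ∀ n, ‖‖g (x n) - g (y n)‖⁻¹ • (g (x n) - g (y n))‖ = 1 :=
    fun n => unit_of_ne (hsub' n)
  have hνu : ∀ n, ‖‖dT g (x n) (d n) - dT g (y n) (d n)‖⁻¹ •
      (dT g (x n) (d n) - dT g (y n) (d n))‖ = 1 := fun n => unit_of_ne (sub_ne_zero.2 (hab n))
  have hd₀ := norm_limit_one hd hdu
  have hτ₀ := norm_limit_one hτ hτu
  have hτ₁ := norm_limit_one hτ' hτ'u
  have hν₀ := norm_limit_one hν hνu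
  have hx0 := ne0_of_unit x₁ hx₁
  have hp₁ : ‖g x₁‖ = 1 := C.iso.map_g x₁ hx₁
  have hp := C.tendsto_g hxu hx₁ hx
  have hq := C.tendsto_g hyu hx₁ hy
  have hA₁ : Tendsto (fun n => dT g (x n)) atTop (𝓝 (dT g x₁)) :=
    (C.dT_continuousAt hx0).tendsto.comp hx
  have hA₂ : Tendsto (fun n => dT g (y n)) atTop (𝓝 (dT g x₁)) :=
    (C.dT_continuousAt hx0).tendsto.comp hy
  have ha := tendsto_clm_apply hA₁ hd
  have hb := tendsto_clm_apply hA₂ hd
  have hχx := chi_tendsto C.dnX hx0 hx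
  have hχy := chi_tendsto C.dnX hx0 hy
  have hχd : chi x₁ d₀ = 0 :=
    tendsto_nhds_unique (tendsto_clm_apply hχx hd) (tendsto_const_nhds.congr fun n => (hxd n).symm)
  have hau : ∀ n, ‖dT g (x n) (d n)‖ = 1 := fun n => by rw [C.norm_dT (hxu n) (hxd n), hdu]
  have hbu : ∀ n, ‖dT g (y n) (d n)‖ = 1 := fun n => by rw [C.norm_dT (hyu n) (hyd n), hdu]
  have ha₀ : ‖dT g x₁ d₀‖ = 1 := norm_limit_one ha hau
  have hχp := chi_tendsto C.dnY (ne0_of_unit _ hp₁) hp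
  have hχq := chi_tendsto C.dnY (ne0_of_unit _ hp₁) hq
  have hχa := chi_tendsto C.dnY (ne0_of_unit _ ha₀) ha
  have hχb := chi_tendsto C.dnY (ne0_of_unit _ ha₀) hb
  have hχτ' := chi_tendsto C.dnY (ne0_of_unit _ hτ₁) hτ'
  have hχτ := chi_tendsto C.dnX (ne0_of_unit _ hτ₀) hτ
  have eχ' : ∀ n, chi (‖g (x n) - g (y n)‖⁻¹ • (g (x n) - g (y n))) = chi (g (x n) - g (y n)) :=
    fun n => chi_unit (hsub' n)
  have eχ : ∀ n, chi (‖x n - y n‖⁻¹ • (x n - y n)) = chi (x n - y n) := fun n => chi_unit (hsub n)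
  -- first tangency
  have f1 : chi (g x₁) (dT g x₁ d₀) = 0 := by
    have := C.chi_dT hx0 d₀
    rwa [radial_of_unit g hx₁, hχd] at this
  -- second tangency
  have f2 : chi (g x₁) τ₁ = 0 := by
    refine le_antisymm ?_ ?_
    · refine le_of_tendsto' (tendsto_clm_apply hχq hτ') fun n => ?_
      rw [map_smul, smul_eq_mul]
      refine mul_nonpos_of_nonneg_of_nonpos (by positivity) ?_
      have dq := C.dnY _ (ne0_of_unit _ (C.iso.map_g _ (hyu n)))
      rw [map_sub, dq.chi_self, C.iso.map_g _ (hyu n)]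
      have := chi_le (g (y n)) (g (x n))
      rw [C.iso.map_g _ (hxu n)] at this
      linarith
    · refine ge_of_tendsto' (tendsto_clm_apply hχp hτ') fun n => ?_
      rw [map_smul, smul_eq_mul]
      refine mul_nonneg (by positivity) ?_
      have dq := C.dnY _ (ne0_of_unit _ (C.iso.map_g _ (hxu n)))
      rw [map_sub, dq.chi_self, C.iso.map_g _ (hxu n)]
      have := chi_le (g (x n)) (g (y n))
      rw [C.iso.map_g _ (hyu n)] at this
      linarith
  -- the chord functional kills the normal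
  have f3 : chi τ₁ ν₀ = 0 := by
    refine tendsto_nhds_unique (tendsto_clm_apply hχτ' hν) (tendsto_const_nhds.congr fun n => ?_)
    rw [eχ', map_smul, map_sub, C.chord_sub (hxu n) (hyu n) (hne n) (hxd n),
      C.chord_sub' (hxu n) (hyu n) (hne n) (hyd n)]
    simp
  -- the sum functional kills the normal
  have f4 : chi (g x₁) ν₀ = 0 := by
    have hs : Tendsto (fun n => g (x n) + g (y n)) atTop (𝓝 (g x₁ + g x₁)) := hp.add hq
    have hs0 : g x₁ + g x₁ ≠ 0 := by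
      rw [← two_smul ℝ]
      exact smul_ne_zero two_ne_zero (ne0_of_unit _ hp₁)
    have e1 : chi (g x₁ + g x₁) = chi (g x₁) := by
      rw [← two_smul ℝ, chi_smul two_pos]
    have h5 := tendsto_clm_apply (chi_tendsto C.dnY hs0 hs) hν
    rw [e1] at h5
    have hxy : Tendsto (fun n => x n + y n) atTop (𝓝 (x₁ + x₁)) := hx.add hy
    have hxy0 : x₁ + x₁ ≠ 0 := by
      rw [← two_smul ℝ]
      exact smul_ne_zero two_ne_zero hx0
    refine tendsto_nhds_unique h5 (tendsto_const_nhds.congr' ?_)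
    filter_upwards [hxy.eventually_ne hxy0] with n hn
    rw [map_smul, map_sub, C.chord_add (hxu n) (hyu n) hn (hxd n),
      C.chord_add' (hxu n) (hyu n) hn (hyd n)]
    simp
  -- the point functional kills the normal
  have f5 : chi (dT g x₁ d₀) ν₀ = 0 := by
    refine le_antisymm ?_ ?_
    · refine le_of_tendsto' (tendsto_clm_apply hχb hν) fun n => ?_
      rw [map_smul, smul_eq_mul]
      refine mul_nonpos_of_nonneg_of_nonpos (by positivity) ?_
      have dq := C.dnY _ (ne0_of_unit _ (hbu n))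
      rw [map_sub, dq.chi_self, hbu n]
      have := chi_le (dT g (y n) (d n)) (dT g (x n) (d n))
      rw [hau n] at this
      linarith
    · refine ge_of_tendsto' (tendsto_clm_apply hχa hν) fun n => ?_
      rw [map_smul, smul_eq_mul]
      refine mul_nonneg (by positivity) ?_
      have dq := C.dnY _ (ne0_of_unit _ (hau n))
      rw [map_sub, dq.chi_self, hau n]
      have := chi_le (dT g (x n) (d n)) (dT g (y n) (d n))
      rw [hbu n] at this
      linarith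
  -- the value of the chord functional
  have f6 : chi τ₁ (dT g x₁ d₀) = chi τ₀ d₀ := by
    refine tendsto_nhds_unique (tendsto_clm_apply hχτ' ha)
      ((tendsto_clm_apply hχτ hd).congr fun n => ?_)
    rw [eχ', eχ, C.chord_sub (hxu n) (hyu n) (hne n) (hxd n)]
  -- the angle
  have hangle : ∀ s : ℝ, d₀ = s • τ₀ → ‖s‖ = 1 → False := by
    intro s hs hs1
    have h1 : ∀ n, c ≤ ‖‖x n - y n‖⁻¹ • (x n - y n) - s⁻¹ • d n‖ := fun n => by
      refine angle_bound (ζ := chi (x n) - chi (y n)) (hne n)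
        (chi_sub_ne_zero (hxu n) (hyu n) (C.dnX _ (ne0_of_unit _ (hyu n))) (hne n)) ?_ (hang n) _
      rw [_root_.sub_apply, hxd n, hyd n, sub_zero]
    have h2 : Tendsto (fun n => ‖‖x n - y n‖⁻¹ • (x n - y n) - s⁻¹ • d n‖) atTop
        (𝓝 ‖τ₀ - s⁻¹ • d₀‖) := (hτ.sub (hd.const_smul _)).norm
    have h3 : τ₀ - s⁻¹ • d₀ = 0 := by
      have hs0 : s ≠ 0 := by
        rintro rfl
        simp at hs1
      rw [hs, smul_smul, inv_mul_cancel₀ hs0, one_smul, sub_self]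
    rw [h3, norm_zero] at h2
    have h4 := ge_of_tendsto' h2 h1
    linarith
  rcases three_dim_tangent hdim C.dnY hp₁ ha₀ hτ₁ hν₀ f1 f2 f4 f5 f3 with e | e
  · have h1 : chi τ₀ d₀ = 1 := by
      rw [← f6, e, (C.dnY _ (ne0_of_unit _ hτ₁)).chi_self, hτ₁]
    have h2 := eq_of_chi_eq_one hτ₀ hd₀ (C.dnX _ (ne0_of_unit _ hτ₀)) h1
    exact hangle 1 (by simpa using h2) (by simp)
  · have h1 : chi τ₀ d₀ = -1 := by
      rw [← f6, e, map_neg, (C.dnY _ (ne0_of_unit _ hτ₁)).chi_self, hτ₁]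
    have h2 := eq_of_chi_eq_neg_one hτ₀ hd₀ (C.dnX _ (ne0_of_unit _ hτ₀)) h1
    exact hangle (-1) (by simpa using h2) (by simp)

/-- **Near diagonal lemma in dimension three.** -/
theorem C1Ctx.near_diag (C : C1Ctx g h) (hdim : finrank ℝ Y = 3) {c : ℝ} (hc : 0 < c) {E : Set X}
    (hE : ∀ x ∈ E, ‖x‖ = 1)
    (hang : ∀ x ∈ E, ∀ y ∈ E, x ≠ y → c * (‖chi x - chi y‖ * ‖x - y‖) ≤ (chi x - chi y) (x - y))
    {x₁ : X} (hx₁ : ‖x₁‖ = 1) :
    ∃ r > 0, ∀ x ∈ E, ∀ y ∈ E, ‖x - x₁‖ < r → ‖y - x₁‖ < r → ∀ d, chi x d = 0 → chi y d = 0 →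
      dT g x d = dT g y d := by
  by_contra hcon
  push Not at hcon
  have hseq : ∀ n : ℕ, ∃ x ∈ E, ∃ y ∈ E, ‖x - x₁‖ < 1 / ((n : ℝ) + 1) ∧ ‖y - x₁‖ < 1 / ((n : ℝ) + 1) ∧
      ∃ d, chi x d = 0 ∧ chi y d = 0 ∧ dT g x d ≠ dT g y d := fun n => by
    obtain ⟨x, hx, y, hy, h1, h2, d, h3, h4, h5⟩ := hcon (1 / ((n : ℝ) + 1)) (by positivity)
    exact ⟨x, hx, y, hy, h1, h2, d, h3, h4, h5⟩
  choose x hxE y hyE hxr hyr d hxd hyd hne using hseq
  have hd0 : ∀ n, d n ≠ 0 := fun n e => hne n (by rw [e, map_zero, map_zero])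
  have hxne : ∀ n, x n ≠ y n := fun n e => hne n (by rw [e])
  have hlim : ∀ {z : ℕ → X}, (∀ n, ‖z n - x₁‖ < 1 / ((n : ℝ) + 1)) → Tendsto z atTop (𝓝 x₁) := by
    intro z hz
    rw [tendsto_iff_norm_sub_tendsto_zero]
    exact squeeze_zero (fun _ => norm_nonneg _) (fun n => (hz n).le)
      tendsto_one_div_add_atTop_nhds_zero_nat
  obtain ⟨d', hd'⟩ : ∃ d' : ℕ → X, d' = fun n => ‖d n‖⁻¹ • d n := ⟨_, rfl⟩
  have hd'u : ∀ n, ‖d' n‖ = 1 := fun n => by rw [hd']; exact unit_of_ne (hd0 n)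
  have hxd' : ∀ n, chi (x n) (d' n) = 0 := fun n => by
    rw [hd']
    simp only [map_smul, hxd n, smul_zero]
  have hyd' : ∀ n, chi (y n) (d' n) = 0 := fun n => by
    rw [hd']
    simp only [map_smul, hyd n, smul_zero]
  have hne' : ∀ n, dT g (x n) (d' n) ≠ dT g (y n) (d' n) := fun n e => by
    rw [hd'] at e
    simp only [map_smul] at e
    have hi : ‖d n‖⁻¹ ≠ 0 := inv_ne_zero (norm_ne_zero_iff.2 (hd0 n))
    exact hne n (smul_right_injective _ hi e)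
  obtain ⟨u, hu⟩ : ∃ u : ℕ → X × X × Y × Y, u = fun n => (d' n, ‖x n - y n‖⁻¹ • (x n - y n),
      ‖g (x n) - g (y n)‖⁻¹ • (g (x n) - g (y n)),
      ‖dT g (x n) (d' n) - dT g (y n) (d' n)‖⁻¹ • (dT g (x n) (d' n) - dT g (y n) (d' n))) :=
    ⟨_, rfl⟩
  have hub : ∀ n, u n ∈ closedBall (0 : X × X × Y × Y) 1 := by
    intro n
    rw [mem_closedBall_zero_iff, hu]
    simp only [Prod.norm_def]
    exact max_le (hd'u n).le (max_le (norm_normalize_le _) (max_le (norm_normalize_le _)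
      (norm_normalize_le _)))
  obtain ⟨⟨d₀, τ₀, τ₁, ν₀⟩, -, φ, hφm, hφ⟩ := tendsto_subseq_of_bounded isBounded_closedBall hub
  rw [hu] at hφ
  have t1 := (continuous_fst.tendsto _).comp hφ
  have t2 := (continuous_fst.tendsto _).comp ((continuous_snd.tendsto _).comp hφ)
  have t3 := (continuous_fst.tendsto _).comp ((continuous_snd.tendsto _).comp
    ((continuous_snd.tendsto _).comp hφ))
  have t4 := (continuous_snd.tendsto _).comp ((continuous_snd.tendsto _).comp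
    ((continuous_snd.tendsto _).comp hφ))
  have hφt : Tendsto φ atTop atTop := hφm.tendsto_atTop
  refine C.near_diag_core (x := x ∘ φ) (y := y ∘ φ) (d := d' ∘ φ) hdim hc
    (fun n => hE _ (hxE _)) (fun n => hE _ (hyE _)) (fun n => hxne _) (fun n => hd'u _)
    (fun n => hxd' _) (fun n => hyd' _) (fun n => hne' _)
    (fun n => hang _ (hxE _) _ (hyE _) (hxne _)) hx₁ ((hlim hxr).comp hφt) ((hlim hyr).comp hφt)
    t1 t2 t3 t4

end Near

end Vale.Agent.Lib.P084
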