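import Mathlib
import Vale.Agent.Lib.P084.Corner.NearDiag

/-! Density points: at a density point of a set, every direction is approximated by points of the
set. -/

namespace Vale.Agent.Lib.P084

open Set Metric Filter Topology MeasureTheory Module
open scoped NNReal ENNReal

section Dens

variable {X : Type*} [NormedAddCommGroup X] [NormedSpace ℝ X]

/-- Every direction at the point is approximated by points of the set. -/
def DirPt (s : Set X) (z : X) : Prop :=
  ∀ u : X, ∀ ε : ℝ, 0 < ε → ∃ t : ℝ, 0 < t ∧ t < ε ∧ ∃ v ∈ s, ‖v - (z + t • u)‖ < ε * t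

lemma DirPt.mono {s s' : Set X} {z : X} (h : DirPt s z) (hs : s ⊆ s') : DirPt s' z := by
  intro u ε hε
  obtain ⟨t, ht, htε, v, hv, hvd⟩ := h u ε hε
  exact ⟨t, ht, htε, v, hs hv, hvd⟩

lemma DirPt.smul {s : Set X} {z : X} (hc : ∀ w ∈ s, ∀ a : ℝ, 0 < a → a • w ∈ s) (h : DirPt s z)
    {a : ℝ} (ha : 0 < a) : DirPt s (a • z) := by
  intro u ε hε
  obtain ⟨t, ht, htε, v, hv, hvd⟩ := h u (min ε (ε / a)) (lt_min hε (by positivity))
  refine ⟨a * t, by positivity, ?_, a • v, hc v hv a ha, ?_⟩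
  · have h1 : t < ε / a := htε.trans_le (min_le_right _ _)
    rw [lt_div_iff₀ ha] at h1
    linarith
  · have e : a • v - (a • z + (a * t) • u) = a • (v - (z + t • u)) := by module
    rw [e, norm_smul, Real.norm_of_nonneg ha.le]
    have h1 : ‖v - (z + t • u)‖ < ε * t :=
      hvd.trans_le (mul_le_mul_of_nonneg_right (min_le_left _ _) ht.le)
    have h2 := mul_lt_mul_of_pos_left h1 ha
    calc a * ‖v - (z + t • u)‖ < a * (ε * t) := h2
      _ = ε * (a * t) := by ring

variable [MeasurableSpace X] [BorelSpace X]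

/-- Density one at the point. -/
def DensePt (μ : Measure X) (s : Set X) (z : X) : Prop :=
  Tendsto (fun r => μ (s ∩ closedBall z r) / μ (closedBall z r)) (𝓝[>] 0) (𝓝 1)

variable [FiniteDimensional ℝ X] (μ : Measure X) [μ.IsAddHaarMeasure]

lemma null_not_densePt (s : Set X) : μ {z ∈ s | ¬DensePt μ s z} = 0 := by
  have : ProperSpace X := FiniteDimensional.proper_real X
  have h := Besicovitch.ae_tendsto_measure_inter_div μ s
  rw [ae_iff] at h
  have h2 : μ ({a | ¬Tendsto (fun r => μ (s ∩ closedBall a r) / μ (closedBall a r)) (𝓝[>] 0) (𝓝 1)}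
      ∩ s) = 0 :=
    le_antisymm ((Measure.le_restrict_apply _ _).trans h.le) (zero_le)
  refine measure_mono_null ?_ h2
  rintro z ⟨hz, hd⟩
  exact ⟨hd, hz⟩

lemma DensePt.lower {s : Set X} {z : X} (hz : DensePt μ s z) {κ : ℝ} (hκ : κ < 1) :
    ∀ᶠ r in 𝓝[>] (0 : ℝ), ENNReal.ofReal κ * μ (closedBall z r) ≤ μ (s ∩ closedBall z r) := by
  have h1 : ∀ᶠ r in 𝓝[>] (0 : ℝ), ENNReal.ofReal κ < μ (s ∩ closedBall z r) / μ (closedBall z r) :=
    hz.eventually (lt_mem_nhds (ENNReal.ofReal_lt_one.2 hκ))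
  filter_upwards [h1, self_mem_nhdsWithin] with r hr hr0
  have h0 : μ (closedBall z r) ≠ 0 := (measure_closedBall_pos μ z hr0).ne'
  have ht : μ (closedBall z r) ≠ ∞ := measure_closedBall_lt_top.ne
  exact ((ENNReal.lt_div_iff_mul_lt (Or.inl h0) (Or.inl ht)).1 hr).le

lemma DensePt.compl_le {G : Set X} {z : X} (hz : DensePt μ G z) (hG : MeasurableSet G) {κ : ℝ}
    (hκ : 0 < κ) :
    ∀ᶠ r in 𝓝[>] (0 : ℝ), μ (closedBall z r \ G) ≤ ENNReal.ofReal κ * μ (closedBall z r) := by
  filter_upwards [hz.lower μ (κ := 1 - κ) (by linarith)] with r hr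
  have h1 := measure_inter_add_sdiff (μ := μ) (closedBall z r) hG
  have ht : μ (closedBall z r) ≠ ∞ := measure_closedBall_lt_top.ne
  have h2 : μ (closedBall z r ∩ G) ≠ ∞ :=
    (measure_mono inter_subset_left).trans_lt measure_closedBall_lt_top |>.ne
  rw [inter_comm] at hr
  have h3 : ENNReal.ofReal (1 - κ) + ENNReal.ofReal κ ≥ 1 := by
    rcases le_total κ 1 with h | h
    · rw [← ENNReal.ofReal_add (by linarith) hκ.le]
      simp
    · have : (1 : ℝ≥0∞) ≤ ENNReal.ofReal κ := by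
        rw [← ENNReal.ofReal_one]
        exact ENNReal.ofReal_le_ofReal h
      exact this.trans le_add_self
  have h4 : μ (closedBall z r) ≤ μ (closedBall z r ∩ G) + ENNReal.ofReal κ * μ (closedBall z r) := by
    calc μ (closedBall z r) = 1 * μ (closedBall z r) := (one_mul _).symm
      _ ≤ (ENNReal.ofReal (1 - κ) + ENNReal.ofReal κ) * μ (closedBall z r) := by gcongr
      _ = ENNReal.ofReal (1 - κ) * μ (closedBall z r) + ENNReal.ofReal κ * μ (closedBall z r) :=
        add_mul _ _ _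
      _ ≤ μ (closedBall z r ∩ G) + ENNReal.ofReal κ * μ (closedBall z r) := by gcongr
  have h5 : μ (closedBall z r ∩ G) + μ (closedBall z r \ G) ≤
      μ (closedBall z r ∩ G) + ENNReal.ofReal κ * μ (closedBall z r) := by
    rw [h1]
    exact h4
  exact (ENNReal.add_le_add_iff_left h2).1 h5

/-- A density point is a direction point. -/
lemma DensePt.dirPt [Nontrivial X] {s : Set X} {z : X} (hz : DensePt μ s z) : DirPt s z := by
  intro u ε hε
  by_contra hcon
  push Not at hcon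
  obtain ⟨R, hR⟩ : ∃ R, R = ‖u‖ + ε := ⟨_, rfl⟩
  have hRp : 0 < R := by
    rw [hR]
    positivity
  obtain ⟨n, hn⟩ : ∃ n, n = finrank ℝ X := ⟨_, rfl⟩
  obtain ⟨κ, hκ⟩ : ∃ κ, κ = (ε / R) ^ n := ⟨_, rfl⟩
  have hκp : 0 < κ := by
    rw [hκ]
    positivity
  have hev := (hz.lower μ (κ := 1 - κ / 2) (by linarith)).and
    (Ioo_mem_nhdsGT (show (0 : ℝ) < ε * R by positivity))
  obtain ⟨r, hr1, hr2⟩ := hev.exists
  obtain ⟨t, ht⟩ : ∃ t, t = r / R := ⟨_, rfl⟩
  have hr0 : 0 < r := hr2.1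
  have ht0 : 0 < t := by
    rw [ht]
    positivity
  have htε : t < ε := by
    rw [ht, div_lt_iff₀ hRp]
    exact hr2.2
  have hrt : r = t * R := by
    rw [ht]
    field_simp
  have hsub : ball (z + t • u) (ε * t) ⊆ closedBall z r := by
    intro w hw
    rw [mem_ball, dist_eq_norm] at hw
    rw [mem_closedBall, dist_eq_norm]
    have e : w - z = (w - (z + t • u)) + t • u := by abel
    rw [e]
    refine (norm_add_le _ _).trans ?_
    rw [norm_smul, Real.norm_of_nonneg ht0.le, hrt, hR]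
    nlinarith
  have hdisj : Disjoint (s ∩ closedBall z r) (ball (z + t • u) (ε * t)) := by
    rw [Set.disjoint_left]
    rintro v ⟨hv, -⟩ hvb
    rw [mem_ball, dist_eq_norm] at hvb
    exact absurd hvb (not_lt.2 (hcon t ht0 htε v hv))
  have hU := measure_union (μ := μ) hdisj measurableSet_ball
  have hle : μ (s ∩ closedBall z r) + μ (ball (z + t • u) (ε * t)) ≤ μ (closedBall z r) := by
    rw [← hU]
    exact measure_mono (union_subset inter_subset_right hsub)
  have hB : μ (ball (z + t • u) (ε * t)) = ENNReal.ofReal κ * μ (closedBall z r) := by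
    rw [Measure.addHaar_ball μ _ (by positivity), Measure.addHaar_closedBall μ _ hr0.le, ← mul_assoc,
      ← ENNReal.ofReal_mul (by positivity), ← hn, hκ, hrt, ← mul_pow]
    congr 3
    field_simp
  have hm0 : μ (closedBall z r) ≠ 0 := (measure_closedBall_pos μ z hr0).ne'
  have hmt : μ (closedBall z r) ≠ ∞ := measure_closedBall_lt_top.ne
  have h1 : ENNReal.ofReal (1 + κ / 2) * μ (closedBall z r) ≤ 1 * μ (closedBall z r) := by
    rw [one_mul]
    refine le_trans ?_ hle
    rw [hB]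
    have e : ENNReal.ofReal (1 + κ / 2) = ENNReal.ofReal (1 - κ / 2) + ENNReal.ofReal κ := by
      have hk : κ ≤ 1 := by
        rw [hκ]
        refine pow_le_one₀ (by positivity) ?_
        rw [div_le_one hRp, hR]
        linarith [norm_nonneg u]
      rw [← ENNReal.ofReal_add (by linarith) hκp.le]
      congr 1
      ring
    rw [e, add_mul]
    gcongr
  have h2 := (ENNReal.mul_le_mul_iff_left hm0 hmt).1 h1
  rw [← ENNReal.ofReal_one, ENNReal.ofReal_le_ofReal_iff (by norm_num)] at h2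
  linarith

/-- A non-null cone contains a cone all of whose points are direction points of the cone itself, and
which is non-null around one of its points. -/
lemma exists_selfdense [Nontrivial X] {C : Set X} (hcone : ∀ z ∈ C, ∀ a : ℝ, 0 < a → a • z ∈ C)
    (hC : μ C ≠ 0) :
    ∃ C' ⊆ C, (∀ z ∈ C', ∀ a : ℝ, 0 < a → a • z ∈ C') ∧ (∀ z ∈ C', DirPt C' z) ∧
      ∃ z₀ ∈ C', ∀ ρ > 0, μ (C' ∩ closedBall z₀ ρ) ≠ 0 := by
  obtain ⟨S, hS⟩ : ∃ S, S = {z ∈ C | DensePt μ C z} := ⟨_, rfl⟩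
  have hN := null_not_densePt μ C
  have hsplit : C ⊆ S ∪ {z ∈ C | ¬DensePt μ C z} := by
    intro z hz
    by_cases hd : DensePt μ C z
    · left
      rw [hS]
      exact ⟨hz, hd⟩
    · right
      exact ⟨hz, hd⟩
  have hSsub : S ⊆ C := by
    rw [hS]
    exact fun z hz => hz.1
  have hinter : ∀ z r, μ (S ∩ closedBall z r) = μ (C ∩ closedBall z r) := by
    intro z r
    refine le_antisymm (measure_mono (inter_subset_inter_left _ hSsub)) ?_
    have h1 : C ∩ closedBall z r ⊆ (S ∩ closedBall z r) ∪ {z ∈ C | ¬DensePt μ C z} := by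
      rintro w ⟨hw, hw2⟩
      rcases hsplit hw with h | h
      · exact Or.inl ⟨h, hw2⟩
      · exact Or.inr h
    refine (measure_mono h1).trans ((measure_union_le _ _).trans ?_)
    rw [hN, add_zero]
  have hdS : ∀ z ∈ S, DensePt μ S z := by
    intro z hz
    rw [hS] at hz
    have h1 := hz.2
    unfold DensePt at h1 ⊢
    simpa only [hinter] using h1
  have hSne : S.Nonempty := by
    by_contra hne
    rw [not_nonempty_iff_eq_empty] at hne
    apply hC
    refine measure_mono_null hsplit (measure_union_null ?_ hN)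
    rw [hne, measure_empty]
  obtain ⟨z₀, hz₀⟩ := hSne
  refine ⟨{z | ∃ a : ℝ, 0 < a ∧ a • z ∈ S}, ?_, ?_, ?_, z₀, ?_, ?_⟩
  · rintro z ⟨a, ha, hz⟩
    have := hcone _ (hSsub hz) a⁻¹ (inv_pos.2 ha)
    rwa [smul_smul, inv_mul_cancel₀ ha.ne', one_smul] at this
  · rintro z ⟨b, hb, hz⟩ a ha
    refine ⟨b / a, by positivity, ?_⟩
    rwa [smul_smul, div_mul_cancel₀ _ ha.ne']
  · have hS' : S ⊆ {z | ∃ a : ℝ, 0 < a ∧ a • z ∈ S} := fun z hz =>
      ⟨1, one_pos, by rwa [one_smul]⟩
    rintro z ⟨a, ha, hz⟩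
    have h1 := ((hdS _ hz).dirPt μ).mono hS'
    have h2 : ∀ w ∈ {z | ∃ a : ℝ, 0 < a ∧ a • z ∈ S}, ∀ b : ℝ, 0 < b →
        b • w ∈ {z | ∃ a : ℝ, 0 < a ∧ a • z ∈ S} := by
      rintro w ⟨c, hc, hw⟩ b hb
      refine ⟨c / b, by positivity, ?_⟩
      rwa [smul_smul, div_mul_cancel₀ _ hb.ne']
    have h3 := h1.smul h2 (inv_pos.2 ha)
    rwa [smul_smul, inv_mul_cancel₀ ha.ne', one_smul] at h3
  · exact ⟨1, one_pos, by rwa [one_smul]⟩
  · intro ρ hρ
    have hev := ((hdS _ hz₀).lower μ (κ := 1 / 2) (by norm_num)).and (Ioo_mem_nhdsGT hρ)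
    obtain ⟨r, hr1, hr2⟩ := hev.exists
    have hm0 : μ (closedBall z₀ r) ≠ 0 := (measure_closedBall_pos μ z₀ hr2.1).ne'
    have h1 : 0 < ENNReal.ofReal (1 / 2) * μ (closedBall z₀ r) :=
      ENNReal.mul_pos (by simp) hm0
    intro h0
    have h2 : S ∩ closedBall z₀ r ⊆ {z | ∃ a : ℝ, 0 < a ∧ a • z ∈ S} ∩ closedBall z₀ ρ := by
      rintro w ⟨hw, hw2⟩
      refine ⟨⟨1, one_pos, by rwa [one_smul]⟩, closedBall_subset_closedBall hr2.2.le hw2⟩
    have h3 := measure_mono_null h2 h0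
    rw [h3] at hr1
    exact absurd (h1.trans_le hr1) (lt_irrefl _)

end Dens

end Vale.Agent.Lib.P084
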