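import Mathlib
import Vale.Agent.Lib.P084.Corner.Density

/-! Gluing in dimension three: on a patch of touching points the derivative of the radial extension
is one fixed linear map. -/

namespace Vale.Agent.Lib.P084

open Set Metric Filter Topology Module

section Glue

variable {X Y : Type*} [NormedAddCommGroup X] [NormedSpace ℝ X] [NormedAddCommGroup Y]
  [NormedSpace ℝ Y]

/-- A patch of touching points. -/
structure Patch (g : X → Y) (F : Set X) (c₁ C₁ : ℝ) : Prop where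
  c_pos : 0 < c₁
  C_pos : 0 < C₁
  unit : ∀ x ∈ F, ‖x‖ = 1
  small : ∀ x ∈ F, ∀ y ∈ F, ‖x - y‖ < 1
  low : ∀ x ∈ F, ∀ y ∈ F, c₁ * ‖y - x‖ ^ 2 ≤ 1 - chi x y
  rate : ∀ x ∈ F, ∀ y ∈ F, ‖chi y - chi x‖ ≤ C₁ * ‖y - x‖
  dir : ∀ x ∈ F, ∀ u, chi x u = 0 → ∀ ε : ℝ, 0 < ε → ∃ t : ℝ, 0 < t ∧ t < ε ∧ ∃ y ∈ F,
    ‖y - (x + t • u)‖ ≤ ε * t
  nd : ∀ x ∈ F, ∀ y ∈ F, ∀ d, chi x d = 0 → chi y d = 0 → dT g x d = dT g y d

variable {g : X → Y} {F : Set X} {c₁ C₁ : ℝ}

lemma exists_kernel [FiniteDimensional ℝ X] (hdim : finrank ℝ X = 3) (φ₁ φ₂ : X →L[ℝ] ℝ) :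
    ∃ w : X, ‖w‖ = 1 ∧ φ₁ w = 0 ∧ φ₂ w = 0 := by
  have h1 : LinearMap.ker ((φ₁ : X →ₗ[ℝ] ℝ).prod (φ₂ : X →ₗ[ℝ] ℝ)) ≠ ⊥ := by
    apply LinearMap.ker_ne_bot_of_finrank_lt
    rw [hdim]
    simp
  obtain ⟨v, hv, hv0⟩ := Submodule.exists_mem_ne_zero_of_ne_bot h1
  rw [LinearMap.mem_ker] at hv
  have h2 : φ₁ v = 0 := congrArg Prod.fst hv
  have h3 : φ₂ v = 0 := congrArg Prod.snd hv
  refine ⟨‖v‖⁻¹ • v, unit_of_ne hv0, ?_, ?_⟩
  · rw [map_smul, h2, smul_zero]
  · rw [map_smul, h3, smul_zero]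

lemma exists_dual_pair [StrictConvexSpace ℝ X] {x y : X} (hx : ‖x‖ = 1) (hy : ‖y‖ = 1) (dx : Dn x)
    (dy : Dn y) (hne : x ≠ y) (hne' : x ≠ -y) : ∃ e : X, chi x e = 1 ∧ chi y e = 0 := by
  have h1 := abs_chi_lt_one hy hx dy hne (by exact hne')
  have h2 := abs_chi_lt_one hx hy dx (fun e => hne e.symm) (fun e => hne' (by rw [e, neg_neg]))
  have hxx : chi x x = 1 := by rw [dx.chi_self, hx]
  have hyy : chi y y = 1 := by rw [dy.chi_self, hy]
  have hp : chi y x * chi x y < 1 := by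
    have h7 : |chi y x * chi x y| < 1 := by
      rw [abs_mul]
      nlinarith [abs_nonneg (chi y x), abs_nonneg (chi x y)]
    exact (abs_lt.1 h7).2
  have hq : 1 - chi y x * chi x y ≠ 0 := by linarith
  refine ⟨(1 - chi y x * chi x y)⁻¹ • (x - chi y x • y), ?_, ?_⟩
  · rw [map_smul, map_sub, map_smul, hxx, smul_eq_mul, smul_eq_mul]
    exact inv_mul_cancel₀ hq
  · rw [map_smul, map_sub, map_smul, hyy, smul_eq_mul, smul_eq_mul, mul_one, sub_self, mul_zero]

namespace Patch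

lemma dn (C : ∀ z : X, z ≠ 0 → Dn z) (P : Patch g F c₁ C₁) {x : X} (hx : x ∈ F) : Dn x :=
  C x (ne0_of_unit x (P.unit x hx))

lemma chi_self (C : ∀ z : X, z ≠ 0 → Dn z) (P : Patch g F c₁ C₁) {x : X} (hx : x ∈ F) :
    chi x x = 1 := by
  rw [(P.dn C hx).chi_self, P.unit x hx]

lemma ang (C : ∀ z : X, z ≠ 0 → Dn z) (P : Patch g F c₁ C₁) {x y : X} (hx : x ∈ F) (hy : y ∈ F) :
    2 * c₁ * ‖y - x‖ ^ 2 ≤ (chi y - chi x) (y - x) := by
  have h1 := P.low x hx y hy
  have h2 := P.low y hy x hx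
  rw [norm_sub_rev] at h2
  rw [_root_.sub_apply, map_sub, map_sub, P.chi_self C hx, P.chi_self C hy]
  linarith

lemma exists_ne [FiniteDimensional ℝ X] (hdim : finrank ℝ X = 3) (P : Patch g F c₁ C₁) {x : X}
    (hx : x ∈ F) {δ : ℝ} (hδ : 0 < δ) : ∃ y ∈ F, y ≠ x ∧ ‖y - x‖ < δ := by
  obtain ⟨w, hw, hw1, -⟩ := exists_kernel hdim (chi x) (chi x)
  obtain ⟨t, ht, htε, y, hy, hyd⟩ := P.dir x hx w hw1 (min (1 / 2) (δ / 2)) (by positivity)
  have hε1 : min (1 / 2) (δ / 2) ≤ 1 / 2 := min_le_left _ _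
  have hε2 : min (1 / 2) (δ / 2) ≤ δ / 2 := min_le_right _ _
  have hyd' : ‖y - (x + t • w)‖ ≤ 1 / 2 * t := hyd.trans (mul_le_mul_of_nonneg_right hε1 ht.le)
  have htw : ‖t • w‖ = t := by rw [norm_smul, hw, mul_one, Real.norm_of_nonneg ht.le]
  refine ⟨y, hy, ?_, ?_⟩
  · rintro rfl
    have e : y - (y + t • w) = -(t • w) := by abel
    rw [e, norm_neg, htw] at hyd'
    linarith
  · have e : y - x = (y - (x + t • w)) + t • w := by abel
    rw [e]
    refine (norm_add_le _ _).trans_lt ?_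
    rw [htw]
    linarith

lemma exists_separating (C : ∀ z : X, z ≠ 0 → Dn z) (P : Patch g F c₁ C₁) {x w : X} (hx : x ∈ F)
    (hw : ‖w‖ = 1) (hw0 : chi x w = 0) : ∃ z ∈ F, chi z w ≠ 0 := by
  by_contra hcon
  push Not at hcon
  have hc := P.c_pos
  have hC := P.C_pos
  obtain ⟨t, ht, -, z, hz, hzd⟩ := P.dir x hx w hw0 (min (1 / 2) (c₁ / (2 * C₁))) (by positivity)
  have hε1 : min (1 / 2) (c₁ / (2 * C₁)) ≤ 1 / 2 := min_le_left _ _
  have hε2 : min (1 / 2) (c₁ / (2 * C₁)) ≤ c₁ / (2 * C₁) := min_le_right _ _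
  obtain ⟨ε, hε⟩ : ∃ ε, ε = min (1 / 2) (c₁ / (2 * C₁)) := ⟨_, rfl⟩
  rw [← hε] at hε1 hε2 hzd
  have hε0 : 0 < ε := by
    rw [hε]
    positivity
  have htw : ‖t • w‖ = t := by rw [norm_smul, hw, mul_one, Real.norm_of_nonneg ht.le]
  have hτ : t / 2 ≤ ‖z - x‖ := by
    have e : t • w = (z - x) - (z - (x + t • w)) := by abel
    have h1 : t ≤ ‖z - x‖ + ε * t := by
      calc t = ‖t • w‖ := htw.symm
        _ = ‖(z - x) - (z - (x + t • w))‖ := congrArg norm e
        _ ≤ ‖z - x‖ + ‖z - (x + t • w)‖ := norm_sub_le _ _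
        _ ≤ ‖z - x‖ + ε * t := by linarith
    nlinarith
  have h1 := P.ang C hx hz
  have e2 : (chi z - chi x) (z - x) = t * (chi z - chi x) w + (chi z - chi x) (z - (x + t • w)) := by
    have : z - x = t • w + (z - (x + t • w)) := by abel
    rw [this, map_add, map_smul, smul_eq_mul]
  rw [e2, _root_.sub_apply, hcon z hz, hw0, sub_zero, mul_zero, zero_add] at h1
  have h3 := (chi z - chi x).le_opNorm (z - (x + t • w))
  rw [Real.norm_eq_abs] at h3
  have h4 := P.rate x hx z hz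
  have h5 : 2 * c₁ * ‖z - x‖ ^ 2 ≤ C₁ * ‖z - x‖ * (ε * t) := by
    refine h1.trans ((le_abs_self _).trans (h3.trans ?_))
    exact mul_le_mul h4 hzd (norm_nonneg _) (by positivity)
  have hpos : 0 < ‖z - x‖ := by linarith [half_pos ht]
  have h6 : 2 * c₁ * ‖z - x‖ ≤ C₁ * (ε * t) := by
    have : ‖z - x‖ * (2 * c₁ * ‖z - x‖) ≤ ‖z - x‖ * (C₁ * (ε * t)) := by nlinarith
    exact le_of_mul_le_mul_left this hpos
  have h7 : C₁ * ε ≤ c₁ / 2 := by
    have := mul_le_mul_of_nonneg_left hε2 hC.le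
    have e3 : C₁ * (c₁ / (2 * C₁)) = c₁ / 2 := by
      field_simp
    linarith
  have h8 : C₁ * (ε * t) ≤ c₁ / 2 * t := by
    have := mul_le_mul_of_nonneg_right h7 ht.le
    linarith
  nlinarith

section Frame

variable [FiniteDimensional ℝ X] [StrictConvexSpace ℝ X]

/-- A frame of three independent derivatives of the norm on the patch, with its dual basis. -/
lemma exists_frame (C : ∀ z : X, z ≠ 0 → Dn z) (hdim : finrank ℝ X = 3) (P : Patch g F c₁ C₁)
    {x : X} (hx : x ∈ F) : ∃ y ∈ F, ∃ z ∈ F, ∃ e₁ e₂ e₃ : X,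
      chi x e₁ = 1 ∧ chi y e₁ = 0 ∧ chi z e₁ = 0 ∧ chi x e₂ = 0 ∧ chi y e₂ = 1 ∧ chi z e₂ = 0 ∧
      chi x e₃ = 0 ∧ chi y e₃ = 0 ∧ chi z e₃ = 1 := by
  obtain ⟨y, hy, hne, -⟩ := P.exists_ne hdim hx one_pos
  have hxu := P.unit x hx
  have hyu := P.unit y hy
  have hne' : y ≠ -x := by
    intro e
    have h1 := P.small y hy x hx
    rw [e, ← norm_neg, neg_sub, sub_neg_eq_add, ← two_smul ℝ, norm_smul, hxu] at h1
    norm_num at h1
  have hne'' : x ≠ -y := fun e => hne' (by rw [e, neg_neg])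
  obtain ⟨a, ha1, ha2⟩ := exists_dual_pair hxu hyu (P.dn C hx) (P.dn C hy) hne.symm hne''
  obtain ⟨b, hb1, hb2⟩ := exists_dual_pair hyu hxu (P.dn C hy) (P.dn C hx) hne hne'
  obtain ⟨w, hw, hw1, hw2⟩ := exists_kernel hdim (chi x) (chi y)
  obtain ⟨z, hz, hzw⟩ := P.exists_separating C hx hw hw1
  refine ⟨y, hy, z, hz, a - chi z a • ((chi z w)⁻¹ • w), b - chi z b • ((chi z w)⁻¹ • w),
    (chi z w)⁻¹ • w, ?_⟩
  have e1 : chi x ((chi z w)⁻¹ • w) = 0 := by rw [map_smul, hw1, smul_zero]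
  have e2 : chi y ((chi z w)⁻¹ • w) = 0 := by rw [map_smul, hw2, smul_zero]
  have e3 : chi z ((chi z w)⁻¹ • w) = 1 := by
    rw [map_smul, smul_eq_mul, inv_mul_cancel₀ hzw]
  simp only [map_sub, map_smul, e1, e2, e3, ha1, ha2, hb1, hb2, smul_eq_mul, mul_zero, sub_zero,
    mul_one, sub_self, and_self]

end Frame

lemma add_ne (P : Patch g F c₁ C₁) {x y : X} (hx : x ∈ F) (hy : y ∈ F) : x + y ≠ 0 := by
  intro e
  have e1 : y = -x := (neg_eq_of_add_eq_zero_right e).symm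
  have h1 := P.small x hx y hy
  rw [e1, sub_neg_eq_add, ← two_smul ℝ, norm_smul, P.unit x hx] at h1
  norm_num at h1

variable [FiniteDimensional ℝ X] [StrictConvexSpace ℝ X]

/-- The derivatives of the extension on tangent vectors come from one linear map. -/
lemma exists_tangent_linear (C : ∀ z : X, z ≠ 0 → Dn z) (hdim : finrank ℝ X = 3)
    (P : Patch g F c₁ C₁) {x : X} (hx : x ∈ F) : ∃ L : X →L[ℝ] Y,
      (∀ u ∈ F, ∀ d, chi u d = 0 → dT g u d = L d) ∧ ∀ v, (∀ u ∈ F, chi u v = 0) → v = 0 := by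
  obtain ⟨y, hy, z, hz, e₁, e₂, e₃, x1, y1, z1, x2, y2, z2, x3, y3, z3⟩ := P.exists_frame C hdim hx
  have hind : ∀ α β γ : ℝ, α • e₁ + β • e₂ + γ • e₃ = 0 → α = 0 ∧ β = 0 ∧ γ = 0 := by
    intro α β γ h0
    have h1 := congrArg (chi x) h0
    have h2 := congrArg (chi y) h0
    have h3 := congrArg (chi z) h0
    simp only [map_add, map_smul, smul_eq_mul, map_zero, x1, x2, x3, y1, y2, y3, z1, z2, z3, mul_one,
      mul_zero, add_zero, zero_add] at h1 h2 h3
    exact ⟨h1, h2, h3⟩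
  have hspan : ∀ v, v = chi x v • e₁ + chi y v • e₂ + chi z v • e₃ := by
    intro v
    obtain ⟨α, β, γ, hv⟩ := three_span hdim hind v
    have h1 := congrArg (chi x) hv
    have h2 := congrArg (chi y) hv
    have h3 := congrArg (chi z) hv
    simp only [map_add, map_smul, smul_eq_mul, x1, x2, x3, y1, y2, y3, z1, z2, z3, mul_one,
      mul_zero, add_zero, zero_add] at h1 h2 h3
    rw [h1, h2, h3]
    exact hv
  obtain ⟨L, hL⟩ : ∃ L : X →L[ℝ] Y, L = (chi x).smulRight (dT g y e₁) +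
      (chi y).smulRight (dT g x e₂) + (chi z).smulRight (dT g x e₃) := ⟨_, rfl⟩
  have L1 : L e₁ = dT g y e₁ := by
    rw [hL]
    simp [x1, y1, z1]
  have L2 : L e₂ = dT g x e₂ := by
    rw [hL]
    simp [x2, y2, z2]
  have L3 : L e₃ = dT g x e₃ := by
    rw [hL]
    simp [x3, y3, z3]
  have nd1 : dT g z e₁ = dT g y e₁ := P.nd z hz y hy e₁ z1 y1
  have nd2 : dT g z e₂ = dT g x e₂ := P.nd z hz x hx e₂ z2 x2
  have nd3 : dT g y e₃ = dT g x e₃ := P.nd y hy x hx e₃ y3 x3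
  refine ⟨L, ?_, ?_⟩
  · intro u hu d hd
    obtain ⟨α, hα⟩ : ∃ α, α = chi u e₁ := ⟨_, rfl⟩
    obtain ⟨β, hβ⟩ : ∃ β, β = chi u e₂ := ⟨_, rfl⟩
    obtain ⟨γ, hγ⟩ : ∃ γ, γ = chi u e₃ := ⟨_, rfl⟩
    obtain ⟨d₁, hd₁⟩ : ∃ d₁, d₁ = chi x d := ⟨_, rfl⟩
    obtain ⟨d₂, hd₂⟩ : ∃ d₂, d₂ = chi y d := ⟨_, rfl⟩
    obtain ⟨d₃, hd₃⟩ : ∃ d₃, d₃ = chi z d := ⟨_, rfl⟩
    have hdd : d = d₁ • e₁ + d₂ • e₂ + d₃ • e₃ := by
      rw [hd₁, hd₂, hd₃]
      exact hspan d
    have hsum : α * d₁ + β * d₂ + γ * d₃ = 0 := by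
      rw [← hd, hdd]
      simp only [map_add, map_smul, smul_eq_mul, hα, hβ, hγ]
      ring
    have fx : dT g u (γ • e₂ - β • e₃) = L (γ • e₂ - β • e₃) := by
      rw [P.nd u hu x hx _ (by simp only [map_sub, map_smul, smul_eq_mul, ← hα, ← hβ, ← hγ]; ring)
        (by simp only [map_sub, map_smul, smul_eq_mul, x2, x3]; ring)]
      simp only [map_sub, map_smul, L2, L3]
    have fy : dT g u (γ • e₁ - α • e₃) = L (γ • e₁ - α • e₃) := by
      rw [P.nd u hu y hy _ (by simp only [map_sub, map_smul, smul_eq_mul, ← hα, ← hβ, ← hγ]; ring)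
        (by simp only [map_sub, map_smul, smul_eq_mul, y1, y3]; ring)]
      simp only [map_sub, map_smul, L1, L3, nd3]
    have fz : dT g u (β • e₁ - α • e₂) = L (β • e₁ - α • e₂) := by
      rw [P.nd u hu z hz _ (by simp only [map_sub, map_smul, smul_eq_mul, ← hα, ← hβ, ← hγ]; ring)
        (by simp only [map_sub, map_smul, smul_eq_mul, z1, z2]; ring)]
      simp only [map_sub, map_smul, L1, L2, nd1, nd2]
    have i1 : γ • d = d₁ • (γ • e₁ - α • e₃) + d₂ • (γ • e₂ - β • e₃) := by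
      rw [hdd]
      linear_combination (norm := module) hsum • e₃
    have i2 : β • d = d₁ • (β • e₁ - α • e₂) - d₃ • (γ • e₂ - β • e₃) := by
      rw [hdd]
      linear_combination (norm := module) hsum • e₂
    have i3 : α • d = -(d₂ • (β • e₁ - α • e₂)) - d₃ • (γ • e₁ - α • e₃) := by
      rw [hdd]
      linear_combination (norm := module) hsum • e₁
    have hu1 : chi u u = 1 := P.chi_self C hu
    have hall : α ≠ 0 ∨ β ≠ 0 ∨ γ ≠ 0 := by
      by_contra hcon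
      push Not at hcon
      obtain ⟨h1, h2, h3⟩ := hcon
      have h4 := congrArg (chi u) (hspan u)
      simp only [map_add, map_smul, smul_eq_mul, ← hα, ← hβ, ← hγ, h1, h2, h3, hu1, mul_zero,
        add_zero] at h4
      exact one_ne_zero h4
    rcases hall with h0 | h0 | h0
    · refine smul_right_injective _ h0 ?_
      simp only
      rw [← map_smul, ← map_smul, i3]
      simp only [map_sub, map_neg, map_smul, fy, fz]
    · refine smul_right_injective _ h0 ?_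
      simp only
      rw [← map_smul, ← map_smul, i2]
      simp only [map_sub, map_smul, fx, fz]
    · refine smul_right_injective _ h0 ?_
      simp only
      rw [← map_smul, ← map_smul, i1]
      simp only [map_add, map_smul, fx, fy]
  · intro v hv
    rw [hspan v, hv x hx, hv y hy, hv z hz]
    simp

end Patch

lemma glue_numeric {c₁ C₁ W ε t τ : ℝ} (hc : 0 < c₁) (hW : 0 < W) (ht : 0 < t) (hτp : 0 < τ)
    (hτ : t * W / 2 ≤ τ) (h10 : 2 * c₁ * τ ^ 2 ≤ t * (C₁ * τ ^ 2) + C₁ * τ * (ε * t))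
    (h13 : t * C₁ ≤ c₁) (h17 : C₁ * ε ≤ c₁ * W / 4) : False := by
  have h15 : 2 * c₁ * τ ≤ t * C₁ * τ + C₁ * ε * t := by
    have e : τ * (2 * c₁ * τ) ≤ τ * (t * C₁ * τ + C₁ * ε * t) := by
      have e1 : τ * (2 * c₁ * τ) = 2 * c₁ * τ ^ 2 := by ring
      have e2 : τ * (t * C₁ * τ + C₁ * ε * t) = t * (C₁ * τ ^ 2) + C₁ * τ * (ε * t) := by ring
      rw [e1, e2]
      exact h10
    exact le_of_mul_le_mul_left e hτp
  have h16 := mul_le_mul_of_nonneg_right h13 hτp.le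
  have h19 := mul_le_mul_of_nonneg_left hτ hc.le
  have h21 := mul_le_mul_of_nonneg_right h17 ht.le
  have h22 : 0 < c₁ * W * t := by positivity
  linarith

section Chords

variable [FiniteDimensional ℝ X] [Nontrivial X] [StrictConvexSpace ℝ X]
  {h : Y → X} {L : X →L[ℝ] Y}

lemma Patch.chi_L_add (C : C1Ctx g h) (P : Patch g F c₁ C₁)
    (hL : ∀ u ∈ F, ∀ d, chi u d = 0 → dT g u d = L d) {x y : X} (hx : x ∈ F) (hy : y ∈ F)
    (hne : x ≠ y) (v : X) : chi (g x + g y) (L v) = chi (x + y) v := by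
  have hxu := P.unit x hx
  have hyu := P.unit y hy
  have hne'' : x ≠ -y := fun e => P.add_ne hx hy (by rw [e, neg_add_cancel])
  obtain ⟨e, he1, he2⟩ := exists_dual_pair hxu hyu (P.dn C.dnX hx) (P.dn C.dnX hy) hne hne''
  have h1 : chi x (v - chi x v • e) = 0 := by
    rw [map_sub, map_smul, he1, smul_eq_mul, mul_one, sub_self]
  have h2 : chi y (chi x v • e) = 0 := by
    rw [map_smul, he2, smul_zero]
  have h3 := C.chord_add hxu hyu (P.add_ne hx hy) h1
  have h4 := C.chord_add' hxu hyu (P.add_ne hx hy) h2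
  rw [hL x hx _ h1] at h3
  rw [hL y hy _ h2] at h4
  have e1 : v = (v - chi x v • e) + chi x v • e := by abel
  rw [e1, map_add, map_add, h3, h4, map_add]

/-- The limit of the chord relation. -/
lemma Patch.chi_L_self (C : C1Ctx g h) (hdim : finrank ℝ X = 3) (P : Patch g F c₁ C₁)
    (hL : ∀ u ∈ F, ∀ d, chi u d = 0 → dT g u d = L d) {x : X} (hx : x ∈ F) (v : X) :
    chi (g x) (L v) = chi x v := by
  have hseq := fun n : ℕ => P.exists_ne hdim hx (δ := 1 / ((n : ℝ) + 1)) (by positivity)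
  choose y hy hne hlt using hseq
  have hxu := P.unit x hx
  have hlim : Tendsto y atTop (𝓝 x) := by
    rw [tendsto_iff_norm_sub_tendsto_zero]
    exact squeeze_zero (fun _ => norm_nonneg _) (fun n => (hlt n).le)
      tendsto_one_div_add_atTop_nhds_zero_nat
  have hg := C.tendsto_g (fun n => P.unit _ (hy n)) hxu hlim
  have hs1 : Tendsto (fun n => g x + g (y n)) atTop (𝓝 (g x + g x)) := tendsto_const_nhds.add hg
  have hs2 : Tendsto (fun n => x + y n) atTop (𝓝 (x + x)) := tendsto_const_nhds.add hlim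
  have hp : ‖g x‖ = 1 := C.iso.map_g x hxu
  have h0 : g x + g x ≠ 0 := by
    rw [← two_smul ℝ]
    exact smul_ne_zero two_ne_zero (ne0_of_unit _ hp)
  have h0' : x + x ≠ 0 := by
    rw [← two_smul ℝ]
    exact smul_ne_zero two_ne_zero (ne0_of_unit _ hxu)
  have t1 := tendsto_clm_apply (chi_tendsto C.dnY h0 hs1) (tendsto_const_nhds (x := L v))
  have t2 := tendsto_clm_apply (chi_tendsto C.dnX h0' hs2) (tendsto_const_nhds (x := v))
  have e1 : chi (g x + g x) = chi (g x) := by rw [← two_smul ℝ, chi_smul two_pos]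
  have e2 : chi (x + x) = chi x := by rw [← two_smul ℝ, chi_smul two_pos]
  rw [e1] at t1
  rw [e2] at t2
  refine tendsto_nhds_unique t1 (t2.congr fun n => ?_)
  exact (P.chi_L_add C hL hx (hy n) (hne n).symm v).symm

lemma Patch.L_injective (C : C1Ctx g h) (hdim : finrank ℝ X = 3) (P : Patch g F c₁ C₁)
    (hL : ∀ u ∈ F, ∀ d, chi u d = 0 → dT g u d = L d)
    (hsep : ∀ v, (∀ u ∈ F, chi u v = 0) → v = 0) : Function.Injective L := by
  rw [injective_iff_map_eq_zero]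
  intro v hv
  refine hsep v fun u hu => ?_
  rw [← P.chi_L_self C hdim hL hu v, hv, map_zero]

/-- On the patch, the linear map agrees with the sphere map. -/
lemma Patch.L_eq_g (C : C1Ctx g h) (hdim : finrank ℝ X = 3) (P : Patch g F c₁ C₁)
    (hL : ∀ u ∈ F, ∀ d, chi u d = 0 → dT g u d = L d) (hsurj : Function.Surjective L)
    {x : X} (hx : x ∈ F) : L x = g x := by
  obtain ⟨x', hx'⟩ := hsurj (g x)
  have hxu := P.unit x hx
  have hgx : ‖g x‖ = 1 := C.iso.map_g x hxu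
  have hxx := P.chi_self C.dnX hx
  have h1 : chi x x' = 1 := by
    rw [← P.chi_L_self C hdim hL hx x', hx', (C.dnY _ (ne0_of_unit _ hgx)).chi_self, hgx]
  obtain ⟨w, hw⟩ : ∃ w, w = x' - x := ⟨_, rfl⟩
  have hw0 : chi x w = 0 := by
    rw [hw, map_sub, h1, hxx, sub_self]
  by_cases hw1 : w = 0
  · rw [hw, sub_eq_zero] at hw1
    calc L x = L x' := by rw [hw1]
      _ = g x := hx'
  exfalso
  have hc := P.c_pos
  have hCp := P.C_pos
  obtain ⟨W, hWd⟩ : ∃ W, W = ‖w‖ := ⟨_, rfl⟩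
  have hWp : 0 < W := by
    rw [hWd]
    exact norm_pos_iff.2 hw1
  obtain ⟨ε, hε⟩ : ∃ ε, ε = min (W / 2) (min (c₁ / C₁) (c₁ * W / (4 * C₁))) := ⟨_, rfl⟩
  have hε0 : 0 < ε := by
    rw [hε]
    positivity
  have hε1 : ε ≤ W / 2 := by
    rw [hε]
    exact min_le_left _ _
  have hε2 : ε ≤ c₁ / C₁ := by
    rw [hε]
    exact (min_le_right _ _).trans (min_le_left _ _)
  have hε3 : ε ≤ c₁ * W / (4 * C₁) := by
    rw [hε]
    exact (min_le_right _ _).trans (min_le_right _ _)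
  obtain ⟨t, ht, htε, y, hy, hyd⟩ := P.dir x hx w hw0 ε hε0
  have htw : ‖t • w‖ = t * W := by rw [norm_smul, Real.norm_of_nonneg ht.le, hWd]
  have hτ : t * W / 2 ≤ ‖y - x‖ := by
    have e : t • w = (y - x) - (y - (x + t • w)) := by abel
    have h2 : t * W ≤ ‖y - x‖ + ε * t := by
      calc t * W = ‖t • w‖ := htw.symm
        _ = ‖(y - x) - (y - (x + t • w))‖ := congrArg norm e
        _ ≤ ‖y - x‖ + ‖y - (x + t • w)‖ := norm_sub_le _ _
        _ ≤ ‖y - x‖ + ε * t := by linarith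
    have h2' := mul_le_mul_of_nonneg_right hε1 ht.le
    linarith
  have hτp : 0 < ‖y - x‖ := by
    have : 0 < t * W / 2 := by positivity
    linarith
  obtain ⟨τ, hτd⟩ : ∃ τ, τ = ‖y - x‖ := ⟨_, rfl⟩
  rw [← hτd] at hτ hτp
  -- the identity for the derivative
  have hyu := P.unit y hy
  have hgy : ‖g y‖ = 1 := C.iso.map_g y hyu
  have hyy := P.chi_self C.dnX hy
  have h3 : chi y x' = chi (g y) (g x) := by
    rw [← P.chi_L_self C hdim hL hy x', hx']
  have h4 : chi (g y) (g x) ≤ 1 := by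
    have := chi_le (g y) (g x)
    rwa [hgx] at this
  have hrate := P.rate x hx y hy
  rw [← hτd] at hrate
  have hang := P.ang C.dnX hx hy
  rw [← hτd] at hang
  -- the pairing with the chord
  have hbd : ∀ v : X, (chi y - chi x) v ≤ C₁ * τ * ‖v‖ := by
    intro v
    have h5 := (chi y - chi x).le_opNorm v
    rw [Real.norm_eq_abs] at h5
    refine (le_abs_self _).trans (h5.trans ?_)
    exact mul_le_mul_of_nonneg_right hrate (norm_nonneg _)
  have h6 : (chi y - chi x) w ≤ C₁ * τ ^ 2 := by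
    have e1 : (chi y - chi x) w = chi (g y) (g x) - chi y x := by
      rw [hw, map_sub, _root_.sub_apply, _root_.sub_apply, h3, h1, hxx]
      ring
    rw [e1]
    have h7 := hbd (y - x)
    rw [← hτd] at h7
    have e2 : (chi y - chi x) (y - x) = 1 - chi y x - chi x y + 1 := by
      rw [_root_.sub_apply, map_sub, map_sub, hyy, hxx]
      ring
    have h8 := chi_le x y
    rw [hyu] at h8
    rw [e2] at h7
    have e5 : C₁ * τ * τ = C₁ * τ ^ 2 := by ring
    linarith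
  have e3 : (chi y - chi x) (y - x) = t * (chi y - chi x) w + (chi y - chi x) (y - (x + t • w)) := by
    have : y - x = t • w + (y - (x + t • w)) := by abel
    rw [this, map_add, map_smul, smul_eq_mul]
  rw [e3] at hang
  have h9 := hbd (y - (x + t • w))
  have h10 : 2 * c₁ * τ ^ 2 ≤ t * (C₁ * τ ^ 2) + C₁ * τ * (ε * t) := by
    have h11 : t * (chi y - chi x) w ≤ t * (C₁ * τ ^ 2) := mul_le_mul_of_nonneg_left h6 ht.le
    have h12 : C₁ * τ * ‖y - (x + t • w)‖ ≤ C₁ * τ * (ε * t) :=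
      mul_le_mul_of_nonneg_left hyd (by positivity)
    linarith
  have h13 : t * C₁ ≤ c₁ := by
    have h14 : t ≤ c₁ / C₁ := htε.le.trans hε2
    rw [le_div_iff₀ hCp] at h14
    exact h14
  have h17 : C₁ * ε ≤ c₁ * W / 4 := by
    have h18 := mul_le_mul_of_nonneg_left hε3 hCp.le
    have e4 : C₁ * (c₁ * W / (4 * C₁)) = c₁ * W / 4 := by
      field_simp
    linarith
  exact glue_numeric hc hWp ht hτp hτ h10 h13 h17

/-- **Gluing.**  The derivative of the extension is constant on a patch. -/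
theorem Patch.exists_linear [FiniteDimensional ℝ Y] (C : C1Ctx g h) (hdim : finrank ℝ X = 3)
    (hdimY : finrank ℝ Y = 3) (P : Patch g F c₁ C₁) {x : X} (hx : x ∈ F) :
    ∃ L : X →L[ℝ] Y, ∀ u ∈ F, dT g u = L := by
  obtain ⟨L, hL, hsep⟩ := P.exists_tangent_linear C.dnX hdim hx
  have hinj := P.L_injective C hdim hL hsep
  have hsurj : Function.Surjective L :=
    (LinearMap.injective_iff_surjective_of_finrank_eq_finrank (f := (L : X →ₗ[ℝ] Y))
      (by rw [hdim, hdimY])).1 hinj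
  refine ⟨L, fun u hu => ?_⟩
  ext v
  have hu1 := P.chi_self C.dnX hu
  have h1 : chi u (v - chi u v • u) = 0 := by
    rw [map_sub, map_smul, hu1, smul_eq_mul, mul_one, sub_self]
  have h2 := hL u hu _ h1
  have h3 : dT g u u = L u := by
    rw [C.dT_unit_self (P.unit u hu), P.L_eq_g C hdim hL hsurj hu]
  have e1 : v = (v - chi u v • u) + chi u v • u := by abel
  rw [e1, map_add, map_add, h2, map_smul, map_smul, h3]

end Chords

end Glue

end Vale.Agent.Lib.P084
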