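import Mathlib
import Vale.Agent.Lib.P084.Corner.Glue
import Vale.Agent.Lib.P084.Corner.Main

/-! From a constant derivative on a set with a density point to a linear map on an open patch of
the sphere. -/

namespace Vale.Agent.Lib.P084

open Set Metric Filter Topology MeasureTheory Module
open scoped NNReal ENNReal

section Step

variable {X Y : Type*} [NormedAddCommGroup X] [NormedSpace ℝ X] [NormedAddCommGroup Y]
  [NormedSpace ℝ Y]

variable {g : X → Y} {h : Y → X}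

/-- One step: two points of the constant derivative set determine the sphere map at the point from
which the chord starts. -/
lemma C1Ctx.patch_step [FiniteDimensional ℝ X] [Nontrivial X] [StrictConvexSpace ℝ Y]
    (C : C1Ctx g h) {L : X →L[ℝ] Y}
    (hs : Function.Surjective L) {x y w' : X} (hx : ‖x‖ = 1) (hy : ‖y‖ = 1)
    (hw' : w' = ‖x - y‖⁻¹ • (x - y)) (hne : x ≠ y) (hLx : dT g x = L) (hLw : dT g w' = L)
    (hsmall : ‖x + y‖ < 1) (hξ : ‖chi (g w') - chi (g x)‖ < 1 / 2) : L y = g y := by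
  have hsub : x - y ≠ 0 := sub_ne_zero.2 hne
  have hnp : 0 < ‖x - y‖ := norm_pos_iff.2 hsub
  have hwu : ‖w'‖ = 1 := by
    rw [hw']
    exact unit_of_ne hsub
  have hx0 := ne0_of_unit x hx
  have hw0 := ne0_of_unit w' hwu
  have hpu : ‖g x‖ = 1 := C.iso.map_g x hx
  have hqu : ‖g y‖ = 1 := C.iso.map_g y hy
  have huu : ‖g w'‖ = 1 := C.iso.map_g w' hwu
  have hiso := C.iso.iso x y hx hy
  have hsub' : g x - g y ≠ 0 := by
    rw [← norm_pos_iff, hiso]
    exact hnp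
  have dη := C.dnY _ hsub'
  have dζ := C.dnX _ hsub
  obtain ⟨e, he⟩ : ∃ e, e = chi (g x - g y) (g x) - chi (x - y) x := ⟨_, rfl⟩
  have h1 : ∀ v, chi (g x - g y) (L v) = chi (x - y) v + e * chi x v := by
    intro v
    have := chord_full C.iso hx hy (C.dnX x hx0) (C.hasFDerivAt hx0) dζ dη v
    rwa [hLx, ← he] at this
  have h2 : ∀ v, chi (g w') (L v) = chi (x - y) v := by
    intro v
    have := C.chi_dT hw0 v
    rw [radial_of_unit g hwu, hLw] at this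
    rw [this, hw', chi_unit hsub]
  have h3 : ∀ v, chi (g x) (L v) = chi x v := by
    intro v
    have := C.chi_dT hx0 v
    rwa [radial_of_unit g hx, hLx] at this
  have hη : chi (g x - g y) = chi (g w') + e • chi (g x) := by
    ext w
    obtain ⟨v, rfl⟩ := hs w
    rw [_root_.add_apply, _root_.smul_apply, h1, h2, h3, smul_eq_mul]
  -- the size of the coefficient
  have hadd : ‖g x + g y‖ = ‖x + y‖ := by
    have := C.iso.iso x (-y) hx (by rwa [norm_neg])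
    rwa [sphere_odd C.iso hy, sub_neg_eq_add, sub_neg_eq_add] at this
  have he1 : |e| ≤ ‖x + y‖ := by
    have e1 : g x = (1 / 2 : ℝ) • (g x - g y) + (1 / 2 : ℝ) • (g x + g y) := by module
    have e2 : x = (1 / 2 : ℝ) • (x - y) + (1 / 2 : ℝ) • (x + y) := by module
    have e3 : chi (g x - g y) (g x) = (1 / 2) * ‖x - y‖ + (1 / 2) * chi (g x - g y) (g x + g y) := by
      have e0 := congrArg (chi (g x - g y)) e1
      rw [map_add, map_smul, map_smul, dη.chi_self, hiso, smul_eq_mul, smul_eq_mul] at e0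
      exact e0
    have e4 : chi (x - y) x = (1 / 2) * ‖x - y‖ + (1 / 2) * chi (x - y) (x + y) := by
      have e0 := congrArg (chi (x - y)) e2
      rw [map_add, map_smul, map_smul, dζ.chi_self, smul_eq_mul, smul_eq_mul] at e0
      exact e0
    have a1 := abs_chi_le (g x - g y) (g x + g y)
    have a2 := abs_chi_le (x - y) (x + y)
    rw [hadd] at a1
    rw [he, e3, e4, abs_le]
    have b1 := abs_le.1 a1
    have b2 := abs_le.1 a2
    constructor <;> linarith [b1.1, b1.2, b2.1, b2.2]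
  have he2 : |e| < 1 := he1.trans_lt hsmall
  have he3 := abs_lt.1 he2
  -- evaluation at the unit vector of the patch
  have huv : chi (g w') (g w') = 1 := by
    rw [(C.dnY _ (ne0_of_unit _ huu)).chi_self, huu]
  have hop : ∀ v : Y, ‖v‖ = 1 → |(chi (g w') - chi (g x)) v| ≤ 1 / 2 := by
    intro v hv
    have := (chi (g w') - chi (g x)).le_opNorm v
    rw [hv, mul_one, Real.norm_eq_abs] at this
    exact this.trans hξ.le
  have hξu : 1 / 2 ≤ chi (g x) (g w') := by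
    have a := abs_le.1 (hop _ huu)
    rw [_root_.sub_apply, huv] at a
    linarith [a.2]
  have he4 : e ≤ 0 := by
    have a := chi_le (g x - g y) (g w')
    rw [huu, hη, _root_.add_apply, _root_.smul_apply, huv, smul_eq_mul] at a
    by_contra hpos
    push Not at hpos
    have : 0 < e * chi (g x) (g w') := by positivity
    linarith
  -- the unit chord in the target
  obtain ⟨t, ht⟩ : ∃ t, t = ‖g x - g y‖⁻¹ • (g x - g y) := ⟨_, rfl⟩
  have htu : ‖t‖ = 1 := by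
    rw [ht]
    exact unit_of_ne hsub'
  have hηt : chi (g x - g y) t = 1 := by
    rw [ht, map_smul, dη.chi_self, smul_eq_mul, inv_mul_cancel₀ (norm_ne_zero_iff.2 hsub')]
  have he5 : e = 0 := by
    by_contra hne0
    have hneg : e < 0 := lt_of_le_of_ne he4 hne0
    have a1 := chi_le (g w') t
    have a2 := abs_le.1 (hop t htu)
    rw [htu] at a1
    rw [hη, _root_.add_apply, _root_.smul_apply, smul_eq_mul] at hηt
    rw [_root_.sub_apply] at a2
    have e6 : chi (g w') t + e * chi (g x) t =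
        (1 + e) * chi (g w') t + (-e) * (chi (g w') t - chi (g x) t) := by ring
    rw [e6] at hηt
    have a3 : (1 + e) * chi (g w') t ≤ (1 + e) * 1 :=
      mul_le_mul_of_nonneg_left a1 (by linarith [he3.1])
    have a4 : (-e) * (chi (g w') t - chi (g x) t) ≤ (-e) * (1 / 2) :=
      mul_le_mul_of_nonneg_left a2.2 (by linarith)
    linarith
  have hη2 : chi (g x - g y) = chi (g w') := by
    rw [hη, he5, zero_smul, add_zero]
  have htw : t = g w' := by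
    refine eq_of_chi_eq_one huu htu (C.dnY _ (ne0_of_unit _ huu)) ?_
    rw [← hη2]
    exact hηt
  have hLw1 : L w' = g w' := by
    rw [← hLw]
    exact C.dT_unit_self hwu
  have hLx1 : L x = g x := by
    rw [← hLx]
    exact C.dT_unit_self hx
  have e7 : x - y = ‖x - y‖ • w' := by
    rw [hw', smul_smul, mul_inv_cancel₀ hnp.ne', one_smul]
  have e8 : g x - g y = ‖x - y‖ • g w' := by
    rw [← htw, ht, hiso, smul_smul, mul_inv_cancel₀ hnp.ne', one_smul]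
  have e9 : L (x - y) = g x - g y := by
    calc L (x - y) = L (‖x - y‖ • w') := by rw [← e7]
      _ = ‖x - y‖ • g w' := by rw [map_smul, hLw1]
      _ = g x - g y := e8.symm
  rw [map_sub, hLx1] at e9
  exact sub_right_injective e9

end Step

section Meas

variable {X : Type*} [NormedAddCommGroup X] [NormedSpace ℝ X] [MeasurableSpace X] [BorelSpace X]

/-- A map which is expanding up to a constant does not decrease the measure too much. -/
lemma hausdorff_le_image {Θ : X → X} {S : Set X} {K : ℝ} (hK : 0 ≤ K)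
    (hb : ∀ v ∈ S, ∀ v' ∈ S, ‖v - v'‖ ≤ K * ‖Θ v - Θ v'‖) {d : ℝ} (hd : 0 ≤ d) :
    μH[d] S ≤ ((Real.toNNReal K : ℝ≥0) : ℝ≥0∞) ^ d * μH[d] (Θ '' S) := by
  classical
  have hinj : InjOn Θ S := by
    intro v hv v' hv' e
    have h1 := hb v hv v' hv'
    rw [e, sub_self, norm_zero, mul_zero] at h1
    exact sub_eq_zero.1 (norm_le_zero_iff.1 h1)
  have hleft := hinj.leftInvOn_invFunOn
  obtain ⟨Ψ, hΨ⟩ : ∃ Ψ : X → X, Ψ = Function.invFunOn Θ S := ⟨_, rfl⟩
  rw [← hΨ] at hleft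
  have hlip : LipschitzOnWith (Real.toNNReal K) Ψ (Θ '' S) := by
    refine LipschitzOnWith.of_dist_le_mul ?_
    rintro _ ⟨v, hv, rfl⟩ _ ⟨v', hv', rfl⟩
    rw [hleft hv, hleft hv', dist_eq_norm, dist_eq_norm, Real.coe_toNNReal _ hK]
    exact hb v hv v' hv'
  have himg : Ψ '' (Θ '' S) = S := by
    ext v
    constructor
    · rintro ⟨_, ⟨v', hv', rfl⟩, rfl⟩
      rwa [hleft hv']
    · intro hv
      exact ⟨Θ v, ⟨v, hv, rfl⟩, hleft hv⟩
  have h := hlip.hausdorffMeasure_image_le hd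
  rwa [himg] at h

variable [FiniteDimensional ℝ X] [Nontrivial X]

/-- Density gives pairs of points of the set seen from nearly antipodal unit vectors: the core
inequality. -/
lemma exists_theta_mem {G : Set X} (hGm : MeasurableSet G) {z₂ : X} (hz₂ : z₂ ≠ 0)
    (hd : DensePt μH[(finrank ℝ X : ℝ)] G z₂) {ρ₀ : ℝ} (hρ₀ : 0 < ρ₀) :
    ∃ r > 0, r < ρ₀ ∧ ∃ ρ' > 0, ∀ y : X, ‖y‖ = 1 → ‖y + ‖z₂‖⁻¹ • z₂‖ < ρ' →
      ∃ v ∈ G, ‖v - z₂‖ ≤ r ∧ (1 / 2 : ℝ) • (v - ‖v‖ • y) ∈ G ∧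
        ‖(1 / 2 : ℝ) • (v - ‖v‖ • y) - z₂‖ ≤ 2 * r := by
  classical
  obtain ⟨N, hN⟩ : ∃ N, N = ‖z₂‖ := ⟨_, rfl⟩
  have hNp : 0 < N := by
    rw [hN]
    exact norm_pos_iff.2 hz₂
  obtain ⟨n, hn⟩ : ∃ n, n = finrank ℝ X := ⟨_, rfl⟩
  obtain ⟨κ, hκ⟩ : ∃ κ : ℝ, κ = 1 / (4 * 4 ^ n * 2 ^ n) := ⟨_, rfl⟩
  have hκp : 0 < κ := by
    rw [hκ]
    positivity
  have ev1 := hd.lower μH[(finrank ℝ X : ℝ)] (κ := 1 / 2) (by norm_num)
  have ev2 := hd.compl_le μH[(finrank ℝ X : ℝ)] hGm hκp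
  obtain ⟨u₁, hu₁, hU1⟩ := (mem_nhdsGT_iff_exists_Ioo_subset).1 ev1
  obtain ⟨u₂, hu₂, hU2⟩ := (mem_nhdsGT_iff_exists_Ioo_subset).1 ev2
  have hu₁p : (0 : ℝ) < u₁ := hu₁
  have hu₂p : (0 : ℝ) < u₂ := hu₂
  obtain ⟨r, hr⟩ : ∃ r, r = min (min u₁ (u₂ / 2)) (min (N / 8) ρ₀) / 2 := ⟨_, rfl⟩
  have hmp : 0 < min (min u₁ (u₂ / 2)) (min (N / 8) ρ₀) := by positivity
  have hr0 : 0 < r := by
    rw [hr]
    positivity
  have hrle : r < min (min u₁ (u₂ / 2)) (min (N / 8) ρ₀) := by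
    rw [hr]
    linarith
  have hr1 : r < u₁ := hrle.trans_le ((min_le_left _ _).trans (min_le_left _ _))
  have hr2 : 2 * r < u₂ := by
    have : r < u₂ / 2 := hrle.trans_le ((min_le_left _ _).trans (min_le_right _ _))
    linarith
  have hr3 : r < N / 8 := hrle.trans_le ((min_le_right _ _).trans (min_le_left _ _))
  have hr4 : r < ρ₀ := hrle.trans_le ((min_le_right _ _).trans (min_le_right _ _))
  refine ⟨r, hr0, hr4, min (1 / 2) (2 * r / N), by positivity, fun y hy hyn => ?_⟩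
  by_contra hcon
  push Not at hcon
  have hyn1 : ‖y + ‖z₂‖⁻¹ • z₂‖ < 1 / 2 := hyn.trans_le (min_le_left _ _)
  have hyn2 : ‖y + ‖z₂‖⁻¹ • z₂‖ < 2 * r / N := hyn.trans_le (min_le_right _ _)
  obtain ⟨Θ, hΘ⟩ : ∃ Θ : X → X, Θ = fun v => (1 / 2 : ℝ) • (v - ‖v‖ • y) := ⟨_, rfl⟩
  have hΘlip : ∀ v v', ‖Θ v - Θ v'‖ ≤ ‖v - v'‖ := by
    intro v v'
    have e : Θ v - Θ v' = (1 / 2 : ℝ) • ((v - v') - (‖v‖ - ‖v'‖) • y) := by
      rw [hΘ]
      module
    rw [e, norm_smul, Real.norm_of_nonneg (by norm_num)]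
    have h1 := norm_sub_le (v - v') ((‖v‖ - ‖v'‖) • y)
    rw [norm_smul, hy, mul_one, Real.norm_eq_abs] at h1
    have h2 := abs_norm_sub_norm_le v v'
    linarith
  have hΘz : ‖Θ z₂ - z₂‖ ≤ r := by
    have e : Θ z₂ - z₂ = (-(N / 2)) • (y + ‖z₂‖⁻¹ • z₂) := by
      rw [hΘ]
      simp only
      rw [← hN]
      have e2 : N • (N⁻¹ • z₂) = z₂ := by
        rw [smul_smul, mul_inv_cancel₀ hNp.ne', one_smul]
      calc (1 / 2 : ℝ) • (z₂ - N • y) - z₂ = (-(N / 2)) • y + (-(1 / 2) : ℝ) • z₂ := by module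
        _ = (-(N / 2)) • y + (-(1 / 2) : ℝ) • (N • (N⁻¹ • z₂)) := by rw [e2]
        _ = (-(N / 2)) • (y + N⁻¹ • z₂) := by module
    rw [e, norm_smul, norm_neg, Real.norm_of_nonneg (by positivity)]
    have h1 : N / 2 * ‖y + ‖z₂‖⁻¹ • z₂‖ ≤ N / 2 * (2 * r / N) :=
      mul_le_mul_of_nonneg_left hyn2.le (by positivity)
    have e3 : N / 2 * (2 * r / N) = r := by
      field_simp
    linarith
  have hclose : ∀ v ∈ closedBall z₂ r, ‖Θ v - z₂‖ ≤ 2 * r := by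
    intro v hv
    rw [mem_closedBall, dist_eq_norm] at hv
    have e : Θ v - z₂ = (Θ v - Θ z₂) + (Θ z₂ - z₂) := by abel
    rw [e]
    have h1 := hΘlip v z₂
    have h2 := norm_add_le (Θ v - Θ z₂) (Θ z₂ - z₂)
    linarith
  obtain ⟨S, hS⟩ : ∃ S, S = G ∩ closedBall z₂ r := ⟨_, rfl⟩
  have hnotG : ∀ v ∈ S, Θ v ∉ G := by
    intro v hv hG
    rw [hS] at hv
    have hv2 := hv.2
    have h1 := hclose v hv2
    rw [mem_closedBall, dist_eq_norm] at hv2
    have h2 := hcon v hv.1 hv2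
    rw [hΘ] at h1
    exact absurd h1 (not_le.2 (h2 (by rw [hΘ] at hG; exact hG)))
  have hsub : Θ '' S ⊆ closedBall z₂ (2 * r) \ G := by
    rintro _ ⟨v, hv, rfl⟩
    refine ⟨?_, hnotG v hv⟩
    rw [mem_closedBall, dist_eq_norm]
    rw [hS] at hv
    exact hclose v hv.2
  have hreg : ∀ v ∈ S, v ≠ 0 ∧ ‖y + ‖v‖⁻¹ • v‖ ≤ 2 - 1 := by
    intro v hv
    rw [hS] at hv
    have hv2 := hv.2
    rw [mem_closedBall, dist_eq_norm] at hv2
    have h1 : N - r ≤ ‖v‖ := by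
      have := abs_norm_sub_norm_le z₂ v
      rw [norm_sub_rev] at this
      have h2 := (abs_le.1 this).2
      rw [← hN] at h2
      linarith
    have h2 : N / 2 ≤ ‖v‖ := by linarith
    have hvp : 0 < ‖v‖ := by linarith [half_pos hNp]
    have hv0 : v ≠ 0 := norm_pos_iff.1 hvp
    refine ⟨hv0, ?_⟩
    have h3 := normalize_dist (v₀ := z₂) hv0
    have h4 : 2 * ‖v - z₂‖ / ‖v‖ ≤ 1 / 2 := by
      rw [div_le_iff₀ hvp]
      linarith
    have e : y + ‖v‖⁻¹ • v = (y + ‖z₂‖⁻¹ • z₂) + (‖v‖⁻¹ • v - ‖z₂‖⁻¹ • z₂) := by abel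
    rw [e]
    have h5 := norm_add_le (y + ‖z₂‖⁻¹ • z₂) (‖v‖⁻¹ • v - ‖z₂‖⁻¹ • z₂)
    linarith
  have hb : ∀ v ∈ S, ∀ v' ∈ S, ‖v - v'‖ ≤ 4 * ‖Θ v - Θ v'‖ := by
    intro v hv v' hv'
    obtain ⟨h1, h2⟩ := hreg v hv
    obtain ⟨h3, h4⟩ := hreg v' hv'
    have h5 := theta_bound hy h1 h3 one_pos h2 h4
    have e : (‖v‖ • y - v) - (‖v'‖ • y - v') = (-2 : ℝ) • (Θ v - Θ v') := by
      rw [hΘ]
      module
    rw [e, norm_smul] at h5
    norm_num at h5
    linarith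
  have hm2 := hausdorff_le_image (K := 4) (by norm_num) hb
    (d := (finrank ℝ X : ℝ)) (by positivity)
  obtain ⟨m, hm⟩ : ∃ m, m = μH[(finrank ℝ X : ℝ)] (closedBall z₂ r) := ⟨_, rfl⟩
  have hm0 : m ≠ 0 := by
    rw [hm]
    exact (measure_closedBall_pos _ z₂ hr0).ne'
  have hmt : m ≠ ∞ := by
    rw [hm]
    exact measure_closedBall_lt_top.ne
  have hm1 : ENNReal.ofReal (1 / 2) * m ≤ μH[(finrank ℝ X : ℝ)] S := by
    have := hU1 (show r ∈ Ioo 0 u₁ from ⟨hr0, hr1⟩)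
    simp only [Set.mem_ofPred_eq] at this
    rw [hS, ← hm] at *
    exact this
  have hm3 : μH[(finrank ℝ X : ℝ)] (Θ '' S) ≤
      ENNReal.ofReal κ * μH[(finrank ℝ X : ℝ)] (closedBall z₂ (2 * r)) := by
    have := hU2 (show 2 * r ∈ Ioo 0 u₂ from ⟨by positivity, hr2⟩)
    simp only [Set.mem_ofPred_eq] at this
    exact (measure_mono hsub).trans this
  have hm4 : μH[(finrank ℝ X : ℝ)] (closedBall z₂ (2 * r)) = ENNReal.ofReal (2 ^ n) * m := by
    rw [hm, Measure.addHaar_closedBall _ _ (by positivity), Measure.addHaar_closedBall _ _ hr0.le,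
      ← mul_assoc, ← ENNReal.ofReal_mul (by positivity), ← hn, mul_pow]
  have hK : ((Real.toNNReal 4 : ℝ≥0) : ℝ≥0∞) ^ (finrank ℝ X : ℝ) = ENNReal.ofReal (4 ^ n) := by
    rw [ENNReal.rpow_natCast, ← hn]
    change ENNReal.ofReal 4 ^ n = _
    rw [ENNReal.ofReal_pow (by norm_num)]
  rw [hK] at hm2
  rw [hm4] at hm3
  have hfinal : ENNReal.ofReal (1 / 2) * m ≤ ENNReal.ofReal (1 / 4) * m := by
    calc ENNReal.ofReal (1 / 2) * m ≤ μH[(finrank ℝ X : ℝ)] S := hm1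
      _ ≤ ENNReal.ofReal (4 ^ n) * μH[(finrank ℝ X : ℝ)] (Θ '' S) := hm2
      _ ≤ ENNReal.ofReal (4 ^ n) * (ENNReal.ofReal κ * (ENNReal.ofReal (2 ^ n) * m)) := by gcongr
      _ = ENNReal.ofReal (1 / 4) * m := by
        rw [← mul_assoc, ← mul_assoc, ← ENNReal.ofReal_mul (by positivity),
          ← ENNReal.ofReal_mul (by positivity), hκ]
        congr 2
        field_simp
  have h2 := (ENNReal.mul_le_mul_iff_left hm0 hmt).1 hfinal
  rw [ENNReal.ofReal_le_ofReal_iff (by norm_num)] at h2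
  norm_num at h2

end Meas

section Sphere

variable {X Y : Type*} [NormedAddCommGroup X] [NormedSpace ℝ X] [NormedAddCommGroup Y]
  [NormedSpace ℝ Y]

variable {g : X → Y} {h : Y → X}

/-- A linear patch around a unit vector gives the linearity on the sphere. -/
theorem eq_on_sphere_of_ball [FiniteDimensional ℝ X] {E : X ≃L[ℝ] Y} (H : SphereIso g h)
    (hodd : ∀ x : X, ‖x‖ = 1 → g (-x) = -g x) {x₀ : X} (hx₀ : ‖x₀‖ = 1)
    (hGood : Dense {z : X | GoodDir z}) {ρ : ℝ} (hρ : 0 < ρ) (hρ1 : ρ ≤ 1)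
    (hp : ∀ y, ‖y‖ = 1 → ‖y + x₀‖ < ρ → g y = E y) : ∀ y, ‖y‖ = 1 → g y = E y := by
  have hS0 : ‖-x₀‖ = 1 := by rwa [norm_neg]
  have h0 : (0 : X) ∉ ball (-x₀) (ρ / 2) := by
    rw [mem_ball, dist_eq_norm, zero_sub, neg_neg, hx₀]
    linarith
  have hcone := Loc.coneSet_coneOf (isOpen_ball (x := -x₀) (ε := ρ / 2)) h0
  obtain ⟨hGo, -, hG1, hG2⟩ := hcone
  have hGc : ∀ z ∈ Loc.coneOf (ball (-x₀) (ρ / 2)), ∀ s : ℝ, s ≠ 0 →
      s • z ∈ Loc.coneOf (ball (-x₀) (ρ / 2)) := by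
    intro z hz s hs
    rcases lt_or_gt_of_ne hs with hneg | hpos
    · have h3 := hG2 _ (hG1 z hz (-s) (neg_pos.2 hneg))
      rwa [← neg_smul, neg_neg] at h3
    · exact hG1 z hz s hpos
  have hGL : ∀ z ∈ Loc.coneOf (ball (-x₀) (ρ / 2)), ‖z‖ = 1 → g z = E z := by
    rintro z ⟨s, hs, hz⟩ hz1
    rw [mem_ball, dist_eq_norm, sub_neg_eq_add] at hz
    have hsn : |‖s • z‖ - ‖-x₀‖| ≤ ‖s • z - -x₀‖ := abs_norm_sub_norm_le _ _
    rw [sub_neg_eq_add, norm_smul, hz1, mul_one, hS0, Real.norm_eq_abs] at hsn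
    have hs1 : |s| - 1 ≤ ρ / 2 ∧ 1 - |s| ≤ ρ / 2 := by
      constructor
      · linarith [le_abs_self (|s| - 1)]
      · linarith [neg_abs_le (|s| - 1)]
    rcases lt_or_gt_of_ne hs with hneg | hpos
    · rw [abs_of_neg hneg] at hs1
      have h5 : ‖-z + x₀‖ < ρ := by
        have e : -z + x₀ = (s • z + x₀) + (-(1 + s)) • z := by module
        rw [e]
        refine (norm_add_le _ _).trans_lt ?_
        rw [norm_smul, hz1, mul_one, Real.norm_eq_abs, abs_neg]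
        have h6 : |1 + s| ≤ ρ / 2 := by
          rw [abs_le]
          constructor <;> linarith
        linarith
      have h7 := hp (-z) (by rwa [norm_neg]) h5
      rw [hodd z hz1, map_neg] at h7
      exact neg_injective h7
    · rw [abs_of_pos hpos] at hs1
      have h5 : ‖z + x₀‖ < ρ := by
        have e : z + x₀ = (s • z + x₀) + (1 - s) • z := by module
        rw [e]
        refine (norm_add_le _ _).trans_lt ?_
        rw [norm_smul, hz1, mul_one, Real.norm_eq_abs]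
        have h6 : |1 - s| ≤ ρ / 2 := by
          rw [abs_le]
          constructor <;> linarith
        linarith
      exact hp z hz1 h5
  have hx₁ : -x₀ ∈ Loc.coneOf (ball (-x₀) (ρ / 2)) :=
    Loc.subset_coneOf _ (mem_ball_self (by positivity))
  exact sphere_eq_of_patch_d H.iso hodd (hGood.mono fun z hz => hz.1) hGo hGc hGood hGL hx₁

lemma C1Ctx.dT_smul (C : C1Ctx g h) {z : X} (hz : z ≠ 0) {a : ℝ} (ha : 0 < a) :
    dT g (a • z) = dT g z :=
  (radial_hasFDerivAt_smul (C.hasFDerivAt hz) ha).fderiv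

lemma C1Ctx.dT_injective (C : C1Ctx g h) {x : X} (hx : ‖x‖ = 1) : Function.Injective (dT g x) := by
  rw [injective_iff_map_eq_zero]
  intro v hv
  have h0 := ne0_of_unit x hx
  have h1 := C.chi_dT h0 v
  rw [hv, map_zero] at h1
  have h2 := C.norm_dT hx h1.symm
  rw [hv, norm_zero] at h2
  exact norm_eq_zero.1 h2.symm

/-- The set where the derivative of the extension equals a given map is measurable. -/
lemma C1Ctx.measurableSet_const [MeasurableSpace X] [BorelSpace X] (C : C1Ctx g h) (L : X →L[ℝ] Y) :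
    MeasurableSet {z : X | z ≠ 0 ∧ dT g z = L} := by
  have hU : IsOpen {z : X | z ≠ 0} := isOpen_ne
  have hc : ContinuousOn (dT g) {z : X | z ≠ 0} :=
    fun z hz => (C.dT_continuousAt hz).continuousWithinAt
  have h1 := hc.isOpen_inter_preimage hU (isOpen_compl_singleton (x := L))
  have e : {z : X | z ≠ 0 ∧ dT g z = L} = {z : X | z ≠ 0} \ ({z : X | z ≠ 0} ∩ dT g ⁻¹' {L}ᶜ) := by
    ext z
    simp only [Set.mem_ofPred_eq, Set.mem_sdiff, Set.mem_inter_iff, Set.mem_preimage, Set.mem_compl_iff,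
      Set.mem_singleton_iff, not_and, not_not]
    constructor
    · rintro ⟨h2, h3⟩
      exact ⟨h2, fun _ => h3⟩
    · rintro ⟨h2, h3⟩
      exact ⟨h2, h3 h2⟩
  rw [e]
  exact hU.measurableSet.diff h1.measurableSet

end Sphere

section Final

variable {X Y : Type*} [NormedAddCommGroup X] [NormedSpace ℝ X] [NormedAddCommGroup Y]
  [NormedSpace ℝ Y] [MeasurableSpace X] [BorelSpace X] [FiniteDimensional ℝ X] [Nontrivial X]
  [StrictConvexSpace ℝ Y]

variable {g : X → Y} {h : Y → X}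

/-- Around the antipode of a density point of the set where the derivative is `L`, the sphere map
is `L`. -/
theorem C1Ctx.eq_near_antipode (C : C1Ctx g h) {L : X →L[ℝ] Y} (hs : Function.Surjective L)
    {z₂ : X} (hz₂ : z₂ ≠ 0)
    (hd : DensePt μH[(finrank ℝ X : ℝ)] {z : X | z ≠ 0 ∧ dT g z = L} z₂) :
    ∃ ρ > 0, ρ ≤ 1 ∧ ∀ y, ‖y‖ = 1 → ‖y + ‖z₂‖⁻¹ • z₂‖ < ρ → g y = L y := by
  obtain ⟨x₂, hx₂⟩ : ∃ x₂, x₂ = ‖z₂‖⁻¹ • z₂ := ⟨_, rfl⟩
  have hx₂u : ‖x₂‖ = 1 := by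
    rw [hx₂]
    exact unit_of_ne hz₂
  have hgu : ‖g x₂‖ = 1 := C.iso.map_g x₂ hx₂u
  obtain ⟨N, hN⟩ : ∃ N, N = ‖z₂‖ := ⟨_, rfl⟩
  have hNp : 0 < N := by
    rw [hN]
    exact norm_pos_iff.2 hz₂
  obtain ⟨r₁, hr₁, hclose⟩ := chi_close (C.dnY _ (ne0_of_unit _ hgu)) (ε := 1 / 4) (by norm_num)
  obtain ⟨ρ, hρ⟩ : ∃ ρ, ρ = min (1 / 4) r₁ := ⟨_, rfl⟩
  have hρp : 0 < ρ := by
    rw [hρ]
    positivity
  have hρ1 : ρ ≤ 1 / 4 := by
    rw [hρ]
    exact min_le_left _ _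
  have hρ2 : ρ ≤ r₁ := by
    rw [hρ]
    exact min_le_right _ _
  obtain ⟨r, hr0, hrlt, ρ', hρ', hmain⟩ := exists_theta_mem (C.measurableSet_const L) hz₂ hd
    (ρ₀ := min (N / 4) (ρ * N / 8)) (by positivity)
  have hr1 : r < N / 4 := hrlt.trans_le (min_le_left _ _)
  have hr2 : r < ρ * N / 8 := hrlt.trans_le (min_le_right _ _)
  refine ⟨min ρ' (1 / 2), by positivity, (min_le_right _ _).trans (by norm_num), ?_⟩
  intro y hy hyn
  obtain ⟨v, ⟨hv0, hvL⟩, hvr, ⟨hW0, hWL⟩, hWr⟩ := hmain y hy (hyn.trans_le (min_le_left _ _))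
  have hyn2 : ‖y + x₂‖ < 1 / 2 := by
    rw [hx₂]
    exact hyn.trans_le (min_le_right _ _)
  obtain ⟨W, hW⟩ : ∃ W, W = (1 / 2 : ℝ) • (v - ‖v‖ • y) := ⟨_, rfl⟩
  rw [← hW] at hW0 hWL hWr
  have hvp : 0 < ‖v‖ := norm_pos_iff.2 hv0
  have hWp : 0 < ‖W‖ := norm_pos_iff.2 hW0
  have hvlow : N / 2 ≤ ‖v‖ := by
    have := abs_norm_sub_norm_le z₂ v
    rw [norm_sub_rev] at this
    have h2 := (abs_le.1 this).2
    rw [← hN] at h2
    linarith
  have hWlow : N / 2 ≤ ‖W‖ := by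
    have := abs_norm_sub_norm_le z₂ W
    rw [norm_sub_rev] at this
    have h2 := (abs_le.1 this).2
    rw [← hN] at h2
    linarith
  obtain ⟨x, hx⟩ : ∃ x, x = ‖v‖⁻¹ • v := ⟨_, rfl⟩
  obtain ⟨w', hw'⟩ : ∃ w', w' = ‖W‖⁻¹ • W := ⟨_, rfl⟩
  have hxu : ‖x‖ = 1 := by
    rw [hx]
    exact unit_of_ne hv0
  have hwu : ‖w'‖ = 1 := by
    rw [hw']
    exact unit_of_ne hW0
  have hdist : ∀ {a : X} {b : ℝ}, a ≠ 0 → N / 2 ≤ ‖a‖ → ‖a - z₂‖ ≤ b → b < ρ * N / 4 →
      ‖‖a‖⁻¹ • a - x₂‖ < ρ := by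
    intro a b ha hal hab hb
    have h1 := normalize_dist (v₀ := z₂) ha
    rw [← hx₂] at h1
    have hap : 0 < ‖a‖ := norm_pos_iff.2 ha
    refine h1.trans_lt ?_
    rw [div_lt_iff₀ hap]
    have h2 : ρ * (N / 2) ≤ ρ * ‖a‖ := mul_le_mul_of_nonneg_left hal hρp.le
    linarith
  have hxd : ‖x - x₂‖ < ρ := by
    rw [hx]
    exact hdist hv0 hvlow hvr (by linarith)
  have hwd : ‖w' - x₂‖ < ρ := by
    rw [hw']
    exact hdist hW0 hWlow hWr (by linarith)
  have hLx : dT g x = L := by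
    rw [hx, C.dT_smul hv0 (inv_pos.2 hvp), hvL]
  have hLw : dT g w' = L := by
    rw [hw', C.dT_smul hW0 (inv_pos.2 hWp), hWL]
  have hsmall : ‖x + y‖ < 1 := by
    have e : x + y = (x - x₂) + (y + x₂) := by abel
    rw [e]
    refine (norm_add_le _ _).trans_lt ?_
    linarith
  have hne : x ≠ y := by
    rintro rfl
    rw [← two_smul ℝ, norm_smul, hxu] at hsmall
    norm_num at hsmall
  have hxy : x - y = (2 * ‖v‖⁻¹) • W := by
    have e2 : x = ‖v‖⁻¹ • v := hx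
    rw [hW, smul_smul]
    have e3 : 2 * ‖v‖⁻¹ * (1 / 2) = ‖v‖⁻¹ := by ring
    rw [e3, smul_sub, smul_smul, inv_mul_cancel₀ hvp.ne', one_smul, ← e2]
  have hwx : w' = ‖x - y‖⁻¹ • (x - y) := by
    rw [hxy, hat_smul (by positivity), hw']
  have hξ : ‖chi (g w') - chi (g x)‖ < 1 / 2 := by
    have e : chi (g w') - chi (g x) = (chi (g w') - chi (g x₂)) - (chi (g x) - chi (g x₂)) := by
      abel
    rw [e]
    refine (norm_sub_le _ _).trans_lt ?_
    have h1 := hclose (g w') (C.dnY _ (ne0_of_unit _ (C.iso.map_g w' hwu))) (by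
      rw [C.iso.iso _ _ hwu hx₂u]
      linarith)
    have h2 := hclose (g x) (C.dnY _ (ne0_of_unit _ (C.iso.map_g x hxu))) (by
      rw [C.iso.iso _ _ hxu hx₂u]
      linarith)
    linarith
  exact (C.patch_step hs hxu hy hwx hne hLx hLw hsmall hξ).symm

/-- **Constant derivative on a non-null set implies the extension.** -/
theorem C1Ctx.extends_of_const [FiniteDimensional ℝ Y] [StrictConvexSpace ℝ X] (C : C1Ctx g h)
    (hdim : finrank ℝ X = finrank ℝ Y) {L : X →L[ℝ] Y}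
    (hG : μH[(finrank ℝ X : ℝ)] {z : X | z ≠ 0 ∧ dT g z = L} ≠ 0) :
    ∃ T : X ≃ₗᵢ[ℝ] Y, ∀ x, ‖x‖ = 1 → T x = g x := by
  obtain ⟨G, hGd⟩ : ∃ G, G = {z : X | z ≠ 0 ∧ dT g z = L} := ⟨_, rfl⟩
  rw [← hGd] at hG
  have hN := null_not_densePt μH[(finrank ℝ X : ℝ)] G
  obtain ⟨z₂, hz₂, hd⟩ : ∃ z₂ ∈ G, DensePt μH[(finrank ℝ X : ℝ)] G z₂ := by
    by_contra hcon
    push Not at hcon
    apply hG
    refine measure_mono_null (fun z hz => ?_) hN
    exact ⟨hz, hcon z hz⟩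
  have hz₂' := hz₂
  rw [hGd] at hz₂' hd
  obtain ⟨hz0, hzL⟩ := hz₂'
  have hu : ‖‖z₂‖⁻¹ • z₂‖ = 1 := unit_of_ne hz0
  have hinj : Function.Injective L := by
    have := C.dT_injective hu
    rwa [C.dT_smul hz0 (inv_pos.2 (norm_pos_iff.2 hz0)), hzL] at this
  obtain ⟨E, hE⟩ : ∃ E : X ≃L[ℝ] Y, (E : X →L[ℝ] Y) = L := by
    refine ⟨(LinearMap.linearEquivOfInjective (L : X →ₗ[ℝ] Y) hinj hdim).toContinuousLinearEquiv, ?_⟩
    ext u
    rfl
  have hs : Function.Surjective L := by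
    rw [← hE]
    exact E.surjective
  obtain ⟨ρ, hρ, hρ1, hp⟩ := C.eq_near_antipode hs hz0 hd
  rw [← hE] at hp
  have h1 := eq_on_sphere_of_ball (E := E) C.iso (fun x hx => sphere_odd C.iso hx) hu
    dense_goodDir_of_strict hρ hρ1 hp
  exact exists_linearIsometryEquiv_of_agree C.iso (E : X →L[ℝ] Y).toLinearMap
    fun x hx => (h1 x hx).symm

end Final

end Vale.Agent.Lib.P084
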