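import Mathlib
import Vale.Agent.Lib.P084.Corner.OpenPatch

/-! Points of the unit sphere where a Euclidean ball contains the unit ball and touches it: every
point of the space is the centre of such a ball, which gives a non-null cone over touching points
with uniform constants. -/

namespace Vale.Agent.Lib.P084

open Set Metric Filter Topology MeasureTheory Module
open scoped NNReal ENNReal RealInnerProductSpace

section Touch

variable {X : Type*} [NormedAddCommGroup X] [NormedSpace ℝ X]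

/-- The only norming functional at a differentiability point. -/
lemma chi_eq_of_norming {x : X} (hx : Dn x) {φ : X →L[ℝ] ℝ} (h1 : ∀ a, φ a ≤ ‖a‖)
    (h2 : φ x = ‖x‖) : φ = chi x := by
  have hmin : IsLocalMin (fun a => ‖a‖ - φ a) x := Filter.Eventually.of_forall fun a => by
    simp only [h2, sub_self]
    linarith [h1 a]
  have hd : HasFDerivAt (fun a => ‖a‖ - φ a) (chi x - φ) x := hx.hasFDerivAt.sub φ.hasFDerivAt
  have := hmin.hasFDerivAt_eq_zero hd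
  exact (sub_eq_zero.1 this).symm

variable {E' : Type*} [NormedAddCommGroup E'] [InnerProductSpace ℝ E'] [FiniteDimensional ℝ E']
  (e : X ≃L[ℝ] E')

/-- The farthest point of the unit sphere from a given centre. -/
lemma touch_param [FiniteDimensional ℝ X] [Nontrivial X] (hD : ∀ z : X, z ≠ 0 → Dn z) (c : E') :
    ∃ x : X, ‖x‖ = 1 ∧ ∃ l : ℝ, 0 < l ∧ e x - c = l • gradN e x ∧
      ∀ a, ‖a‖ = 1 → (1 / 2) * ‖e a - e x‖ ^ 2 ≤ l * (1 - chi x a) := by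
  have : ProperSpace X := FiniteDimensional.proper_real X
  have hcont : ContinuousOn (fun a : X => ‖e a - c‖) (sphere 0 1) := by
    apply Continuous.continuousOn
    have := e.continuous
    fun_prop
  obtain ⟨x, hx, hmax⟩ := (isCompact_sphere (0 : X) 1).exists_isMaxOn
    (NormedSpace.sphere_nonempty.2 zero_le_one) hcont
  have hxu : ‖x‖ = 1 := by simpa using hx
  have hmax' : ∀ a, ‖a‖ = 1 → ‖e a - c‖ ≤ ‖e x - c‖ := fun a ha =>
    hmax (show a ∈ sphere (0 : X) 1 by simpa using ha)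
  obtain ⟨n, hn⟩ : ∃ n, n = e x - c := ⟨_, rfl⟩
  rw [← hn] at hmax'
  have hn0 : n ≠ 0 := by
    intro h0
    have h1 := hmax' (-x) (by rwa [norm_neg])
    rw [h0, norm_zero] at h1
    have h2 : e (-x) - c = 0 := norm_le_zero_iff.1 h1
    rw [hn] at h0
    have h3 : e (-x) = e x := by
      rw [sub_eq_zero.1 h2, sub_eq_zero.1 h0]
    have h4 : -x = x := e.injective h3
    have h5 : x = 0 := by
      have : (2 : ℝ) • x = 0 := by
        rw [two_smul]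
        nth_rw 1 [← h4]
        simp
      exact (smul_eq_zero.1 this).resolve_left two_ne_zero
    rw [h5, norm_zero] at hxu
    exact zero_ne_one hxu
  obtain ⟨φ, hφ⟩ : ∃ φ : X →L[ℝ] ℝ, φ = (innerSL ℝ n).comp (e : X →L[ℝ] E') := ⟨_, rfl⟩
  have hφv : ∀ v, φ v = ⟪n, e v⟫ := by
    intro v
    rw [hφ]
    rfl
  have key : ∀ a, ‖a‖ = 1 → (1 / 2) * ‖e a - e x‖ ^ 2 ≤ φ x - φ a := by
    intro a ha
    have h1 := hmax' a ha
    have h2 : ‖e a - c‖ ^ 2 ≤ ‖n‖ ^ 2 := pow_le_pow_left₀ (norm_nonneg _) h1 2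
    have e1 : e a - c = (e a - e x) + n := by
      rw [hn]
      abel
    rw [e1, norm_add_sq_real, real_inner_comm] at h2
    have e2 : ⟪n, e a - e x⟫ = φ a - φ x := by
      rw [hφv, hφv, inner_sub_right]
    rw [e2] at h2
    linarith
  have hl : 0 < φ x := by
    obtain ⟨v, hv⟩ : ∃ v, v = e.symm n := ⟨_, rfl⟩
    have hev : e v = n := by
      rw [hv]
      exact e.apply_symm_apply n
    have hv0 : v ≠ 0 := by
      intro h0
      rw [h0, map_zero] at hev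
      exact hn0 hev.symm
    have h1 := key _ (unit_of_ne hv0)
    have h2 : φ (‖v‖⁻¹ • v) = ‖v‖⁻¹ * ‖n‖ ^ 2 := by
      rw [map_smul, smul_eq_mul, hφv, hev, real_inner_self_eq_norm_sq]
    have h3 : 0 < ‖v‖⁻¹ * ‖n‖ ^ 2 := by
      have := norm_pos_iff.2 hv0
      have := norm_pos_iff.2 hn0
      positivity
    have h4 : 0 ≤ (1 / 2) * ‖e (‖v‖⁻¹ • v) - e x‖ ^ 2 := by positivity
    rw [h2] at h1
    linarith
  have hle : ∀ a, φ a ≤ φ x * ‖a‖ := by
    intro a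
    by_cases ha : a = 0
    · rw [ha, map_zero, norm_zero, mul_zero]
    have hap : 0 < ‖a‖ := norm_pos_iff.2 ha
    have h1 := key _ (unit_of_ne ha)
    have h2 : φ (‖a‖⁻¹ • a) = ‖a‖⁻¹ * φ a := by rw [map_smul, smul_eq_mul]
    have h3 : 0 ≤ (1 / 2) * ‖e (‖a‖⁻¹ • a) - e x‖ ^ 2 := by positivity
    rw [h2] at h1
    have h4 : ‖a‖⁻¹ * φ a ≤ φ x := by linarith
    rw [inv_mul_le_iff₀ hap] at h4
    linarith
  have hchi : (φ x)⁻¹ • φ = chi x := by
    refine chi_eq_of_norming (hD x (ne0_of_unit x hxu)) (fun a => ?_) ?_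
    · rw [_root_.smul_apply, smul_eq_mul, inv_mul_le_iff₀ hl]
      exact hle a
    · rw [_root_.smul_apply, smul_eq_mul, inv_mul_cancel₀ hl.ne', hxu]
  have hchi2 : ∀ v, φ v = φ x * chi x v := by
    intro v
    rw [← hchi, _root_.smul_apply, smul_eq_mul, ← mul_assoc, mul_inv_cancel₀ hl.ne', one_mul]
  refine ⟨x, hxu, φ x, hl, ?_, fun a ha => ?_⟩
  · rw [← hn]
    refine ext_inner_right ℝ fun w => ?_
    rw [real_inner_smul_left, inner_gradN, ← hchi2, hφv, e.apply_symm_apply]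
  · have h1 := key a ha
    have h2 := hchi2 a
    have h3 : chi x x = 1 := by
      rw [(hD x (ne0_of_unit x hxu)).chi_self, hxu]
    calc (1 / 2) * ‖e a - e x‖ ^ 2 ≤ φ x - φ a := h1
      _ = φ x * (1 - chi x a) := by rw [h2]; ring

/-- The centre of the ball touching at the direction of the point, of radius given by the norm. -/
noncomputable def touchMap (z : X) : E' := e (‖z‖⁻¹ • z) - ‖z‖ • gradN e z

/-- A piece of the space: points of controlled norm whose direction is a touching point with uniform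
constants. -/
def touchPiece (X : Type*) [NormedAddCommGroup X] [NormedSpace ℝ X] (i : ℕ) : Set X :=
  {z | z ≠ 0 ∧ 1 / ((i : ℝ) + 1) ≤ ‖z‖ ∧ ‖z‖ ≤ (i : ℝ) + 1 ∧
    (∀ a, ‖a‖ = 1 → 1 / ((i : ℝ) + 1) * ‖a - ‖z‖⁻¹ • z‖ ^ 2 ≤ 1 - chi z a) ∧
    ∀ a, ‖a‖ = 1 → ‖a - ‖z‖⁻¹ • z‖ < 1 / ((i : ℝ) + 1) →
      ‖chi a - chi z‖ ≤ ((i : ℝ) + 1) * ‖a - ‖z‖⁻¹ • z‖}

/-- Every point is a centre. -/
lemma touch_cover [FiniteDimensional ℝ X] [Nontrivial X] (hD : ∀ z : X, z ≠ 0 → Dn z)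
    (hR : ∀ x : X, ‖x‖ = 1 → Rate x) (c : E') : ∃ i, ∃ z ∈ touchPiece X i, touchMap e z = c := by
  obtain ⟨x, hxu, l, hl, hc, hlow⟩ := touch_param e hD c
  obtain ⟨C, r, hr, hrate⟩ := hR x hxu
  obtain ⟨A, hA⟩ : ∃ A, A = ‖(e.symm : E' →L[ℝ] X)‖ + 1 := ⟨_, rfl⟩
  have hAp : 0 < A := by
    rw [hA]
    positivity
  have hAe : ∀ v : X, ‖v‖ ≤ A * ‖e v‖ := by
    intro v
    have h1 := (e.symm : E' →L[ℝ] X).le_opNorm (e v)
    have h2 : (e.symm : E' →L[ℝ] X) (e v) = v := e.symm_apply_apply v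
    rw [h2] at h1
    rw [hA]
    nlinarith [norm_nonneg (e v)]
  obtain ⟨i, hi⟩ := exists_nat_ge (max (max l (1 / l)) (max (2 * l * A ^ 2) (max C (1 / r))))
  have hi0 : (0 : ℝ) < (i : ℝ) + 1 := by positivity
  have hi1 : l ≤ (i : ℝ) + 1 := by
    have : l ≤ (i : ℝ) := ((le_max_left _ _).trans (le_max_left _ _)).trans hi
    linarith
  have hi2 : 1 / l ≤ (i : ℝ) + 1 := by
    have : 1 / l ≤ (i : ℝ) := ((le_max_right _ _).trans (le_max_left _ _)).trans hi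
    linarith
  have hi3 : 2 * l * A ^ 2 ≤ (i : ℝ) + 1 := by
    have : 2 * l * A ^ 2 ≤ (i : ℝ) := ((le_max_left _ _).trans (le_max_right _ _)).trans hi
    linarith
  have hi4 : C ≤ (i : ℝ) + 1 := by
    have : C ≤ (i : ℝ) :=
      (((le_max_left _ _).trans (le_max_right _ _)).trans (le_max_right _ _)).trans hi
    linarith
  have hi5 : 1 / r ≤ (i : ℝ) + 1 := by
    have : 1 / r ≤ (i : ℝ) :=
      (((le_max_right _ _).trans (le_max_right _ _)).trans (le_max_right _ _)).trans hi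
    linarith
  have hzn : ‖l • x‖ = l := by rw [norm_smul, hxu, mul_one, Real.norm_of_nonneg hl.le]
  have hzu : ‖l • x‖⁻¹ • (l • x) = x := by
    rw [hzn, smul_smul, inv_mul_cancel₀ hl.ne', one_smul]
  have hzχ : chi (l • x) = chi x := chi_smul hl x
  refine ⟨i, l • x, ⟨smul_ne_zero hl.ne' (ne0_of_unit x hxu), ?_, ?_, ?_, ?_⟩, ?_⟩
  · rw [hzn, div_le_iff₀ hi0]
    rw [div_le_iff₀ hl] at hi2
    linarith
  · rw [hzn]
    exact hi1
  · intro a ha
    rw [hzu, hzχ]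
    have h1 := hlow a ha
    have h2 := hAe (a - x)
    rw [map_sub] at h2
    have h3 : ‖a - x‖ ^ 2 ≤ A ^ 2 * ‖e a - e x‖ ^ 2 := by
      rw [← mul_pow]
      exact pow_le_pow_left₀ (norm_nonneg _) h2 2
    have h4 : ‖a - x‖ ^ 2 ≤ 2 * l * A ^ 2 * (1 - chi x a) := by
      have h5 : A ^ 2 * ‖e a - e x‖ ^ 2 ≤ A ^ 2 * (2 * (l * (1 - chi x a))) :=
        mul_le_mul_of_nonneg_left (by linarith) (by positivity)
      calc ‖a - x‖ ^ 2 ≤ A ^ 2 * ‖e a - e x‖ ^ 2 := h3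
        _ ≤ A ^ 2 * (2 * (l * (1 - chi x a))) := h5
        _ = 2 * l * A ^ 2 * (1 - chi x a) := by ring
    have h6 : 0 ≤ 1 - chi x a := by
      have := chi_le x a
      rw [ha] at this
      linarith
    rw [div_mul_eq_mul_div, one_mul, div_le_iff₀ hi0]
    have h7 : 2 * l * A ^ 2 * (1 - chi x a) ≤ ((i : ℝ) + 1) * (1 - chi x a) :=
      mul_le_mul_of_nonneg_right hi3 h6
    linarith
  · intro a ha hlt
    rw [hzu] at hlt ⊢
    rw [hzχ]
    have hlr : 1 / ((i : ℝ) + 1) ≤ r := by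
      rw [div_le_iff₀ hi0]
      rw [div_le_iff₀ hr] at hi5
      linarith
    have h1 := hrate a (hD a (ne0_of_unit a ha)) (hlt.trans_le hlr)
    exact h1.trans (mul_le_mul_of_nonneg_right hi4 (norm_nonneg _))
  · simp only [touchMap]
    rw [hzu, hzn]
    have e1 : gradN e (l • x) = gradN e x := by
      simp only [gradN, hzχ]
    rw [e1, ← hc]
    abel

lemma norm_gradN_le (z : X) : ‖gradN e z‖ ≤ ‖(e.symm : E' →L[ℝ] X)‖ := by
  simp only [gradN]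
  rw [LinearIsometryEquiv.norm_map]
  refine (ContinuousLinearMap.opNorm_comp_le _ _).trans ?_
  have := chi_norm_le z
  have h2 := norm_nonneg (e.symm : E' →L[ℝ] X)
  nlinarith

lemma touch_lipschitz (i : ℕ) {S : Set X} (hS : S ⊆ touchPiece X i)
    (hsm : ∀ z ∈ S, ∀ z' ∈ S, ‖z - z'‖ < 1 / (2 * ((i : ℝ) + 1) ^ 2)) :
    LipschitzOnWith (Real.toNNReal (‖(e : X →L[ℝ] E')‖ * (2 * ((i : ℝ) + 1)) +
      ‖(e.symm : E' →L[ℝ] X)‖ + ‖(e.symm : E' →L[ℝ] X)‖ * (2 * ((i : ℝ) + 1) ^ 3)))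
      (touchMap e) S := by
  refine LipschitzOnWith.of_dist_le_mul ?_
  intro z hz z' hz'
  rw [Real.coe_toNNReal _ (by positivity), dist_eq_norm, dist_eq_norm]
  obtain ⟨n, hn⟩ : ∃ n : ℝ, n = (i : ℝ) + 1 := ⟨_, rfl⟩
  have hnp : 0 < n := by
    rw [hn]
    positivity
  rw [← hn]
  have hz1 := hS hz
  have hz2 := hS hz'
  simp only [touchPiece, Set.mem_ofPred_eq] at hz1 hz2
  rw [← hn] at hz1 hz2
  obtain ⟨h0, hlow, -, -, hrate⟩ := hz1
  obtain ⟨h0', -, hup', -, -⟩ := hz2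
  have hsmall := hsm z hz z' hz'
  rw [← hn] at hsmall
  obtain ⟨d, hd⟩ : ∃ d, d = ‖z - z'‖ := ⟨_, rfl⟩
  rw [← hd] at hsmall ⊢
  have hd0 : 0 ≤ d := by
    rw [hd]
    exact norm_nonneg _
  have hzp : 0 < ‖z‖ := norm_pos_iff.2 h0
  have h1 : ‖‖z‖⁻¹ • z - ‖z'‖⁻¹ • z'‖ ≤ 2 * n * d := by
    have h2 := normalize_dist (v₀ := z') h0
    rw [← hd] at h2
    refine h2.trans ?_
    rw [div_le_iff₀ hzp]
    have h3 : 1 ≤ n * ‖z‖ := by
      rw [div_le_iff₀ hnp] at hlow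
      linarith
    have h4 : 0 ≤ 2 * d := by positivity
    nlinarith
  have h2 : ‖‖z'‖⁻¹ • z' - ‖z‖⁻¹ • z‖ < 1 / n := by
    rw [norm_sub_rev]
    refine h1.trans_lt ?_
    rw [lt_div_iff₀ (by positivity)] at hsmall
    rw [lt_div_iff₀ hnp]
    have e1 : 2 * n * d * n = d * (2 * n ^ 2) := by ring
    rw [e1]
    exact hsmall
  have h3 : ‖chi z' - chi z‖ ≤ n * (2 * n * d) := by
    have h4 := hrate _ (unit_of_ne h0') h2
    rw [chi_unit h0'] at h4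
    refine h4.trans (mul_le_mul_of_nonneg_left ?_ hnp.le)
    rw [norm_sub_rev]
    exact h1
  obtain ⟨B, hB⟩ : ∃ B, B = ‖(e.symm : E' →L[ℝ] X)‖ := ⟨_, rfl⟩
  obtain ⟨Q, hQ⟩ : ∃ Q, Q = ‖(e : X →L[ℝ] E')‖ := ⟨_, rfl⟩
  rw [← hB, ← hQ]
  have hBn : 0 ≤ B := by
    rw [hB]
    exact norm_nonneg _
  have hQn : 0 ≤ Q := by
    rw [hQ]
    exact norm_nonneg _
  have h5 : ‖gradN e z - gradN e z'‖ ≤ B * (n * (2 * n * d)) := by
    have h6 := norm_gradN_sub_le e z z'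
    rw [← hB] at h6
    refine h6.trans (mul_le_mul_of_nonneg_left ?_ hBn)
    rw [norm_sub_rev]
    exact h3
  have h7 : ‖e (‖z‖⁻¹ • z) - e (‖z'‖⁻¹ • z')‖ ≤ Q * (2 * n * d) := by
    rw [← map_sub]
    have h8 := (e : X →L[ℝ] E').le_opNorm (‖z‖⁻¹ • z - ‖z'‖⁻¹ • z')
    rw [← hQ] at h8
    exact h8.trans (mul_le_mul_of_nonneg_left h1 hQn)
  have h9 : ‖(‖z‖ - ‖z'‖) • gradN e z‖ ≤ d * B := by
    rw [norm_smul, Real.norm_eq_abs]
    have h10 := abs_norm_sub_norm_le z z'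
    rw [← hd] at h10
    have h11 := norm_gradN_le e z
    rw [← hB] at h11
    exact mul_le_mul h10 h11 (norm_nonneg _) hd0
  have h12 : ‖‖z'‖ • (gradN e z - gradN e z')‖ ≤ n * (B * (n * (2 * n * d))) := by
    rw [norm_smul, norm_norm]
    exact mul_le_mul hup' h5 (norm_nonneg _) hnp.le
  have e2 : touchMap e z - touchMap e z' = (e (‖z‖⁻¹ • z) - e (‖z'‖⁻¹ • z')) -
      ((‖z‖ - ‖z'‖) • gradN e z + ‖z'‖ • (gradN e z - gradN e z')) := by
    simp only [touchMap]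
    module
  rw [e2]
  have h13 := norm_sub_le (e (‖z‖⁻¹ • z) - e (‖z'‖⁻¹ • z'))
    ((‖z‖ - ‖z'‖) • gradN e z + ‖z'‖ • (gradN e z - gradN e z'))
  have h14 := norm_add_le ((‖z‖ - ‖z'‖) • gradN e z) (‖z'‖ • (gradN e z - gradN e z'))
  have e3 : (Q * (2 * n) + B + B * (2 * n ^ 3)) * d =
      Q * (2 * n * d) + d * B + n * (B * (n * (2 * n * d))) := by ring
  rw [e3]
  linarith

/-- The centres of a null piece form a null set. -/
lemma touch_null [FiniteDimensional ℝ X] [MeasurableSpace X] [BorelSpace X] [MeasurableSpace E']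
    [BorelSpace E'] (i : ℕ) {d : ℝ} (hd : 0 ≤ d) (h0 : μH[d] (touchPiece X i) = 0) :
    μH[d] (touchMap e '' touchPiece X i) = 0 := by
  have : ProperSpace X := FiniteDimensional.proper_real X
  obtain ⟨δ, hδ⟩ : ∃ δ, δ = 1 / (2 * ((i : ℝ) + 1) ^ 2) := ⟨_, rfl⟩
  have hδp : 0 < δ := by
    rw [hδ]
    positivity
  have hsub : touchMap e '' touchPiece X i ⊆ ⋃ m : ℕ, touchMap e '' (touchPiece X i ∩
      ball (TopologicalSpace.denseSeq X m) (δ / 2)) := by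
    rintro _ ⟨z, hz, rfl⟩
    obtain ⟨m, hm⟩ := (TopologicalSpace.denseRange_denseSeq X).exists_dist_lt z (half_pos hδp)
    refine mem_iUnion.2 ⟨m, z, ⟨hz, ?_⟩, rfl⟩
    rw [mem_ball]
    exact hm
  refine measure_mono_null hsub (measure_iUnion_null fun m => ?_)
  have hlip := touch_lipschitz e i (S := touchPiece X i ∩
    ball (TopologicalSpace.denseSeq X m) (δ / 2)) inter_subset_left (by
      rintro z ⟨-, hz⟩ z' ⟨-, hz'⟩
      rw [← hδ]
      rw [mem_ball, dist_eq_norm] at hz hz'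
      have e1 : z - z' = (z - TopologicalSpace.denseSeq X m) - (z' - TopologicalSpace.denseSeq X m) := by
        abel
      rw [e1]
      refine (norm_sub_le _ _).trans_lt ?_
      linarith)
  have h1 := hlip.hausdorffMeasure_image_le hd
  have h2 : μH[d] (touchPiece X i ∩ ball (TopologicalSpace.denseSeq X m) (δ / 2)) = 0 :=
    measure_mono_null inter_subset_left h0
  rw [h2, mul_zero] at h1
  exact le_antisymm h1 zero_le

include e in
/-- Some piece is not null. -/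
theorem exists_touch_piece [FiniteDimensional ℝ X] [Nontrivial X] [MeasurableSpace X] [BorelSpace X]
    [MeasurableSpace E'] [BorelSpace E'] (hD : ∀ z : X, z ≠ 0 → Dn z)
    (hR : ∀ x : X, ‖x‖ = 1 → Rate x) : ∃ i, μH[(finrank ℝ X : ℝ)] (touchPiece X i) ≠ 0 := by
  by_contra hcon
  push Not at hcon
  have : Nontrivial E' := e.symm.surjective.nontrivial
  have h1 : ∀ i, μH[(finrank ℝ X : ℝ)] (touchMap e '' touchPiece X i) = 0 :=
    fun i => touch_null e i (by positivity) (hcon i)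
  have h2 : μH[(finrank ℝ X : ℝ)] (univ : Set E') = 0 := by
    refine measure_mono_null ?_ (measure_iUnion_null h1)
    intro c _
    obtain ⟨i, z, hz, hc⟩ := touch_cover e hD hR c
    exact mem_iUnion.2 ⟨i, z, hz, hc⟩
  have h3 : finrank ℝ X = finrank ℝ E' := e.toLinearEquiv.finrank_eq
  rw [h3] at h2
  exact (isOpen_univ.measure_pos μH[(finrank ℝ E' : ℝ)] univ_nonempty).ne' h2

/-- A non-null cone over touching points with uniform constants. -/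
theorem exists_touch_cone [FiniteDimensional ℝ X] [Nontrivial X] [MeasurableSpace X] [BorelSpace X]
    (hD : ∀ z : X, z ≠ 0 → Dn z) (hR : ∀ x : X, ‖x‖ = 1 → Rate x) :
    ∃ c₁ : ℝ, 0 < c₁ ∧ ∃ C₁ : ℝ, 0 < C₁ ∧ ∃ C : Set X, μH[(finrank ℝ X : ℝ)] C ≠ 0 ∧
      (∀ z ∈ C, z ≠ 0) ∧ (∀ z ∈ C, ∀ a : ℝ, 0 < a → a • z ∈ C) ∧
      ∀ z ∈ C, ‖z‖ = 1 → (∀ a, ‖a‖ = 1 → c₁ * ‖a - z‖ ^ 2 ≤ 1 - chi z a) ∧
        ∀ a, ‖a‖ = 1 → ‖a - z‖ < c₁ → ‖chi a - chi z‖ ≤ C₁ * ‖a - z‖ := by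
  obtain ⟨i, hi⟩ := exists_touch_piece (toEuclidean (E := X)) hD hR
  obtain ⟨c₁, hc₁⟩ : ∃ c₁ : ℝ, c₁ = 1 / ((i : ℝ) + 1) := ⟨_, rfl⟩
  obtain ⟨C₁, hC₁⟩ : ∃ C₁ : ℝ, C₁ = (i : ℝ) + 1 := ⟨_, rfl⟩
  refine ⟨c₁, by rw [hc₁]; positivity, C₁, by rw [hC₁]; positivity,
    {z | z ≠ 0 ∧ (∀ a, ‖a‖ = 1 → c₁ * ‖a - ‖z‖⁻¹ • z‖ ^ 2 ≤ 1 - chi z a) ∧
      ∀ a, ‖a‖ = 1 → ‖a - ‖z‖⁻¹ • z‖ < c₁ → ‖chi a - chi z‖ ≤ C₁ * ‖a - ‖z‖⁻¹ • z‖}, ?_, ?_, ?_, ?_⟩
  · intro h0
    apply hi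
    refine measure_mono_null ?_ h0
    rintro z ⟨h1, -, -, h2, h3⟩
    rw [← hc₁] at h2 h3
    rw [← hC₁] at h3
    exact ⟨h1, h2, h3⟩
  · exact fun z hz => hz.1
  · rintro z ⟨h1, h2, h3⟩ a ha
    refine ⟨smul_ne_zero ha.ne' h1, ?_, ?_⟩
    · rw [hat_smul ha, chi_smul ha]
      exact h2
    · rw [hat_smul ha, chi_smul ha]
      exact h3
  · rintro z ⟨h1, h2, h3⟩ hz
    have e1 : ‖z‖⁻¹ • z = z := by
      rw [hz, inv_one, one_smul]
    rw [e1] at h2 h3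
    exact ⟨h2, h3⟩

end Touch

end Vale.Agent.Lib.P084
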