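import Mathlib
import Vale.Agent.Lib.P084.Corner.Touch

/-! Every sphere isometry from a three-dimensional strictly convex normed space extends to a linear
isometry. -/

namespace Vale.Agent.Lib.P084

open Set Metric Filter Topology MeasureTheory Module

section Dim3

variable {X Y : Type*} [NormedAddCommGroup X] [NormedSpace ℝ X] [NormedAddCommGroup Y]
  [NormedSpace ℝ Y]

variable {g : X → Y} {h : Y → X}

/-- The direction property on the unit sphere. -/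
lemma DirPt.unit {C : Set X} (hcone : ∀ z ∈ C, ∀ a : ℝ, 0 < a → a • z ∈ C)
    (hC0 : ∀ z ∈ C, z ≠ 0) {x : X} (hx : ‖x‖ = 1) (hd : Dn x) (hD : DirPt C x) {u : X}
    (hu : chi x u = 0) {ε : ℝ} (hε : 0 < ε) :
    ∃ t : ℝ, 0 < t ∧ t < ε ∧ ∃ y ∈ C, ‖y‖ = 1 ∧ ‖y - (x + t • u)‖ ≤ ε * t := by
  obtain ⟨U, hU⟩ : ∃ U, U = ‖u‖ := ⟨_, rfl⟩
  have hU0 : 0 ≤ U := by
    rw [hU]
    exact norm_nonneg _
  have hε₂ : 0 < ε / (2 * (U + 1)) := by positivity
  have h1 := hd.hasFDerivAt.isLittleO.def hε₂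
  obtain ⟨δ, hδ, hball⟩ := Metric.eventually_nhds_iff.1 h1
  obtain ⟨ε₁, hε₁⟩ : ∃ ε₁, ε₁ = min (ε / 4) (δ / (U + 1)) := ⟨_, rfl⟩
  have hε₁p : 0 < ε₁ := by
    rw [hε₁]
    positivity
  have hε₁a : ε₁ ≤ ε / 4 := by
    rw [hε₁]
    exact min_le_left _ _
  have hε₁b : ε₁ ≤ δ / (U + 1) := by
    rw [hε₁]
    exact min_le_right _ _
  obtain ⟨t, ht, htε, v, hv, hvd⟩ := hD u ε₁ hε₁p
  have htU : ‖t • u‖ = t * U := by rw [norm_smul, Real.norm_of_nonneg ht.le, hU]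
  have htδ : t * U < δ := by
    have h2 : t < δ / (U + 1) := htε.trans_le hε₁b
    rw [lt_div_iff₀ (by positivity)] at h2
    nlinarith
  have h3 := hball (y := x + t • u) (by
    rw [dist_eq_norm, add_sub_cancel_left, htU]
    exact htδ)
  have e5 : (fderiv ℝ (fun w : X => ‖w‖) x) (t • u) = 0 := by
    change chi x (t • u) = 0
    rw [map_smul, hu, smul_zero]
  rw [add_sub_cancel_left, Real.norm_eq_abs, e5, sub_zero, hx, htU] at h3
  have hv0 := hC0 v hv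
  have hvp : 0 < ‖v‖ := norm_pos_iff.2 hv0
  have h4 : |‖v‖ - ‖x + t • u‖| ≤ ‖v - (x + t • u)‖ := abs_norm_sub_norm_le _ _
  have h5 : |‖v‖ - 1| ≤ ε₁ * t + ε / (2 * (U + 1)) * (t * U) := by
    have e : ‖v‖ - 1 = (‖v‖ - ‖x + t • u‖) + (‖x + t • u‖ - 1) := by ring
    rw [e]
    refine (abs_add_le _ _).trans ?_
    linarith
  have h6 : ‖‖v‖⁻¹ • v - v‖ = |‖v‖ - 1| := by
    have e : ‖v‖⁻¹ • v - v = (‖v‖⁻¹ - 1) • v := by
      rw [sub_smul, one_smul]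
    rw [e, norm_smul, Real.norm_eq_abs]
    have e2 : |‖v‖⁻¹ - 1| * ‖v‖ = |(‖v‖⁻¹ - 1) * ‖v‖| := by
      rw [abs_mul, abs_of_pos hvp]
    rw [e2, sub_mul, inv_mul_cancel₀ hvp.ne', one_mul, abs_sub_comm]
  refine ⟨t, ht, htε.trans_le (hε₁a.trans (by linarith)), ‖v‖⁻¹ • v,
    hcone v hv _ (inv_pos.2 hvp), unit_of_ne hv0, ?_⟩
  have e3 : ‖v‖⁻¹ • v - (x + t • u) = (‖v‖⁻¹ • v - v) + (v - (x + t • u)) := by abel
  rw [e3]
  refine (norm_add_le _ _).trans ?_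
  rw [h6]
  have h7 : ε / (2 * (U + 1)) * (t * U) ≤ ε / 2 * t := by
    have e4 : ε / (2 * (U + 1)) * (t * U) = ε / 2 * t * (U / (U + 1)) := by
      field_simp
    rw [e4]
    have h8 : U / (U + 1) ≤ 1 := by
      rw [div_le_one (by positivity)]
      linarith
    exact mul_le_of_le_one_right (by positivity) h8
  have h9 : ε₁ * t ≤ ε / 4 * t := mul_le_mul_of_nonneg_right hε₁a ht.le
  have h10 : ‖v - (x + t • u)‖ ≤ ε₁ * t := hvd.le
  linarith

/-- The `C^{1,1}` case in dimension three. -/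
theorem sphere_extends_dim3_C11 [FiniteDimensional ℝ X] [Nontrivial X] [StrictConvexSpace ℝ X]
    [StrictConvexSpace ℝ Y] [FiniteDimensional ℝ Y] [MeasurableSpace X] [BorelSpace X]
    (C : C1Ctx g h) (hdX : finrank ℝ X = 3) (hdY : finrank ℝ Y = 3)
    (hR : ∀ x : X, ‖x‖ = 1 → Rate x) : ∃ T : X ≃ₗᵢ[ℝ] Y, ∀ x, ‖x‖ = 1 → T x = g x := by
  obtain ⟨c₁, hc₁, C₁, hC₁, K, hKμ, hK0, hKc, hKt⟩ := exists_touch_cone C.dnX hR
  obtain ⟨C', hC's, hC'c, hC'd, z₀, hz₀, hz₀μ⟩ := exists_selfdense μH[(finrank ℝ X : ℝ)] hKc hKμ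
  have hz₀0 := hK0 _ (hC's hz₀)
  obtain ⟨x₁, hx₁⟩ : ∃ x₁, x₁ = ‖z₀‖⁻¹ • z₀ := ⟨_, rfl⟩
  have hx₁C : x₁ ∈ C' := by
    rw [hx₁]
    exact hC'c _ hz₀ _ (inv_pos.2 (norm_pos_iff.2 hz₀0))
  have hx₁u : ‖x₁‖ = 1 := by
    rw [hx₁]
    exact unit_of_ne hz₀0
  obtain ⟨r, hr, hnd⟩ := C.near_diag hdY (c := 2 * c₁ / C₁) (by positivity)
    (E := {x | x ∈ C' ∧ ‖x‖ = 1 ∧ ‖x - x₁‖ < c₁ / 2}) (fun x hx => hx.2.1) (by
      rintro x ⟨hxC, hxu, hxr⟩ y ⟨hyC, hyu, hyr⟩ -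
      have hxy : ‖y - x‖ < c₁ := by
        have e : y - x = (y - x₁) - (x - x₁) := by abel
        rw [e]
        refine (norm_sub_le _ _).trans_lt ?_
        linarith
      obtain ⟨l1, r1⟩ := hKt x (hC's hxC) hxu
      obtain ⟨l2, -⟩ := hKt y (hC's hyC) hyu
      have h1 := l1 y hyu
      have h2 := l2 x hxu
      have h3 : ‖chi x - chi y‖ ≤ C₁ * ‖x - y‖ := by
        rw [norm_sub_rev (chi x), norm_sub_rev x]
        exact r1 y hyu hxy
      rw [norm_sub_rev y x] at h1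
      have e1 : (chi x - chi y) (x - y) = 2 - chi x y - chi y x := by
        rw [_root_.sub_apply, map_sub, map_sub, (C.dnX x (ne0_of_unit x hxu)).chi_self,
          (C.dnX y (ne0_of_unit y hyu)).chi_self, hxu, hyu]
        ring
      rw [e1]
      have h4 : 2 * c₁ / C₁ * (‖chi x - chi y‖ * ‖x - y‖) ≤ 2 * c₁ / C₁ * (C₁ * ‖x - y‖ * ‖x - y‖) :=
        mul_le_mul_of_nonneg_left (mul_le_mul_of_nonneg_right h3 (norm_nonneg _)) (by positivity)
      have e2 : 2 * c₁ / C₁ * (C₁ * ‖x - y‖ * ‖x - y‖) = 2 * (c₁ * ‖x - y‖ ^ 2) := by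
        field_simp
      linarith) hx₁u
  obtain ⟨ρ, hρ⟩ : ∃ ρ, ρ = min (c₁ / 2) (min r (1 / 2)) := ⟨_, rfl⟩
  have hρp : 0 < ρ := by
    rw [hρ]
    positivity
  have hρ1 : ρ ≤ c₁ / 2 := by
    rw [hρ]
    exact min_le_left _ _
  have hρ2 : ρ ≤ r := by
    rw [hρ]
    exact (min_le_right _ _).trans (min_le_left _ _)
  have hρ3 : ρ ≤ 1 / 2 := by
    rw [hρ]
    exact (min_le_right _ _).trans (min_le_right _ _)
  obtain ⟨F, hF⟩ : ∃ F, F = {x | x ∈ C' ∧ ‖x‖ = 1 ∧ ‖x - x₁‖ < ρ} := ⟨_, rfl⟩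
  have hdist : ∀ {x y : X}, x ∈ F → y ∈ F → ‖y - x‖ < 2 * ρ := by
    intro x y hx hy
    rw [hF] at hx hy
    have e : y - x = (y - x₁) - (x - x₁) := by abel
    rw [e]
    refine (norm_sub_le _ _).trans_lt ?_
    linarith [hx.2.2, hy.2.2]
  have P : Patch g F c₁ C₁ := by
    refine ⟨hc₁, hC₁, ?_, ?_, ?_, ?_, ?_, ?_⟩
    · intro x hx
      rw [hF] at hx
      exact hx.2.1
    · intro x hx y hy
      have := hdist hy hx
      linarith
    · intro x hx y hy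
      have hy' := hy
      rw [hF] at hx hy'
      exact (hKt x (hC's hx.1) hx.2.1).1 y hy'.2.1
    · intro x hx y hy
      have hd := hdist hx hy
      have hy' := hy
      rw [hF] at hx hy'
      exact (hKt x (hC's hx.1) hx.2.1).2 y hy'.2.1 (by linarith)
    · intro x hx u hu ε hε
      rw [hF] at hx
      obtain ⟨hxC, hxu, hxr⟩ := hx
      have hη : 0 < ρ - ‖x - x₁‖ := sub_pos.2 hxr
      obtain ⟨ε', hε'⟩ : ∃ ε', ε' = min ε (min 1 ((ρ - ‖x - x₁‖) / (‖u‖ + 1))) := ⟨_, rfl⟩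
      have hε'p : 0 < ε' := by
        rw [hε']
        positivity
      have hε'a : ε' ≤ ε := by
        rw [hε']
        exact min_le_left _ _
      have hε'b : ε' ≤ 1 := by
        rw [hε']
        exact (min_le_right _ _).trans (min_le_left _ _)
      have hε'c : ε' ≤ (ρ - ‖x - x₁‖) / (‖u‖ + 1) := by
        rw [hε']
        exact (min_le_right _ _).trans (min_le_right _ _)
      obtain ⟨t, ht, htε, y, hyC, hyu, hyd⟩ := (hC'd x hxC).unit hC'c (fun z hz => hK0 z (hC's hz))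
        hxu (C.dnX x (ne0_of_unit x hxu)) hu hε'p
      refine ⟨t, ht, htε.trans_le hε'a, y, ?_, hyd.trans
        (mul_le_mul_of_nonneg_right hε'a ht.le)⟩
      rw [hF]
      refine ⟨hyC, hyu, ?_⟩
      have e : y - x₁ = (y - (x + t • u)) + t • u + (x - x₁) := by abel
      rw [e]
      have h1 := norm_add_le ((y - (x + t • u)) + t • u) (x - x₁)
      have h2 := norm_add_le (y - (x + t • u)) (t • u)
      rw [norm_smul, Real.norm_of_nonneg ht.le] at h2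
      have h3 : t < (ρ - ‖x - x₁‖) / (‖u‖ + 1) := htε.trans_le hε'c
      rw [lt_div_iff₀ (by positivity)] at h3
      have h4 : ε' * t ≤ 1 * t := mul_le_mul_of_nonneg_right hε'b ht.le
      linarith
    · intro x hx y hy d hd1 hd2
      rw [hF] at hx hy
      exact hnd x ⟨hx.1, hx.2.1, by linarith [hx.2.2]⟩ y ⟨hy.1, hy.2.1, by linarith [hy.2.2]⟩
        (by linarith [hx.2.2]) (by linarith [hy.2.2]) d hd1 hd2
  have hx₁F : x₁ ∈ F := by
    rw [hF]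
    refine ⟨hx₁C, hx₁u, ?_⟩
    rw [sub_self, norm_zero]
    exact hρp
  obtain ⟨L, hL⟩ := P.exists_linear C hdX hdY hx₁F
  refine C.extends_of_const (hdX.trans hdY.symm) (L := L) ?_
  obtain ⟨N, hN⟩ : ∃ N, N = ‖z₀‖ := ⟨_, rfl⟩
  have hNp : 0 < N := by
    rw [hN]
    exact norm_pos_iff.2 hz₀0
  intro h0
  refine hz₀μ (min (N / 2) (ρ * N / 8)) (by positivity) (measure_mono_null ?_ h0)
  rintro v ⟨hvC, hvb⟩
  rw [mem_closedBall, dist_eq_norm] at hvb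
  have hv1 : ‖v - z₀‖ ≤ N / 2 := hvb.trans (min_le_left _ _)
  have hv2 : ‖v - z₀‖ ≤ ρ * N / 8 := hvb.trans (min_le_right _ _)
  have hv0 : v ≠ 0 := hK0 v (hC's hvC)
  have hvp : 0 < ‖v‖ := norm_pos_iff.2 hv0
  have hvlow : N / 2 ≤ ‖v‖ := by
    have := abs_norm_sub_norm_le z₀ v
    rw [norm_sub_rev] at this
    have h2 := (abs_le.1 this).2
    rw [← hN] at h2
    linarith
  have hF1 : ‖v‖⁻¹ • v ∈ F := by
    rw [hF]
    refine ⟨hC'c v hvC _ (inv_pos.2 hvp), unit_of_ne hv0, ?_⟩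
    have h1 := normalize_dist (v₀ := z₀) hv0
    rw [← hx₁] at h1
    refine h1.trans_lt ?_
    rw [div_lt_iff₀ hvp]
    have h2 : ρ * (N / 2) ≤ ρ * ‖v‖ := mul_le_mul_of_nonneg_left hvlow hρp.le
    have h3 : 0 < ρ * N := by positivity
    linarith
  refine ⟨hv0, ?_⟩
  have h1 := hL _ hF1
  rwa [C.dT_smul hv0 (inv_pos.2 hvp)] at h1

/-- **Every sphere isometry from a three-dimensional strictly convex normed space extends to a
linear isometry.** -/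
theorem strict_dim3_extends [FiniteDimensional ℝ X] [StrictConvexSpace ℝ X]
    (hdim : finrank ℝ X = 3) (f : sphere (0 : X) 1 ≃ᵢ sphere (0 : Y) 1) :
    ∃ T : X ≃ₗᵢ[ℝ] Y, ∀ x : sphere (0 : X) 1, T x = f x := by
  by_cases hR : (∃ x₀ : X, ‖x₀‖ = 1 ∧ ¬(Dn x₀ ∧ Rate x₀)) ∨ (∃ y₀ : Y, ‖y₀‖ = 1 ∧ ¬(Dn y₀ ∧ Rate y₀))
  · exact strict_extends_of_rough f hR
  push Not at hR
  obtain ⟨hX, hY⟩ := hR
  have hFY : FiniteDimensional ℝ Y := finiteDimensional_of_sphere f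
  have hNX : Nontrivial X := Module.nontrivial_of_finrank_pos (R := ℝ) (by rw [hdim]; norm_num)
  let _ : MeasurableSpace X := borel X
  have : BorelSpace X := ⟨rfl⟩
  obtain ⟨g, h, H, hg⟩ := exists_sphereIso f
  have hSY : StrictConvexSpace ℝ Y := strictConvex_of_sphere H
  have hdY : finrank ℝ Y = 3 := (finrank_eq_of_sphereIso H).symm.trans hdim
  have hDX : ∀ z : X, z ≠ 0 → Dn z := by
    intro z hz
    have h1 := (hX _ (unit_of_ne hz)).1.smul (norm_pos_iff.2 hz)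
    rwa [smul_smul, mul_inv_cancel₀ (norm_ne_zero_iff.2 hz), one_smul] at h1
  have hDY : ∀ z : Y, z ≠ 0 → Dn z := by
    intro z hz
    have h1 := (hY _ (unit_of_ne hz)).1.smul (norm_pos_iff.2 hz)
    rwa [smul_smul, mul_inv_cancel₀ (norm_ne_zero_iff.2 hz), one_smul] at h1
  obtain ⟨T, hT⟩ := sphere_extends_dim3_C11 (C1Ctx.of_dn H hDX hDY) hdim hdY
    (fun x hx => (hX x hx).2)
  refine ⟨T, fun x => ?_⟩
  rw [← hg x]
  exact hT x (by simpa using x.2)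

end Dim3

end Vale.Agent.Lib.P084
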